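import Vale.Agent.P070.GNS

/-! Basic facts on closed spans, faithful traces and decreasing sequences of projections. -/

open scoped ComplexOrder InnerProductSpace
open Filter Topology

namespace Vale.Agent.P070

variable {R : Type*} [CStarAlgebra R] {τ : R →L[ℂ] ℂ}

section cspan

theorem isClosed_cspan (s : Set R) : IsClosed (cspan s : Set R) :=
  Submodule.isClosed_topologicalClosure _

theorem subset_cspan (s : Set R) : s ⊆ cspan s := fun _ hx =>
  Submodule.le_topologicalClosure _ (Submodule.subset_span hx)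

theorem mem_cspan {s : Set R} {x : R} (hx : x ∈ s) : x ∈ cspan s := subset_cspan s hx

theorem cspan_le {s : Set R} {M : Submodule ℂ R} (hM : IsClosed (M : Set R)) (h : s ⊆ M) :
    cspan s ≤ M :=
  Submodule.topologicalClosure_minimal _ (Submodule.span_le.2 h) hM

theorem cspan_mono {s t : Set R} (h : s ⊆ t) : cspan s ≤ cspan t :=
  cspan_le (isClosed_cspan t) (h.trans (subset_cspan t))

theorem mem_cspan_iff {s : Set R} {x : R} :
    x ∈ cspan s ↔ x ∈ closure (Submodule.span ℂ s : Set R) := Iff.rfl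

theorem map_mem_of_cspan {E : Type*} [NormedAddCommGroup E] [NormedSpace ℂ E] (f : R →L[ℂ] E)
    {s : Set R} {M : Submodule ℂ E} (hM : IsClosed (M : Set E)) (h : ∀ x ∈ s, f x ∈ M) {x : R}
    (hx : x ∈ cspan s) : f x ∈ M :=
  cspan_le (M := M.comap (f : R →ₗ[ℂ] E)) (hM.preimage f.continuous) h hx

theorem map_eq_zero_of_cspan {E : Type*} [NormedAddCommGroup E] [NormedSpace ℂ E]
    (f : R →L[ℂ] E) {s : Set R} (h : ∀ x ∈ s, f x = 0) {x : R} (hx : x ∈ cspan s) : f x = 0 := by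
  have := map_mem_of_cspan f (M := ⊥) (by simp) (fun y hy => by simpa using h y hy) hx
  simpa using this

theorem mul_mul_mem_of_cspan {s : Set R} {M : Submodule ℂ R} (hM : IsClosed (M : Set R))
    (c c' : R) (h : ∀ a ∈ s, c * a * c' ∈ M) {a : R} (ha : a ∈ cspan s) : c * a * c' ∈ M :=
  map_mem_of_cspan (ContinuousLinearMap.mulLeftRight ℂ R c c') hM h ha

theorem mul_mem_of_cspan {s t : Set R} {M : Submodule ℂ R} (hM : IsClosed (M : Set R)) (c : R)
    (h : ∀ a ∈ s, ∀ b ∈ t, c * a * b ∈ M) {a b : R} (ha : a ∈ cspan s) (hb : b ∈ cspan t) :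
    c * a * b ∈ M := by
  refine mul_mul_mem_of_cspan hM c b (fun a ha => ?_) ha
  have := mul_mul_mem_of_cspan hM (c * a) 1 (fun b hb => by simpa using h a ha b hb) hb
  simpa using this

theorem tr_eq_zero_of_cspan {s : Set R} (c c' : R) (h : ∀ a ∈ s, τ (c * a * c') = 0) {a : R}
    (ha : a ∈ cspan s) : τ (c * a * c') = 0 :=
  map_eq_zero_of_cspan (τ.comp (ContinuousLinearMap.mulLeftRight ℂ R c c')) h ha

theorem cspan_le_starSubalgebra {s : Set R} {B : StarSubalgebra ℂ R} (hB : IsClosed (B : Set R))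
    (h : s ⊆ B) {x : R} (hx : x ∈ cspan s) : x ∈ B :=
  cspan_le (M := Subalgebra.toSubmodule B.toSubalgebra) hB h hx

end cspan

section trace

/-- Squared `L²` norm. -/
noncomputable def n2 (τ : R →L[ℂ] ℂ) (x : R) : ℝ := (τ (star x * x)).re

theorem gns_norm_sq {H : Type*} [NormedAddCommGroup H] [InnerProductSpace ℂ H] [CompleteSpace H]
    {Ω : H} {ι : R →⋆ₐ[ℂ] (H →L[ℂ] H)} (h : ∀ x, ⟪Ω, ι x Ω⟫_ℂ = τ x) (x : R) :
    ‖ι x Ω‖ ^ 2 = n2 τ x := by
  rw [n2, ← h, map_mul, map_star, mul_apply_eq_comp,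
    ContinuousLinearMap.star_eq_adjoint, ContinuousLinearMap.adjoint_inner_right,
    ← inner_self_eq_norm_sq (𝕜 := ℂ)]
  rfl

theorem gns_inner {H : Type*} [NormedAddCommGroup H] [InnerProductSpace ℂ H] [CompleteSpace H]
    {Ω : H} {ι : R →⋆ₐ[ℂ] (H →L[ℂ] H)} (h : ∀ x, ⟪Ω, ι x Ω⟫_ℂ = τ x) (x y : R) :
    ⟪ι x Ω, ι y Ω⟫_ℂ = τ (star x * y) := by
  rw [← h, map_mul, map_star, mul_apply_eq_comp,
    ContinuousLinearMap.star_eq_adjoint, ContinuousLinearMap.adjoint_inner_right]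

namespace IsFT

theorem map_star (h : IsFT τ) (x : R) : τ (star x) = star (τ x) := by
  obtain ⟨H, _, _, _, Ω, ι, hι, -⟩ := h.exists_gns
  have h1 := gns_inner hι x 1
  have h2 := gns_inner hι 1 x
  rw [mul_one] at h1
  rw [star_one, one_mul] at h2
  rw [← h1, ← h2, ← inner_conj_symm]; rfl

theorem n2_nonneg (h : IsFT τ) (x : R) : 0 ≤ n2 τ x := (h.nonneg x).1

theorem ofReal_n2 (h : IsFT τ) (x : R) : (n2 τ x : ℂ) = τ (star x * x) := by
  have := (h.nonneg x).2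
  apply Complex.ext <;> simp [n2, ← this]

theorem norm_eq_n2 (h : IsFT τ) (x : R) : ‖τ (star x * x)‖ = n2 τ x := by
  rw [← h.ofReal_n2, Complex.norm_real, Real.norm_of_nonneg (h.n2_nonneg x)]

theorem n2_star (h : IsFT τ) (x : R) : n2 τ (star x) = n2 τ x := by
  rw [n2, n2, star_star, h.comm]

theorem eq_zero_of_n2 (h : IsFT τ) {x : R} (hx : n2 τ x = 0) : x = 0 :=
  h.faithful x (by rw [← h.ofReal_n2, hx]; simp)

theorem n2_mul_le (h : IsFT τ) (x y : R) : n2 τ (x * y) ≤ ‖x‖ ^ 2 * n2 τ y := by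
  obtain ⟨H, _, _, _, Ω, ι, hι, -⟩ := h.exists_gns
  rw [← gns_norm_sq hι, ← gns_norm_sq hι, map_mul, mul_apply_eq_comp, ← mul_pow]
  gcongr
  exact ((ι x).le_opNorm _).trans (by gcongr; exact NonUnitalStarAlgHom.norm_apply_le ι x)

theorem n2_mul_le' (h : IsFT τ) (x y : R) : n2 τ (x * y) ≤ ‖y‖ ^ 2 * n2 τ x := by
  rw [← h.n2_star, star_mul]
  simpa [h.n2_star] using h.n2_mul_le (star y) (star x)

theorem norm_star_mul_le (h : IsFT τ) (x y : R) :
    ‖τ (star x * y)‖ ≤ √(n2 τ x) * √(n2 τ y) := by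
  obtain ⟨H, _, _, _, Ω, ι, hι, -⟩ := h.exists_gns
  rw [← gns_inner hι, ← gns_norm_sq hι, ← gns_norm_sq hι, Real.sqrt_sq (norm_nonneg _),
    Real.sqrt_sq (norm_nonneg _)]
  exact norm_inner_le_norm _ _

theorem n2_proj (h : IsFT τ) {p : R} (hp : IsStarProjection p) : n2 τ p = ‖τ p‖ := by
  rw [← h.norm_eq_n2, hp.isSelfAdjoint.star_eq, hp.isIdempotentElem.eq]

theorem ofReal_norm_proj (h : IsFT τ) {p : R} (hp : IsStarProjection p) : (‖τ p‖ : ℂ) = τ p := by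
  rw [← h.n2_proj hp, h.ofReal_n2, hp.isSelfAdjoint.star_eq, hp.isIdempotentElem.eq]

theorem norm_proj_mul_le (h : IsFT τ) {p : R} (hp : IsStarProjection p) (x : R) :
    ‖τ (p * x)‖ ≤ ‖p * x * p‖ * ‖τ p‖ := by
  have h1 : τ (p * x) = τ (star p * (p * x * p * p)) := by
    rw [hp.isSelfAdjoint.star_eq, mul_assoc _ p p, hp.isIdempotentElem.eq, ← mul_assoc,
      ← mul_assoc, hp.isIdempotentElem.eq, h.comm (p * x) p, ← mul_assoc, hp.isIdempotentElem.eq]
  rw [h1]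
  refine (h.norm_star_mul_le _ _).trans ?_
  have h2 := h.n2_mul_le (p * x * p) p
  have h3 : √(n2 τ (p * x * p * p)) ≤ ‖p * x * p‖ * √(n2 τ p) := by
    rw [← Real.sqrt_sq (norm_nonneg (p * x * p)), ← Real.sqrt_mul (sq_nonneg _)]
    exact Real.sqrt_le_sqrt h2
  calc _ ≤ √(n2 τ p) * (‖p * x * p‖ * √(n2 τ p)) := by gcongr
    _ = ‖p * x * p‖ * (√(n2 τ p) * √(n2 τ p)) := by ring
    _ = _ := by rw [Real.mul_self_sqrt (h.n2_nonneg p), h.n2_proj hp]

theorem norm_proj_mul_le' (h : IsFT τ) {p : R} (hp : IsStarProjection p) (x : R) :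
    ‖τ (p * x)‖ ≤ ‖x‖ * ‖τ p‖ := by
  refine (h.norm_proj_mul_le hp x).trans ?_
  gcongr
  calc ‖p * x * p‖ ≤ ‖p‖ * ‖x‖ * ‖p‖ := norm_mul₃_le
    _ ≤ 1 * ‖x‖ * 1 := by gcongr <;> exact hp.norm_le
    _ = _ := by ring

theorem norm_le (h : IsFT τ) (x : R) : ‖τ x‖ ≤ ‖x‖ := by
  simpa [h.map_one] using h.norm_proj_mul_le' (IsStarProjection.one R) x

theorem restrict (h : IsFT τ) (C : StarSubalgebra ℂ R) [hC : IsClosed (C : Set R)] :
    IsFT (τ.comp (⟨C.subtype.toLinearMap, continuous_subtype_val⟩ : C →L[ℂ] R)) where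
  map_one := h.map_one
  comm x y := h.comm x y
  nonneg x := h.nonneg x
  faithful x hx := Subtype.ext (h.faithful x hx)

theorem gns_injective (h : IsFT τ) {H : Type*} [NormedAddCommGroup H] [InnerProductSpace ℂ H]
    [CompleteSpace H] {Ω : H} {ι : R →⋆ₐ[ℂ] (H →L[ℂ] H)} (hι : ∀ x, ⟪Ω, ι x Ω⟫_ℂ = τ x) :
    Function.Injective ι := by
  refine (injective_iff_map_eq_zero ι).2 fun x hx => h.eq_zero_of_n2 ?_
  rw [← gns_norm_sq hι, hx]; simp

/-- The norm of an element of a closed subalgebra can be computed in the `L²` space of the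
subalgebra. -/
theorem norm_le_of_forall (h : IsFT τ) {C : StarSubalgebra ℂ R} (hC : IsClosed (C : Set R))
    {T : R} (hT : T ∈ C) {c : ℝ} (hc : 0 ≤ c)
    (hle : ∀ y ∈ C, n2 τ (T * y) ≤ c ^ 2 * n2 τ y) : ‖T‖ ≤ c := by
  have h' := h.restrict C
  obtain ⟨H, _, _, _, Ω, ι, hι, hd⟩ := h'.exists_gns
  have hn : ‖ι ⟨T, hT⟩‖ = ‖T‖ := NonUnitalStarAlgHom.norm_map ι (h'.gns_injective hι) _
  rw [← hn]
  refine ContinuousLinearMap.opNorm_le_bound _ hc fun v => ?_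
  refine hd.induction_on v (isClosed_le (by fun_prop) (by fun_prop)) fun y => ?_
  have h1 := gns_norm_sq hι (⟨T, hT⟩ * y)
  have h2 := gns_norm_sq hι y
  have h3 : ‖ι (⟨T, hT⟩ * y) Ω‖ ^ 2 ≤ (c * ‖ι y Ω‖) ^ 2 := by
    rw [h1, mul_pow, h2]; exact hle y y.2
  rw [map_mul] at h3
  exact (pow_le_pow_iff_left₀ (norm_nonneg _) (by positivity) two_ne_zero).1 h3

end IsFT

end trace

end Vale.Agent.P070
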