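import Vale.Agent.P070.Gram

/-! The Pauli (CAR) base algebra. -/

open scoped ComplexOrder InnerProductSpace
open Filter Topology

namespace Vale.Agent.P070

lemma zmod2_cases (x : ZMod 2) : x = 0 ∨ x = 1 := by revert x; decide

@[simp] lemma sgn_zero : sgn 0 = 1 := if_pos rfl

@[simp] lemma sgn_one : sgn 1 = -1 := if_neg (by decide)

lemma sgn_add (x y : ZMod 2) : sgn (x + y) = sgn x * sgn y := by
  have h : (1 : ZMod 2) + 1 = 0 := by decide
  rcases zmod2_cases x with rfl | rfl <;> rcases zmod2_cases y with rfl | rfl <;> simp [h]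

lemma sgn_mul_self (x : ZMod 2) : sgn x * sgn x = 1 := by
  rcases zmod2_cases x with rfl | rfl <;> simp

lemma conj_sgn (x : ZMod 2) : (starRingEnd ℂ) (sgn x) = sgn x := by
  rcases zmod2_cases x with rfl | rfl <;> simp

lemma sg_add_left (v w u : PV) : sg (v + w) u = sg v u * sg w u := by
  unfold sg
  rw [← sgn_add, Prod.snd_add, Finsupp.sum_add_index'] <;> simp [add_mul]

lemma sg_add_right (v w u : PV) : sg v (w + u) = sg v w * sg v u := by
  unfold sg
  rw [← sgn_add, ← Finsupp.sum_add]
  simp [mul_add]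

lemma sg_mul_self (v w : PV) : sg v w * sg v w = 1 := sgn_mul_self _

lemma sg_of_snd {v : PV} (h : v.2 = 0) (w : PV) : sg v w = 1 := by simp [sg, h]

lemma sg_of_fst (v : PV) {w : PV} (h : w.1 = 0) : sg v w = 1 := by simp [sg, h]

lemma sg_single_right (v : PV) (n : ℕ) (b : ℕ →₀ ZMod 2) :
    sg v (Finsupp.single n 1, b) = sgn (v.2 n) := by
  unfold sg
  congr 1
  rw [Finsupp.sum, Finset.sum_eq_single n]
  · simp
  · intro i _ hi
    simp [hi]
  · intro h
    simp [Finsupp.notMem_support_iff.mp h]

lemma sg_single_left (v : PV) (n : ℕ) (b : ℕ →₀ ZMod 2) :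
    sg (b, Finsupp.single n 1) v = sgn (v.1 n) := by
  simp [sg]

lemma pv_add_self (v : PV) : v + v = 0 := by
  ext i <;> simp [CharTwo.add_self_eq_zero]

theorem exists_pauli_rep :
    ∃ (H : Type) (_ : NormedAddCommGroup H) (_ : InnerProductSpace ℂ H) (_ : CompleteSpace H)
      (Ω : H) (T : PV → H →L[ℂ] H), ‖Ω‖ = 1 ∧ Pauli T ∧
      ∀ v, v ≠ 0 → ⟪Ω, T v Ω⟫_ℂ = 0 := by
  classical
  let b : HilbertBasis PV ℂ (lp (fun _ : PV => ℂ) 2) := default
  have hd : Dense (Submodule.span ℂ (Set.range b) : Set (lp (fun _ : PV => ℂ) 2)) :=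
    Submodule.dense_iff_topologicalClosure_eq_top.mpr b.dense_span
  have hb := orthonormal_iff_ite.mp b.orthonormal
  have hU : ∀ v : PV, ∃ U : lp (fun _ : PV => ℂ) 2 →L[ℂ] lp (fun _ : PV => ℂ) 2,
      star U * U = 1 ∧ ∀ w, U (b w) = sg v w • b (v + w) := by
    intro v
    obtain ⟨U, h1, -, h2, -⟩ := exists_unitary_op b (fun w => sg v w • b (v + w))
      (fun i j => by
        rw [inner_smul_left, inner_smul_right, hb, hb]
        by_cases h : i = j
        · subst h
          simp only [if_true, mul_one]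
          rw [sg, conj_sgn, sgn_mul_self]
        · simp [h]) hd (by
        refine hd.mono ?_
        apply Submodule.span_le.mpr
        rintro _ ⟨w, rfl⟩
        have : b w = sg v (v + w) • (sg v (v + w) • b (v + (v + w))) := by
          rw [smul_smul, sg_mul_self, one_smul, ← add_assoc, pv_add_self, zero_add]
        rw [this]
        exact Submodule.smul_mem _ _ (Submodule.subset_span ⟨v + w, rfl⟩))
    exact ⟨U, h1, h2⟩
  choose T hT1 hT2 using hU
  have h0 : T 0 = 1 := ContinuousLinearMap.ext_on hd (by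
    rintro _ ⟨w, rfl⟩
    rw [hT2, sg_of_snd rfl, zero_add, one_smul, one_apply_eq_self])
  have hm : ∀ v w, T v * T w = sg v w • T (v + w) := fun v w => ContinuousLinearMap.ext_on hd (by
    rintro _ ⟨u, rfl⟩
    rw [mul_apply_eq_comp, smul_apply, hT2, hT2, map_smul, hT2, smul_smul, smul_smul, add_assoc,
      sg_add_left, sg_add_right]
    congr 1
    ring)
  refine ⟨_, inferInstance, inferInstance, inferInstance, b 0, T, b.orthonormal.1 0,
    ⟨h0, hm, fun v => ?_⟩, fun v hv => ?_⟩
  · have h1 : T v * (sg v v • T v) = 1 := by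
      rw [mul_smul_comm, hm, smul_smul, sg_mul_self, one_smul, pv_add_self, h0]
    rw [← mul_one (star (T v)), ← h1, ← mul_assoc, hT1, one_mul]
  · rw [hT2, inner_smul_right, hb, add_zero, if_neg hv.symm, mul_zero]

lemma cspan_ind {R : Type*} [CStarAlgebra R] {P : R → Prop} {s : Set R} (hs : ∀ x ∈ s, P x)
    (h0 : P 0) (hadd : ∀ x y, P x → P y → P (x + y)) (hsmul : ∀ (c : ℂ) x, P x → P (c • x))
    (hcl : ∀ x, (∀ ε : ℝ, 0 < ε → ∃ y, P y ∧ ‖x - y‖ < ε) → P x) : ∀ x ∈ cspan s, P x := by
  intro x hx
  refine hcl x fun ε hε => ?_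
  obtain ⟨y, hy, hxy⟩ := Metric.mem_closure_iff.mp hx ε hε
  refine ⟨y, ?_, by rwa [← dist_eq_norm]⟩
  clear hxy
  induction hy using Submodule.span_induction with
  | mem y hy => exact hs y hy
  | zero => exact h0
  | add y z _ _ hy hz => exact hadd y z hy hz
  | smul c y _ hy => exact hsmul c y hy

lemma norm_cut_le {R : Type*} [CStarAlgebra R] {p : R} (hp : IsStarProjection p) (x : R) :
    ‖p * x * p‖ ≤ ‖x‖ :=
  (norm_mul_le _ _).trans ((mul_le_of_le_one_right (norm_nonneg _) hp.norm_le).trans
    ((norm_mul_le _ _).trans (mul_le_of_le_one_left (norm_nonneg _) hp.norm_le)))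

lemma norm_one_le' {R : Type*} [CStarAlgebra R] : ‖(1 : R)‖ ≤ 1 := (IsStarProjection.one R).norm_le

lemma exc_cspan {R : Type*} [CStarAlgebra R] {p : ℕ → R} (hp : ∀ n, IsStarProjection (p n))
    (hp0 : ∀ n, p n ≠ 0) {s : Set R} (hs : ∀ x ∈ s, Exc p x) : ∀ x ∈ cspan s, Exc p x := by
  have smadd : ∀ x y, Sm p x p → Sm p y p → Sm p (x + y) p := by
    intro x y hx hy
    refine squeeze_zero (fun _ => norm_nonneg _) (fun k => ?_) (by simpa using hx.add hy)
    rw [mul_add, add_mul]
    exact norm_add_le _ _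
  have smsmul : ∀ (c : ℂ) x, Sm p x p → Sm p (c • x) p := by
    intro c x hx
    have := hx.const_mul ‖c‖
    rw [mul_zero] at this
    refine this.congr fun k => ?_
    rw [mul_smul_comm, smul_mul_assoc, norm_smul]
  have bound : ∀ x (c : ℂ), Sm p (x - c • 1) p → ‖c‖ ≤ ‖x‖ := by
    intro x c h
    have h1 : ∀ k, ‖c‖ - ‖x‖ ≤ ‖p k * (x - c • 1) * p k‖ := by
      intro k
      have e : p k * (x - c • 1) * p k = p k * x * p k - c • p k := by
        rw [mul_sub, sub_mul, mul_smul_comm, smul_mul_assoc, mul_one, (hp k).isIdempotentElem.eq]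
      have n1 : ‖p k‖ = 1 := by
        have h2 := CStarRing.norm_star_mul_self (x := p k)
        rw [(hp k).isSelfAdjoint.star_eq, (hp k).isIdempotentElem.eq] at h2
        exact (mul_right_eq_self₀.mp h2.symm).resolve_right (norm_ne_zero_iff.mpr (hp0 k))
      have h3 := norm_sub_norm_le (c • p k) (p k * x * p k)
      rw [norm_smul, n1, mul_one, norm_sub_rev] at h3
      have h4 := norm_cut_le (hp k) x
      rw [e]
      linarith
    have := ge_of_tendsto' h h1
    linarith
  refine cspan_ind hs ⟨0, by simp [Sm]⟩ ?_ ?_ ?_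
  · rintro x y ⟨c, hc⟩ ⟨d, hd⟩
    refine ⟨c + d, ?_⟩
    have := smadd _ _ hc hd
    rwa [show x - c • 1 + (y - d • 1) = x + y - (c + d) • 1 by module] at this
  · rintro a x ⟨c, hc⟩
    refine ⟨a * c, ?_⟩
    have := smsmul a _ hc
    rwa [smul_sub, smul_smul] at this
  · intro x hx
    choose y hy hxy using fun m : ℕ => hx (1 / ((m : ℝ) + 1)) Nat.one_div_pos_of_nat
    choose c hc using hy
    have hyx : Tendsto y atTop (𝓝 x) := by
      rw [tendsto_iff_norm_sub_tendsto_zero]
      refine squeeze_zero (fun _ => norm_nonneg _) (fun m => ?_) tendsto_one_div_add_atTop_nhds_zero_nat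
      rw [norm_sub_rev]
      exact (hxy m).le
    have hcc : CauchySeq c := by
      rw [Metric.cauchySeq_iff]
      intro ε hε
      obtain ⟨N, hN⟩ := Metric.cauchySeq_iff.mp hyx.cauchySeq ε hε
      refine ⟨N, fun m hm n hn => lt_of_le_of_lt ?_ (hN m hm n hn)⟩
      rw [dist_eq_norm, dist_eq_norm]
      apply bound
      have := smadd _ _ (hc m) (smsmul (-1) _ (hc n))
      rwa [show y m - c m • 1 + (-1 : ℂ) • (y n - c n • 1) = y m - y n - (c m - c n) • 1 by
        module] at this
    obtain ⟨d, hd⟩ := cauchySeq_tendsto_of_complete hcc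
    refine ⟨d, Metric.tendsto_atTop.mpr fun ε hε => ?_⟩
    have h1 : Tendsto (fun m => x - d • 1 - (y m - c m • 1)) atTop (𝓝 0) := by
      have := (tendsto_const_nhds (x := x - d • (1 : R))).sub (hyx.sub (hd.smul_const (1 : R)))
      rwa [sub_self] at this
    obtain ⟨m, hm⟩ := (Metric.tendsto_atTop.mp h1 (ε / 2) (half_pos hε))
    have h2 := hm m le_rfl
    obtain ⟨N, hN⟩ := Metric.tendsto_atTop.mp (hc m) (ε / 2) (half_pos hε)
    refine ⟨N, fun k hk => ?_⟩
    have h3 := hN k hk
    rw [dist_zero_right, norm_norm] at h3 ⊢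
    rw [dist_zero_right] at h2
    have e : p k * (x - d • 1) * p k
        = p k * (x - d • 1 - (y m - c m • 1)) * p k + p k * (y m - c m • 1) * p k := by
      rw [← add_mul, ← mul_add, sub_add_cancel]
    rw [e]
    refine (norm_add_le _ _).trans_lt ?_
    have := norm_cut_le (hp k) (x - d • 1 - (y m - c m • 1))
    linarith

lemma Av_add {R : Type*} [CStarAlgebra R] (X : ℕ → R) (k : ℕ) (x y : R) :
    Av X k (x + y) = Av X k x + Av X k y := by
  induction k with
  | zero => rfl
  | succ k ih =>
    simp only [Av, ih, mul_add, add_mul]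
    module

lemma Av_smul {R : Type*} [CStarAlgebra R] (X : ℕ → R) (k : ℕ) (c : ℂ) (x : R) :
    Av X k (c • x) = c • Av X k x := by
  induction k with
  | zero => rfl
  | succ k ih =>
    simp only [Av, ih, mul_smul_comm, smul_mul_assoc]
    module

lemma Av_norm_le {R : Type*} [CStarAlgebra R] {X : ℕ → R} (hX : ∀ n, ‖X n‖ ≤ 1) (k : ℕ) (x : R) :
    ‖Av X k x‖ ≤ ‖x‖ := by
  induction k with
  | zero => exact le_rfl
  | succ k ih =>
    have h1 : ‖X k * Av X k x * X k‖ ≤ ‖Av X k x‖ :=
      (norm_mul_le _ _).trans ((mul_le_of_le_one_right (norm_nonneg _) (hX k)).trans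
        ((norm_mul_le _ _).trans (mul_le_of_le_one_left (norm_nonneg _) (hX k))))
    have h2 := norm_add_le (Av X k x) (X k * Av X k x * X k)
    simp only [Av, norm_smul, norm_inv, Complex.norm_ofNat]
    linarith

lemma psi_cspan {R : Type*} [CStarAlgebra R] (τ : R →L[ℂ] ℂ) {p X : ℕ → R}
    (hp : ∀ n, IsStarProjection (p n)) (hX : ∀ n, ‖X n‖ ≤ 1) {s : Set R}
    (hs : ∀ x ∈ s, ∀ η : ℝ, 0 < η → ∀ᶠ k in atTop, ∀ᶠ n in atTop,
      ‖p n * (Av X k x - τ x • 1) * p n‖ ≤ η) :
    ∀ x ∈ cspan s, ∀ η : ℝ, 0 < η → ∀ᶠ k in atTop, ∀ᶠ n in atTop,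
      ‖p n * (Av X k x - τ x • 1) * p n‖ ≤ η := by
  have hadd : ∀ k n x y, p n * (Av X k (x + y) - τ (x + y) • 1) * p n
      = p n * (Av X k x - τ x • 1) * p n + p n * (Av X k y - τ y • 1) * p n := by
    intro k n x y
    rw [← add_mul, ← mul_add, Av_add, map_add]
    congr 2
    module
  have hsmul : ∀ k n (c : ℂ) x, p n * (Av X k (c • x) - τ (c • x) • 1) * p n
      = c • (p n * (Av X k x - τ x • 1) * p n) := by
    intro k n c x
    rw [← smul_mul_assoc, ← mul_smul_comm, Av_smul, map_smul, smul_sub, smul_assoc]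
  refine cspan_ind hs ?_ ?_ ?_ ?_
  · intro η hη
    refine Eventually.of_forall fun k => Eventually.of_forall fun n => ?_
    have := hsmul k n 0 0
    rw [zero_smul, zero_smul] at this
    rw [this, norm_zero]
    exact hη.le
  · intro x y hx hy η hη
    filter_upwards [hx _ (half_pos hη), hy _ (half_pos hη)] with k h1 h2
    filter_upwards [h1, h2] with n h3 h4
    rw [hadd]
    refine (norm_add_le _ _).trans ?_
    linarith
  · intro c x hx η hη
    filter_upwards [hx (η / (‖c‖ + 1)) (by positivity)] with k h1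
    filter_upwards [h1] with n h3
    rw [hsmul, norm_smul]
    rw [le_div_iff₀ (by positivity)] at h3
    nlinarith [norm_nonneg (p n * (Av X k x - τ x • 1) * p n)]
  · intro x hx η hη
    obtain ⟨y, hy, hxy⟩ := hx (η / 2 / (1 + ‖τ‖)) (by positivity)
    filter_upwards [hy _ (half_pos hη)] with k h1
    filter_upwards [h1] with n h3
    have e := hadd k n (x - y) y
    rw [sub_add_cancel] at e
    rw [e]
    refine (norm_add_le _ _).trans ?_
    have h4 := norm_cut_le (hp n) (Av X k (x - y) - τ (x - y) • 1)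
    have h5 := norm_sub_le (Av X k (x - y)) (τ (x - y) • (1 : R))
    have h6 := Av_norm_le hX k (x - y)
    have h7 : ‖τ (x - y) • (1 : R)‖ ≤ ‖τ‖ * ‖x - y‖ := by
      rw [norm_smul]
      exact (mul_le_of_le_one_right (norm_nonneg _) norm_one_le').trans (τ.le_opNorm _)
    rw [lt_div_iff₀ (by positivity)] at hxy
    linarith

/-- The product of the first `n` spectral projections. -/
noncomputable def pp {R : Type*} [CStarAlgebra R] (Z : ℕ → R) : ℕ → R
  | 0 => 1
  | n + 1 => pp Z n * ((2 : ℂ)⁻¹ • (1 + Z n))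

theorem Pauli.base {R : Type*} [CStarAlgebra R] {τ : R →L[ℂ] ℂ} (hτ : IsFT τ) {T : PV → R}
    (hT : Pauli T) {B : StarSubalgebra ℂ R} (hmem : ∀ v, T v ∈ B)
    (hdense : ∀ x ∈ B, x ∈ cspan (Set.range T)) : ∃ p X : ℕ → R, Base τ B p X := by
  classical
  let X : ℕ → R := fun n => T (Finsupp.single n 1, 0)
  let Z : ℕ → R := fun n => T (0, Finsupp.single n 1)
  have XT : ∀ n v, T v * X n = sgn (v.2 n) • (X n * T v) := by
    intro n v
    simp only [X]
    rw [hT.mul, hT.mul, sg_single_right, sg_of_snd rfl, one_smul, add_comm]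
  have ZT : ∀ n v, Z n * T v = sgn (v.1 n) • (T v * Z n) := by
    intro n v
    simp only [Z]
    rw [hT.mul, hT.mul, sg_single_left, sg_of_fst _ rfl, one_smul, add_comm]
  have XX : ∀ n, X n * X n = 1 := by
    intro n
    simp only [X]
    rw [hT.mul, sg_of_snd rfl, one_smul, pv_add_self, hT.zero]
  have ZZ : ∀ n, Z n * Z n = 1 := by
    intro n
    simp only [Z]
    rw [hT.mul, sg_of_fst _ rfl, one_smul, pv_add_self, hT.zero]
  have Xs : ∀ n, Star.star (X n) = X n := by
    intro n
    simp only [X]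
    rw [hT.star, sg_of_snd rfl, one_smul]
  have Zs : ∀ n, Star.star (Z n) = Z n := by
    intro n
    simp only [Z]
    rw [hT.star, sg_of_fst _ rfl, one_smul]
  have XTX : ∀ n v, X n * T v * X n = sgn (v.2 n) • T v := by
    intro n v
    rw [mul_assoc, XT, mul_smul_comm, ← mul_assoc, XX, one_mul]
  have ZTZ : ∀ n v, Z n * T v * Z n = sgn (v.1 n) • T v := by
    intro n v
    rw [ZT, smul_mul_assoc, mul_assoc, ZZ, mul_one]
  set p := pp Z with hpdef
  have p0 : p 0 = 1 := rfl
  have ps : ∀ n, p (n + 1) = p n * ((2 : ℂ)⁻¹ • (1 + Z n)) := fun n => rfl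
  have pcomm : ∀ n v, (∀ i, i < n → v.1 i = 0) → Commute (p n) (T v) := by
    intro n v
    induction n with
    | zero => intro _; exact Commute.one_left _
    | succ n ih =>
      intro h
      rw [ps]
      refine (ih fun i hi => h i (by omega)).mul_left (Commute.smul_left ?_ _)
      refine (Commute.one_left _).add_left ?_
      have := ZT n v
      rwa [h n (by omega), sgn_zero, one_smul] at this
  have pZ : ∀ n j, Commute (p n) (Z j) := fun n j => pcomm n _ fun _ _ => rfl
  have eproj : ∀ n, IsStarProjection ((2 : ℂ)⁻¹ • (1 + Z n)) := by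
    intro n
    constructor
    · rw [IsIdempotentElem, smul_mul_assoc, mul_smul_comm, add_mul, mul_add, mul_add, ZZ, one_mul,
        mul_one, one_mul]
      module
    · rw [IsSelfAdjoint, star_smul, star_add, star_one, Zs]
      simp
  have pproj : ∀ n, IsStarProjection (p n) := by
    intro n
    induction n with
    | zero => exact IsStarProjection.one R
    | succ n ih =>
      rw [ps]
      exact ih.mul (eproj n) (((Commute.one_right _).add_right (pZ n n)).smul_right _)
  have panti : ∀ k l, k ≤ l → p k * p l = p l := by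
    intro k l h
    induction l, h using Nat.le_induction with
    | base => exact (pproj k).isIdempotentElem.eq
    | succ l _ ih => rw [ps, ← mul_assoc, ih]
  have Zp : ∀ i n, i < n → Z i * p n = p n := by
    intro i n h
    have h1 : p (i + 1) * Z i = p (i + 1) := by
      rw [ps, mul_assoc, smul_mul_assoc, add_mul, ZZ, one_mul, add_comm]
    rw [← panti (i + 1) n h, ← mul_assoc, ← (pZ (i + 1) i).eq, h1]
  have pZ' : ∀ i n, i < n → p n * Z i = p n := fun i n h => by rw [(pZ n i).eq, Zp i n h]
  have split : ∀ n, p n = p (n + 1) + X n * p (n + 1) * X n := by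
    intro n
    have h1 : Commute (p n) (X n) := pcomm n _ fun i hi => by
      simp [hi.ne]
    have h2 : X n * Z n * X n = -Z n := by
      have := XTX n (0, Finsupp.single n 1)
      simpa using this
    rw [ps, ← mul_assoc, ← h1.eq, mul_assoc, mul_assoc, ← mul_add, ← mul_assoc, mul_smul_comm,
      smul_mul_assoc, mul_add (X n), add_mul, mul_one, XX, h2]
    rw [show (2 : ℂ)⁻¹ • (1 + Z n) + (2 : ℂ)⁻¹ • (1 + -Z n) = (1 : R) by module, mul_one]
  have trconj : ∀ (U x : R), U * U = 1 → τ (U * x * U) = τ x := by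
    intro U x hU
    rw [hτ.comm, ← mul_assoc, hU, one_mul]
  have trp : ∀ n, τ (p n) = (2 : ℂ)⁻¹ ^ n := by
    intro n
    induction n with
    | zero => rw [p0, hτ.map_one, pow_zero]
    | succ n ih =>
      have := congrArg τ (split n)
      rw [map_add, trconj _ _ (XX n), ih] at this
      rw [pow_succ, this]
      ring
  have kill : ∀ (v : PV) i n, v.1 i = 1 → i < n → p n * T v * p n = 0 := by
    intro v i n hv h
    have h1 : p n * T v * p n = -(p n * T v * p n) := by
      calc p n * T v * p n = p n * (Z i * T v) * p n := by rw [← mul_assoc (p n), pZ' i n h]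
        _ = -(p n * T v * (Z i * p n)) := by
          rw [ZT, hv, sgn_one, neg_one_smul, mul_neg, neg_mul]
          simp only [mul_assoc]
        _ = _ := by rw [Zp i n h]
    have h2 : (2 : ℂ) • (p n * T v * p n) = 0 := by
      rw [two_smul]
      nth_rewrite 1 [h1]
      exact neg_add_cancel _
    simpa using h2
  have fix : ∀ b : ℕ →₀ ZMod 2, ∀ᶠ n in atTop, T (0, b) * p n = p n := by
    intro b
    induction b using Finsupp.induction with
    | zero => exact Eventually.of_forall fun n => by rw [Prod.mk_zero_zero, hT.zero, one_mul]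
    | single_add i c f _ hc ih =>
      obtain rfl : c = 1 := (zmod2_cases c).resolve_left hc
      filter_upwards [ih, eventually_gt_atTop i] with n h1 h2
      have : T (0, Finsupp.single i 1 + f) = Z i * T (0, f) := by
        simp only [Z]
        rw [hT.mul, sg_of_fst _ rfl, one_smul, Prod.mk_add_mk, add_zero]
      rw [this, mul_assoc, h1, Zp i n h2]
  have trT1 : ∀ (v : PV) i, v.1 i = 1 → τ (T v) = 0 := by
    intro v i hv
    have := trconj _ (T v) (ZZ i)
    rw [ZTZ, hv, sgn_one, map_smul, smul_eq_mul] at this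
    linear_combination (-1 / 2) * this
  have trT2 : ∀ (v : PV) i, v.2 i = 1 → τ (T v) = 0 := by
    intro v i hv
    have := trconj _ (T v) (XX i)
    rw [XTX, hv, sgn_one, map_smul, smul_eq_mul] at this
    linear_combination (-1 / 2) * this
  have fcases : ∀ a : ℕ →₀ ZMod 2, a = 0 ∨ ∃ i, a i = 1 := by
    intro a
    by_cases h : a = 0
    · exact Or.inl h
    · obtain ⟨i, hi⟩ := Finsupp.ne_iff.mp h
      exact Or.inr ⟨i, (zmod2_cases (a i)).resolve_left hi⟩
  have AvT : ∀ (v : PV) k, Av X k (T v) = if ∀ i, i < k → v.2 i = 0 then T v else 0 := by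
    intro v k
    induction k with
    | zero => simp [Av]
    | succ k ih =>
      rw [Av, ih]
      by_cases h : ∀ i, i < k → v.2 i = 0
      · rw [if_pos h, XTX]
        rcases zmod2_cases (v.2 k) with h1 | h1
        · rw [if_pos, h1, sgn_zero]
          · module
          · intro i hi
            rcases Nat.lt_succ_iff_lt_or_eq.mp hi with h2 | h2
            · exact h i h2
            · rw [h2, h1]
        · rw [if_neg, h1, sgn_one]
          · module
          · intro h2
            rw [h2 k (by omega)] at h1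
            exact zero_ne_one h1
      · rw [if_neg h, if_neg fun h2 => h fun i hi => h2 i (by omega)]
        simp
  have Xn : ∀ n, ‖X n‖ ≤ 1 := by
    intro n
    have h1 := CStarRing.norm_star_mul_self (x := X n)
    rw [Xs, XX] at h1
    have h2 := norm_one_le' (R := R)
    nlinarith [norm_nonneg (X n)]
  refine ⟨p, X, ⟨⟨pproj, panti⟩, p0, fun k => ?_, ?_⟩, fun n => ?_, fun x hx => ?_,
    fun n => hmem _, Xs, XX, split, fun x hx => ?_⟩
  · rw [trp, trp, pow_succ]
    intro h
    have h1 : ((2 : ℂ)⁻¹) ^ k ≠ 0 := by simp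
    have := mul_left_cancel₀ h1 (h.trans (mul_one _).symm)
    norm_num at this
  · simp only [trp]
    exact tendsto_pow_atTop_nhds_zero_of_norm_lt_one (by norm_num)
  · induction n with
    | zero => exact B.one_mem
    | succ n ih => exact B.mul_mem ih (B.smul_mem (B.add_mem B.one_mem (hmem _)) _)
  · refine exc_cspan pproj (fun n h => ?_) ?_ x (hdense x hx)
    · have := trp n
      rw [h, map_zero] at this
      exact absurd this.symm (by simp)
    · rintro _ ⟨⟨a, b⟩, rfl⟩
      rcases fcases a with rfl | ⟨i, hi⟩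
      · refine ⟨1, tendsto_const_nhds.congr' ?_⟩
        filter_upwards [fix b] with n hn
        rw [mul_assoc, sub_mul, hn, one_smul, one_mul, sub_self, mul_zero, norm_zero]
      · refine ⟨0, tendsto_const_nhds.congr' ?_⟩
        filter_upwards [eventually_gt_atTop i] with n hn
        rw [zero_smul, sub_zero, kill (a, b) i n hi hn, norm_zero]
  · refine psi_cspan τ pproj Xn ?_ x (hdense x hx)
    rintro _ ⟨⟨a, b⟩, rfl⟩ η hη
    rcases fcases b with rfl | ⟨i, hi⟩
    · refine Eventually.of_forall fun k => ?_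
      have h0 : ∀ i, i < k → ((a, 0) : PV).2 i = 0 := fun _ _ => rfl
      rw [AvT, if_pos h0]
      rcases fcases a with rfl | ⟨i, hi⟩
      · refine Eventually.of_forall fun n => ?_
        rw [Prod.mk_zero_zero, hT.zero, hτ.map_one, one_smul, sub_self, mul_zero, zero_mul,
          norm_zero]
        exact hη.le
      · filter_upwards [eventually_gt_atTop i] with n hn
        rw [trT1 (a, 0) i hi, zero_smul, sub_zero, kill (a, 0) i n hi hn, norm_zero]
        exact hη.le
    · filter_upwards [eventually_gt_atTop i] with k hk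
      refine Eventually.of_forall fun n => ?_
      rw [AvT, if_neg, trT2 (a, b) i hi, zero_smul, sub_zero, mul_zero, zero_mul, norm_zero]
      · exact hη.le
      · intro h
        have := h i hk
        simp only at this
        rw [this] at hi
        exact zero_ne_one hi

end Vale.Agent.P070
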