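import Vale.Agent.P070.Stage
import Vale.Agent.P070.PauliRep

/-! The transfinite construction of the tower. -/

open scoped ComplexOrder InnerProductSpace
open Filter Topology Set

namespace Vale.Agent.P070

theorem isClosed_isChar {Γ : Type*} [Group Γ] : IsClosed {χ : Γ → ℂ | IsChar χ} := by
  have : {χ : Γ → ℂ | IsChar χ} = {χ | χ 1 = 1} ∩ (⋂ g, ⋂ h, {χ | χ (g * h) = χ (h * g)}) ∩
      (⋂ g, {χ | χ g⁻¹ = star (χ g)}) ∩ (⋂ g, {χ | ‖χ g‖ ≤ 1}) ∩
      (⋂ s : Finset Γ, ⋂ c : Γ → ℂ,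
        {χ | 0 ≤ (∑ g ∈ s, ∑ h ∈ s, star (c g) * c h * χ (g⁻¹ * h)).re}) := by
    ext χ
    simp only [mem_ofPred_eq, mem_inter_iff, mem_iInter]
    exact ⟨fun h => ⟨⟨⟨⟨h.one, h.comm⟩, h.herm⟩, h.bdd⟩, h.pos⟩,
      fun ⟨⟨⟨⟨h1, h2⟩, h3⟩, h4⟩, h5⟩ => ⟨h1, h2, h3, h4, h5⟩⟩
  rw [this]
  refine ((((isClosed_eq (by fun_prop) (by fun_prop)).inter ?_).inter ?_).inter ?_).inter ?_
  · exact isClosed_iInter fun g => isClosed_iInter fun h => isClosed_eq (by fun_prop) (by fun_prop)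
  · exact isClosed_iInter fun g => isClosed_eq (by fun_prop) (by fun_prop)
  · exact isClosed_iInter fun g => isClosed_le (by fun_prop) (by fun_prop)
  · exact isClosed_iInter fun s => isClosed_iInter fun c => isClosed_le (by fun_prop) (by fun_prop)

theorem isCompact_isChar {Γ : Type*} [Group Γ] : IsCompact {χ : Γ → ℂ | IsChar χ} :=
  (isCompact_univ_pi fun _ : Γ => isCompact_closedBall (0 : ℂ) 1).of_isClosed_subset
    isClosed_isChar fun χ hχ g _ => by simpa using hχ.bdd g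

variable {I : Type}

theorem exists_good_char [LinearOrder I] [WellFoundedLT I] (N : I → Name I) {χ₀ : FG I → ℂ}
    (h₀ : IsChar χ₀) :
    ∃ χ, IsChar χ ∧ (∀ g ∈ sub (∅ : Set I), χ g = χ₀ g) ∧ ∀ α, Good N α χ := by
  let P := {z : Set I × (FG I → ℂ) // IsLowerSet z.1 ∧ IsChar z.2 ∧
    (∀ g ∈ sub (∅ : Set I), z.2 g = χ₀ g) ∧ ∀ α ∈ z.1, Good N α z.2}
  let le : P → P → Prop := fun z z' => z.1.1 ⊆ z'.1.1 ∧ ∀ g ∈ sub z.1.1, z.1.2 g = z'.1.2 g
  have : Nonempty P := ⟨⟨(∅, χ₀), isLowerSet_empty, h₀, fun _ _ => rfl, fun _ h => h.elim⟩⟩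
  have htrans : ∀ {a b c : P}, le a b → le b c → le a c := fun hab hbc =>
    ⟨hab.1.trans hbc.1, fun g hg => (hab.2 g hg).trans (hbc.2 g (sub_mono hab.1 hg))⟩
  obtain ⟨m, hm⟩ := exists_maximal_of_nonempty_chains_bounded (r := le) (fun c hc hne => by
    have : Nonempty c := hne.to_subtype
    let t : c → Set (FG I → ℂ) := fun z =>
      {χ | IsChar χ} ∩ ⋂ g ∈ sub z.1.1.1, {χ | χ g = z.1.1.2 g}
    have hsub : ∀ {z z' : c}, le z.1 z'.1 → t z' ⊆ t z := fun {z z'} h χ hχ =>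
      ⟨hχ.1, mem_iInter₂.2 fun g hg =>
        (mem_iInter₂.1 hχ.2 g (sub_mono h.1 hg)).trans (h.2 g hg).symm⟩
    have hcl : ∀ z, IsClosed (t z) := fun z => isClosed_isChar.inter
      (isClosed_biInter fun g _ => isClosed_eq (by fun_prop) (by fun_prop))
    obtain ⟨χ, hχ⟩ := IsCompact.nonempty_iInter_of_directed_nonempty_isCompact_isClosed t
      (fun z z' => by
        rcases eq_or_ne z.1 z'.1 with h | h
        · exact ⟨z, Subset.rfl, by rw [Subtype.ext h]⟩
        · rcases hc z.2 z'.2 h with h | h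
          · exact ⟨z', hsub h, Subset.rfl⟩
          · exact ⟨z, Subset.rfl, hsub h⟩)
      (fun z => ⟨z.1.1.2, z.1.2.2.1, mem_iInter₂.2 fun _ _ => rfl⟩)
      (fun z => isCompact_isChar.of_isClosed_subset (hcl z) inter_subset_left) hcl
    have hχ' : ∀ z : c, IsChar χ ∧ ∀ g ∈ sub z.1.1.1, χ g = z.1.1.2 g := fun z =>
      ⟨(mem_iInter.1 hχ z).1, mem_iInter₂.1 (mem_iInter.1 hχ z).2⟩
    obtain ⟨z₀⟩ := this
    refine ⟨⟨(⋃ z : c, z.1.1.1, χ), isLowerSet_iUnion fun z => z.1.2.1, (hχ' z₀).1,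
      fun g hg => ((hχ' z₀).2 g (sub_mono (empty_subset _) hg)).trans (z₀.1.2.2.2.1 g hg),
      fun α hα => ?_⟩, fun a ha => ⟨subset_iUnion (fun z : c => z.1.1.1) ⟨a, ha⟩,
        fun g hg => ((hχ' ⟨a, ha⟩).2 g hg).symm⟩⟩
    obtain ⟨z, hz⟩ := mem_iUnion.1 hα
    exact (z.1.2.2.2.2 α hz).congr fun g hg =>
      ((hχ' z).2 g (sub_mono (z.1.2.1.Iic_subset hz) hg)).symm) htrans
  obtain ⟨⟨J, χ⟩, hJ, hχ, hbase, hgood⟩ := m
  refine ⟨χ, hχ, hbase, fun α => hgood α ?_⟩
  by_contra hα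
  have hne : (Jᶜ).Nonempty := ⟨α, hα⟩
  set β := wellFounded_lt.min Jᶜ hne with hβ
  have hβJ : β ∉ J := wellFounded_lt.min_mem Jᶜ hne
  have h1 : Iio β ⊆ J := fun x hx => by_contra fun hxJ => wellFounded_lt.not_lt_min Jᶜ hxJ hx
  have h2 : J ⊆ Iio β := fun x hx => by_contra fun hxβ => hβJ (hJ (not_lt.1 hxβ) hx)
  obtain ⟨χ', hχ', hag, hg'⟩ := exists_step N β hχ
  have := hm ⟨(Iic β, χ'), isLowerSet_Iic β, hχ',
    fun g hg => (hag g (sub_mono (empty_subset _) hg)).trans (hbase g hg), fun γ hγ => by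
      rcases (mem_Iic.1 hγ).eq_or_lt with h | h
      · rw [h]; exact hg'
      · exact (hgood γ (h1 h)).congr fun g hg =>
          (hag g (sub_mono (Iic_subset_Iio.2 h) hg)).symm⟩
    ⟨h2.trans Iio_subset_Iic_self, fun g hg => (hag g (sub_mono h2 hg)).symm⟩
  exact hβJ (this.1 (mem_Iic.2 le_rfl))

theorem pauli_exists_eq_smul {R : Type*} [CStarAlgebra R] {T : PV → R} (hT : Pauli T)
    {ρ : FG I →* R} (hρ : ∀ g, star (ρ g) = ρ g⁻¹) (hl : ∀ v, ρ (FreeGroup.of (Sum.inl v)) = T v)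
    {S : Set I} (hr : ∀ β ∈ S, ρ (gen β) = 1) {g : FG I} (hg : g ∈ sub S) :
    ∃ (c : ℂ) (v : PV), ρ g = c • T v := by
  refine sub_induction (P := fun g => ∃ (c : ℂ) (v : PV), ρ g = c • T v)
    ⟨1, 0, by rw [map_one, hT.zero, one_smul]⟩ (fun v => ⟨1, v, by rw [hl, one_smul]⟩)
    (fun β hβ => ⟨1, 0, by rw [hr β hβ, hT.zero, one_smul]⟩) ?_ ?_ hg
  · rintro g h ⟨c, v, hg⟩ ⟨c', v', hh⟩
    exact ⟨c * c' * sg v v', v + v', by
      rw [map_mul, hg, hh, smul_mul_smul_comm, hT.mul, smul_smul]⟩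
  · rintro g ⟨c, v, hg⟩
    exact ⟨star c * sg v v, v, by rw [← hρ, hg, star_smul, hT.star, smul_smul]⟩

theorem exists_base_char (I : Type) : ∃ χ₀ : FG I → ℂ, IsChar χ₀ ∧
    ∀ M : Model (FG I), (∀ g ∈ sub (∅ : Set I), M.τ (M.π g) = χ₀ g) →
      Pauli fun v => M.π (FreeGroup.of (Sum.inl v)) := by
  obtain ⟨H, _, _, _, Ω, T, hΩ, hT, hT0⟩ := exists_pauli_rep
  have hun : ∀ v, T v ∈ unitary (H →L[ℂ] H) := fun v => by
    constructor
    · rw [hT.star, smul_mul_assoc, hT.mul, smul_smul, sg_mul_self, pv_add_self, hT.zero, one_smul]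
    · rw [hT.star, mul_smul_comm, hT.mul, smul_smul, sg_mul_self, pv_add_self, hT.zero, one_smul]
  let ρ₀ : FG I →* unitary (H →L[ℂ] H) :=
    FreeGroup.lift (Sum.elim (fun v => ⟨T v, hun v⟩) fun _ => 1)
  let ρ : FG I →* (H →L[ℂ] H) := (unitary (H →L[ℂ] H)).subtype.comp ρ₀
  have hρs : ∀ g, star (ρ g) = ρ g⁻¹ := fun g => by
    change star (ρ₀ g : H →L[ℂ] H) = (ρ₀ g⁻¹ : H →L[ℂ] H)
    rw [map_inv, ← Unitary.star_eq_inv, Unitary.coe_star]
  have hl : ∀ v, ρ (FreeGroup.of (Sum.inl v)) = T v := fun v => by simp [ρ, ρ₀]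
  have hr : ∀ β ∈ (univ : Set I), ρ (gen β) = 1 := fun β _ => by simp [ρ, ρ₀, gen]
  refine ⟨_, isChar_of_rep ρ hρs Ω hΩ fun g h => ?_, fun M hM => ?_⟩
  · obtain ⟨c, v, hg⟩ := pauli_exists_eq_smul hT hρs hl hr (mem_sub_univ g)
    obtain ⟨c', v', hh⟩ := pauli_exists_eq_smul hT hρs hl hr (mem_sub_univ h)
    rw [map_mul, map_mul, hg, hh, smul_mul_smul_comm, smul_mul_smul_comm, hT.mul, hT.mul,
      smul_smul, smul_smul, smul_apply, smul_apply, inner_smul_right, inner_smul_right,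
      add_comm v' v]
    by_cases h0 : v + v' = 0
    · have : v' = v := by
        have h1 := congrArg (v + ·) h0
        simpa only [← add_assoc, pv_add_self, zero_add, add_zero] using h1
      rw [this, mul_comm c c']
    · rw [hT0 _ h0, mul_zero, mul_zero]
  · have htr : ∀ p ∈ galg (ρ.prod M.π) (sub (∅ : Set I)), vs Ω p.1 = M.τ p.2 := fun p hp =>
      graph_tr hρs M.star_π (fun g hg => (hM g hg).symm) hp
    have hG : ∀ v, (T v, M.π (FreeGroup.of (Sum.inl v))) ∈ galg (ρ.prod M.π) (sub (∅ : Set I)) :=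
      fun v => by
        have := mem_galg (ρ.prod M.π) (inl_mem (∅ : Set I) v)
        rwa [MonoidHom.prod_apply, hl] at this
    exact
      { zero := sub_eq_zero.1 (graph_eq_zero M.ft htr (sub_mem (hG 0) (one_mem _))
          (sub_eq_zero.2 hT.zero))
        mul := fun v w => sub_eq_zero.1 (graph_eq_zero M.ft htr (sub_mem (mul_mem (hG v) (hG w))
          (SMulMemClass.smul_mem (sg v w) (hG (v + w)))) (sub_eq_zero.2 (hT.mul v w)))
        star := fun v => sub_eq_zero.1 (graph_eq_zero M.ft htr (sub_mem (star_mem (hG v))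
          (SMulMemClass.smul_mem (sg v v) (hG v))) (sub_eq_zero.2 (hT.star v))) }

theorem exists_finset_of_mem_sub {S : Set I} {g : FG I} (hg : g ∈ sub S) :
    ∃ F : Finset I, (F : Set I) ⊆ S ∧ g ∈ sub (F : Set I) := by
  classical
  refine sub_induction (P := fun g => ∃ F : Finset I, (F : Set I) ⊆ S ∧ g ∈ sub (F : Set I))
    ⟨∅, by simp, one_mem _⟩ (fun v => ⟨∅, by simp, inl_mem _ v⟩)
    (fun β hβ => ⟨{β}, by simpa using hβ, gen_mem (by simp)⟩) ?_ ?_ hg
  · rintro g h ⟨F, hF, hg⟩ ⟨F', hF', hh⟩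
    exact ⟨F ∪ F', by rw [Finset.coe_union]; exact union_subset hF hF',
      mul_mem (sub_mono (by simp) hg) (sub_mono (by simp) hh)⟩
  · rintro g ⟨F, hF, hg⟩
    exact ⟨F, hF, inv_mem hg⟩

theorem Supp.exists_countable {x : Name I} {S : Set I} (h : Supp x S) :
    ∃ U, U ⊆ S ∧ U.Countable ∧ Supp x U := by
  choose F hF hF' using fun e k m g hg => exists_finset_of_mem_sub (h e k m g hg)
  refine ⟨⋃ e, ⋃ k, ⋃ m, ⋃ g : (x e k m).support, (F e k m g.1 g.2 : Set I), ?_, ?_, ?_⟩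
  · exact iUnion_subset fun e => iUnion_subset fun k => iUnion_subset fun m =>
      iUnion_subset fun g => hF e k m g.1 g.2
  · exact countable_iUnion fun e => countable_iUnion fun k => countable_iUnion fun m =>
      countable_iUnion fun g => Finset.countable_toSet _
  · intro e k m g hg
    refine sub_mono (fun y hy => ?_) (hF' e k m g hg)
    exact mem_iUnion.2 ⟨e, mem_iUnion.2 ⟨k, mem_iUnion.2 ⟨m, mem_iUnion.2 ⟨⟨g, hg⟩, hy⟩⟩⟩⟩

theorem Supp.mono {x : Name I} {S T : Set I} (h : Supp x S) (hST : S ⊆ T) : Supp x T :=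
  fun e k m g hg => sub_mono hST (h e k m g hg)

theorem exists_index : ∃ (I : Type) (_ : LinearOrder I) (_ : WellFoundedLT I) (N : I → Name I),
    ∀ x : Name I, ∃ α, N α = x ∧ Supp x (Iio α) := by
  let W := (Cardinal.aleph 1 : Cardinal.{0}).ord.ToType
  let X := (Cardinal.continuum : Cardinal.{0}).ord.ToType
  have hW : Cardinal.mk W = Cardinal.aleph 1 := Cardinal.mk_ord_toType _
  have hX : Cardinal.mk X = Cardinal.continuum := Cardinal.mk_ord_toType _
  have hI : Cardinal.mk (W ×ₗ X) ≤ Cardinal.continuum := by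
    change Cardinal.mk (W × X) ≤ _
    rw [Cardinal.mk_prod, Cardinal.lift_id, Cardinal.lift_id, hW, hX]
    exact Cardinal.mul_le_of_le Cardinal.aleph0_le_continuum Cardinal.aleph_one_le_continuum le_rfl
  have hG : Cardinal.mk (FG (W ×ₗ X)) ≤ Cardinal.continuum := by
    rw [Cardinal.mk_freeGroup, Cardinal.mk_sum, Cardinal.lift_id, Cardinal.lift_id]
    refine max_le (Cardinal.add_le_of_le Cardinal.aleph0_le_continuum ?_ hI)
      Cardinal.aleph0_le_continuum
    exact Cardinal.mk_le_aleph0.trans Cardinal.aleph0_le_continuum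
  have hF : Cardinal.mk (FG (W ×ₗ X) →₀ ℂ) = Cardinal.continuum := by
    rw [Cardinal.mk_finsupp_of_infinite', Cardinal.mk_complex, max_eq_right hG]
  have hN : Cardinal.mk (Name (W ×ₗ X)) ≤ Cardinal.mk X := by
    rw [hX]
    simp only [Name, ← Cardinal.power_def, hF, Cardinal.mk_nat, Cardinal.continuum_power_aleph0,
      Cardinal.mk_bool]
    rw [show (2 : Cardinal.{0}) = ((2 : ℕ) : Cardinal.{0}) by norm_num, Cardinal.power_natCast]
    exact Cardinal.power_nat_le Cardinal.aleph0_le_continuum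
  obtain ⟨j⟩ := Cardinal.le_def _ _ |>.1 hN
  refine ⟨W ×ₗ X, inferInstance, inferInstance, fun α => Function.invFun j (ofLex α).2,
    fun x => ?_⟩
  obtain ⟨U, -, hU, hx⟩ := Supp.exists_countable (x := x) (S := univ)
    fun _ _ _ g _ => mem_sub_univ g
  have hIic : ∀ a : W, (Iic a).Countable := fun a => by
    rw [← Iio_insert]
    refine Set.Countable.insert _ ?_
    rw [← Cardinal.le_aleph0_iff_set_countable, ← Cardinal.lt_aleph_one_iff]
    exact (Cardinal.mk_Iio_lt a (by simp [W])).trans_eq hW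
  have hcnt : (⋃ β ∈ U, Iic (ofLex β).1).Countable := hU.biUnion fun β _ => hIic _
  obtain ⟨a, ha⟩ : ∃ a : W, a ∉ ⋃ β ∈ U, Iic (ofLex β).1 := by
    by_contra hcon
    push Not at hcon
    rw [eq_univ_of_forall hcon, ← Cardinal.le_aleph0_iff_set_countable,
      ← Cardinal.lt_aleph_one_iff, Cardinal.mk_univ, hW] at hcnt
    exact lt_irrefl _ hcnt
  refine ⟨toLex (a, j x), Function.leftInverse_invFun j.injective x, hx.mono fun β hβ => ?_⟩
  have : (ofLex β).1 < a := not_le.1 fun hle => ha (mem_iUnion₂.2 ⟨β, hβ, hle⟩)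
  exact Prod.Lex.lt_iff.2 (Or.inl this)

theorem countable_sub {S : Set I} (hS : S.Countable) : (sub S : Set (FG I)).Countable := by
  have h1 : {x : PV ⊕ I | ∀ β, x = Sum.inr β → β ∈ S}.Countable := by
    refine ((countable_range Sum.inl).union (hS.image Sum.inr)).mono ?_
    rintro (v | β) hx
    · exact Or.inl ⟨v, rfl⟩
    · exact Or.inr ⟨β, hx β rfl, rfl⟩
  have h2 := (h1.image (FreeGroup.of : PV ⊕ I → FG I)).to_subtype
  rw [sub, FreeGroup.closure_eq_range, MonoidHom.coe_range]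
  exact countable_range _

theorem exists_name (M : Model (FG I)) (s : Bool → ℕ → M.R) : ∃ x : Name I, Names M x s := by
  have key : ∀ a : M.R, ∃ y : ℕ → (FG I →₀ ℂ),
      Tendsto (fun m => Finsupp.linearCombination ℂ M.π (y m)) atTop (𝓝 a) := by
    intro a
    obtain ⟨z, hz, hlim⟩ := mem_closure_iff_seq_limit.1 ((mem_galg_iff M.π M.star_π ⊤ a).1 (M.gen a))
    have hz' : ∀ m, ∃ y, Finsupp.linearCombination ℂ M.π y = z m := fun m => by
      have h1 : z m ∈ Submodule.span ℂ (M.π '' ((⊤ : Subgroup (FG I)) : Set (FG I))) := hz m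
      rw [Subgroup.coe_top, image_univ, ← Finsupp.range_linearCombination] at h1
      exact h1
    choose y hy using hz'
    exact ⟨y, by simpa only [hy] using hlim⟩
  choose x hx using fun e k => key (s e k)
  exact ⟨x, hx⟩

theorem Names.mem {M : Model (FG I)} {x : Name I} {r : Bool → ℕ → M.R} (h : Names M x r)
    {S : Set I} (hS : Supp x S) (e : Bool) (k : ℕ) : r e k ∈ galg M.π (sub S) :=
  (isClosed_galg _ _).mem_of_tendsto (h e k) (Eventually.of_forall fun m => lc_mem _ (hS e k m))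

theorem exists_tower : ∃ (R : Type) (_ : CStarAlgebra R) (τ : R →L[ℂ] ℂ) (I : Type)
    (_ : LinearOrder I) (_ : WellFoundedLT I) (T : Tower τ I) (p X : ℕ → R),
    IsFT τ ∧ Base τ (T.A ∅) p X := by
  classical
  obtain ⟨I, _, _, N, hN⟩ := exists_index
  obtain ⟨χ₀, h₀, hbase⟩ := exists_base_char I
  obtain ⟨χ, hχ, hχ₀, hgood⟩ := exists_good_char N h₀
  obtain ⟨M, hM⟩ := hχ.exists_model
  have hg : ∀ α, Good₀ N α M := fun α => hgood α M fun g _ => hM g
  have hP := hbase M fun g hg => (hM g).trans (hχ₀ g hg)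
  let act : I → Prop := fun α =>
    ∃ r, CondN M (N α) α r ∧ Gad M.τ (galg M.π (sub (Iio α))) r (uu M α)
  have hr : ∀ α, ∃ r : Bool → ℕ → M.R, act α →
      CondN M (N α) α r ∧ Gad M.τ (galg M.π (sub (Iio α))) r (uu M α) := fun α => by
    by_cases h : act α
    · exact ⟨h.choose, fun _ => h.choose_spec⟩
    · exact ⟨0, fun h' => absurd h' h⟩
  choose r hr using hr
  have hs : ∀ α, ∃ U, U ⊆ Iio α ∧ U.Countable ∧ (Supp (N α) (Iio α) → Supp (N α) U) := fun α => by
    by_cases h : Supp (N α) (Iio α)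
    · obtain ⟨U, h1, h2, h3⟩ := h.exists_countable
      exact ⟨U, h1, h2, fun _ => h3⟩
    · exact ⟨∅, empty_subset _, countable_empty, fun h' => absurd h' h⟩
  choose supp hs1 hs2 hs3 using hs
  let T : Tower M.τ I :=
    { A := fun S => galg M.π (sub S)
      u := uu M
      r := r
      act := act
      supp := supp
      closed := fun S => isClosed_galg _ _
      mono := fun S T h => galg_mono _ (sub_mono h)
      u_mem := fun α e => by
        cases e
        · exact mem_galg _ (inv_mem (gen_mem (mem_singleton α)))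
        · exact mem_galg _ (gen_mem (mem_singleton α))
      insert_le := fun S α => galg_le (isClosed_ext _ _) fun g hg => by
        refine sub_induction (P := fun g => M.π g ∈ Ext (galg M.π (sub S)) (uu M α)) (by simp)
          (fun v => le_ext _ _ (mem_galg _ (inl_mem S v))) (fun β hβ => ?_)
          (fun g h hg hh => by rw [map_mul]; exact mul_mem hg hh)
          (fun g hg => by rw [← M.star_π]; exact star_mem hg) hg
        rcases hβ with rfl | hβ
        · exact StarSubalgebra.le_topologicalClosure _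
            (StarAlgebra.subset_adjoin ℂ _ (mem_insert _ _))
        · exact le_ext _ _ (mem_galg _ (gen_mem hβ))
      fin := fun S x hx => by
        refine closure_mono (fun y hy => ?_) ((mem_galg_iff M.π M.star_π _ x).1 hx)
        replace hy : y ∈ Submodule.span ℂ (M.π '' (sub S : Set (FG I))) := hy
        induction hy using Submodule.span_induction with
        | mem y hy =>
          obtain ⟨g, hg, rfl⟩ := hy
          obtain ⟨F, hF, hgF⟩ := exists_finset_of_mem_sub hg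
          exact mem_iUnion.2 ⟨⟨F, hF⟩, mem_galg _ hgF⟩
        | zero => exact mem_iUnion.2 ⟨⟨∅, by simp⟩, zero_mem _⟩
        | add y z _ _ hy hz =>
          obtain ⟨F, hF⟩ := mem_iUnion.1 hy
          obtain ⟨F', hF'⟩ := mem_iUnion.1 hz
          exact mem_iUnion.2 ⟨⟨F.1 ∪ F'.1, by rw [Finset.coe_union]; exact union_subset F.2 F'.2⟩,
            add_mem (galg_mono _ (sub_mono (by simp)) hF) (galg_mono _ (sub_mono (by simp)) hF')⟩
        | smul c y _ hy =>
          obtain ⟨F, hF⟩ := mem_iUnion.1 hy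
          exact mem_iUnion.2 ⟨F, SMulMemClass.smul_mem c hF⟩
      top := fun x => galg_mono _ (fun g _ => mem_sub_univ g) (M.gen x)
      sep := fun S hS => ((countable_sub hS).image M.π).isSeparable.span.closure.mono
        fun x hx => (mem_galg_iff M.π M.star_π _ x).1 hx
      supp_countable := hs2
      supp_lt := fun α β hβ => hs1 α hβ
      r_mem := fun α ha e k => (hr α ha).1.2.1.mem (hs3 α (hr α ha).1.1) e k
      gad := fun α ha => (hr α ha).2
      inact := fun α ha => ((hg α).resolve_left ha).2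
      sat := fun s => by
        obtain ⟨x, hx⟩ := exists_name M s
        obtain ⟨α, rfl, hα⟩ := hN x
        refine ⟨α, hx.mem hα, fun hc => ?_⟩
        obtain ⟨r', hr', hg'⟩ := (hg α).resolve_right fun h => h.1 ⟨s, hα, hx, hc⟩
        have : s = r' := funext fun e => funext fun k =>
          tendsto_nhds_unique (hx e k) (hr'.2.1 e k)
        rw [this]
        exact hg'.toUni }
  obtain ⟨p, X, hB⟩ := hP.base M.ft (B := galg M.π (sub (∅ : Set I)))
    (fun v => mem_galg _ (inl_mem _ v)) (fun x hx => by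
      refine cspan_le (isClosed_cspan _) ?_ ((mem_galg_iff M.π M.star_π _ x).1 hx)
      rintro _ ⟨g, hg, rfl⟩
      obtain ⟨c, v, hcv⟩ := pauli_exists_eq_smul hP M.star_π (fun _ => rfl) (fun _ h => h.elim) hg
      rw [hcv]
      exact Submodule.smul_mem _ _ (mem_cspan ⟨v, rfl⟩))
  exact ⟨M.R, inferInstance, M.τ, I, inferInstance, inferInstance, T, p, X, M.ft, hB⟩

end Vale.Agent.P070
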