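import Vale.Agent.P070.Gram

/-! Characters of groups and their models. -/

open scoped ComplexOrder InnerProductSpace
open Filter Topology

namespace Vale.Agent.P070

theorem mem_galg_iff {Γ : Type*} [Group Γ] {R : Type*} [CStarAlgebra R] (π : Γ →* R)
    (hπ : ∀ g, star (π g) = π g⁻¹) (Λ : Subgroup Γ) (x : R) :
    x ∈ galg π Λ ↔ x ∈ cspan (π '' (Λ : Set Γ)) := by
  have key : (StarAlgebra.adjoin ℂ (π '' (Λ : Set Γ)) : Set R)
      = Submodule.span ℂ (π '' (Λ : Set Γ)) := by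
    apply Set.Subset.antisymm
    · intro y hy
      induction hy using StarAlgebra.adjoin_induction with
      | mem y hy => exact Submodule.subset_span hy
      | algebraMap c =>
        rw [Algebra.algebraMap_eq_smul_one]
        exact Submodule.smul_mem _ c (Submodule.subset_span ⟨1, Λ.one_mem, map_one π⟩)
      | add y z _ _ hy hz => exact Submodule.add_mem _ hy hz
      | mul y z _ _ hy hz =>
        have : Submodule.span ℂ (π '' (Λ : Set Γ)) * Submodule.span ℂ (π '' (Λ : Set Γ))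
            ≤ Submodule.span ℂ (π '' (Λ : Set Γ)) := by
          rw [Submodule.span_mul_span]
          apply Submodule.span_mono
          rintro _ ⟨_, ⟨g, hg, rfl⟩, _, ⟨h, hh, rfl⟩, rfl⟩
          exact ⟨g * h, Λ.mul_mem hg hh, map_mul π g h⟩
        exact this (Submodule.mul_mem_mul hy hz)
      | star y h0 hy =>
        clear h0
        induction hy using Submodule.span_induction with
        | mem y hy =>
          obtain ⟨g, hg, rfl⟩ := hy
          exact Submodule.subset_span ⟨g⁻¹, Λ.inv_mem hg, (hπ g).symm⟩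
        | zero => rw [star_zero]; exact Submodule.zero_mem _
        | add y z _ _ hy hz => rw [star_add]; exact Submodule.add_mem _ hy hz
        | smul c y _ hy => rw [star_smul]; exact Submodule.smul_mem _ _ hy
    · exact (Submodule.span_le
        (p := Subalgebra.toSubmodule (StarAlgebra.adjoin ℂ (π '' (Λ : Set Γ))).toSubalgebra)).mpr
        (StarAlgebra.subset_adjoin ℂ (π '' (Λ : Set Γ)))
  change x ∈ closure (StarAlgebra.adjoin ℂ (π '' (Λ : Set Γ)) : Set R) ↔
    x ∈ closure (Submodule.span ℂ (π '' (Λ : Set Γ)) : Set R)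
  rw [key]

theorem isChar_of_rep {Γ : Type*} [Group Γ] {H : Type*} [NormedAddCommGroup H]
    [InnerProductSpace ℂ H] [CompleteSpace H] (ρ : Γ →* (H →L[ℂ] H))
    (hρ : ∀ g, star (ρ g) = ρ g⁻¹) (Ω : H) (hΩ : ‖Ω‖ = 1)
    (hc : ∀ g h, ⟪Ω, ρ (g * h) Ω⟫_ℂ = ⟪Ω, ρ (h * g) Ω⟫_ℂ) :
    IsChar (fun g => ⟪Ω, ρ g Ω⟫_ℂ) := by
  have adj : ∀ g (x y : H), ⟪ρ g x, y⟫_ℂ = ⟪x, ρ g⁻¹ y⟫_ℂ := by
    intro g x y
    rw [← hρ, ContinuousLinearMap.star_eq_adjoint, ContinuousLinearMap.adjoint_inner_right]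
  have gram : ∀ g h, ⟪Ω, ρ (g⁻¹ * h) Ω⟫_ℂ = ⟪ρ g Ω, ρ h Ω⟫_ℂ := by
    intro g h
    rw [adj, map_mul, mul_apply_eq_comp]
  refine ⟨?_, hc, fun g => ?_, fun g => ?_, fun s c => ?_⟩
  · simp [hΩ]
  · rw [← adj, Complex.star_def, inner_conj_symm]
  · have h1 : ‖ρ g Ω‖ = 1 := by
      have := gram g g
      rw [inv_mul_cancel, map_one, one_apply_eq_self, inner_self_eq_norm_sq_to_K,
        inner_self_eq_norm_sq_to_K, hΩ] at this
      norm_cast at this
      have h2 : ‖ρ g Ω‖ ^ 2 = 1 ^ 2 := by simpa using this.symm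
      exact (pow_left_inj₀ (norm_nonneg _) zero_le_one two_ne_zero).mp h2
    refine (norm_inner_le_norm _ _).trans ?_
    rw [h1, hΩ, one_mul]
  · have : ∑ g ∈ s, ∑ h ∈ s, star (c g) * c h * ⟪Ω, ρ (g⁻¹ * h) Ω⟫_ℂ
        = ⟪∑ g ∈ s, c g • ρ g Ω, ∑ g ∈ s, c g • ρ g Ω⟫_ℂ := by
      rw [sum_inner]
      refine Finset.sum_congr rfl fun g _ => ?_
      rw [inner_sum]
      refine Finset.sum_congr rfl fun h _ => ?_
      rw [gram, inner_smul_left, inner_smul_right, mul_assoc]
      rfl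
    rw [this]
    exact inner_self_nonneg (𝕜 := ℂ)

lemma IsChar.exists_kernel_space {Γ : Type} [Group Γ] {χ : Γ → ℂ} (h : IsChar χ) :
    ∃ (H : Type) (_ : NormedAddCommGroup H) (_ : InnerProductSpace ℂ H) (_ : CompleteSpace H)
      (k : Γ → H), (∀ g g', ⟪k g, k g'⟫_ℂ = χ (g⁻¹ * g')) ∧
        Dense (Submodule.span ℂ (Set.range k) : Set H) := by
  let K : Matrix Γ Γ (ℂ →L[ℂ] ℂ) := Matrix.of fun x y => χ (x⁻¹ * y) • (1 : ℂ →L[ℂ] ℂ)
  have hconj : ∀ x y, (starRingEnd ℂ) (χ (x⁻¹ * y)) = χ (y⁻¹ * x) := by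
    intro x y
    have := h.herm (x⁻¹ * y)
    rw [mul_inv_rev, inv_inv] at this
    exact this.symm
  have hK : K.PosSemidef := by
    have t := (RKHS.posSemidef_tfae (K := K)).out 0 2
    refine t.mpr ⟨?_, fun vv => ?_⟩
    · ext x y : 2
      simp only [K, Matrix.conjTranspose_apply, Matrix.of_apply, star_smul, star_one]
      rw [Complex.star_def, hconj]
    · have := h.pos vv.support vv
      convert this using 1
      simp only [Finsupp.sum, K, Matrix.of_apply, smul_apply, one_apply_eq_self, smul_eq_mul,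
        RCLike.inner_apply, map_mul, hconj, RCLike.re_to_complex]
      congr 1
      refine Finset.sum_congr rfl fun g _ => Finset.sum_congr rfl fun g' _ => ?_
      rw [Complex.star_def]
      ring
  have : Fact K.PosSemidef := ⟨hK⟩
  refine ⟨RKHS.OfKernel K, inferInstance, inferInstance, inferInstance,
    fun g => RKHS.kerFun (RKHS.OfKernel K) g 1, fun g g' => ?_, ?_⟩
  · rw [← RKHS.kernel_inner, RKHS.OfKernel.kernel_ofKernel]
    simp [K, hconj]
  · rw [Submodule.dense_iff_topologicalClosure_eq_top, eq_top_iff,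
      ← RKHS.kerFun_dense (RKHS.OfKernel K)]
    apply Submodule.topologicalClosure_mono
    rw [Submodule.span_le]
    rintro _ ⟨x, v, rfl⟩
    have : RKHS.kerFun (RKHS.OfKernel K) x v = v • RKHS.kerFun (RKHS.OfKernel K) x 1 := by
      rw [← map_smul, smul_eq_mul, mul_one]
    rw [this]
    exact Submodule.smul_mem _ _ (Submodule.subset_span ⟨x, rfl⟩)

lemma cspan_induction {R : Type*} [CStarAlgebra R] {s : Set R} {E : Type*} [NormedAddCommGroup E]
    [NormedSpace ℂ E] (f g : R →L[ℂ] E) (h : ∀ x ∈ s, f x = g x) : ∀ x ∈ cspan s, f x = g x :=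
  fun _ hx => ContinuousLinearMap.eqOn_closure_span (f := f) (g := g) h hx

theorem IsChar.exists_model {Γ : Type} [Group Γ] {χ : Γ → ℂ} (h : IsChar χ) :
    ∃ M : Model Γ, ∀ g, M.τ (M.π g) = χ g := by
  obtain ⟨H, _, _, _, k, hk, hd⟩ := h.exists_kernel_space
  have hU : ∀ g : Γ, ∃ U : H →L[ℂ] H, (∀ i, U (k i) = k (g * i)) ∧
      ∀ i, star U (k (g * i)) = k i := by
    intro g
    obtain ⟨U, -, -, h1, h2⟩ := exists_unitary_op k (fun i => k (g * i))
      (fun i j => by rw [hk, hk]; congr 1; group) hd (by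
        have : Set.range (fun i => k (g * i)) = Set.range k :=
          (Equiv.mulLeft g).surjective.range_comp k
        rw [this]
        exact hd)
    exact ⟨U, h1, h2⟩
  choose U hU1 hU2 using hU
  let ρ : Γ →* (H →L[ℂ] H) :=
    { toFun := U
      map_one' := ContinuousLinearMap.ext_on hd (by
        rintro _ ⟨i, rfl⟩
        rw [hU1, one_mul, one_apply_eq_self])
      map_mul' := fun g g' => ContinuousLinearMap.ext_on hd (by
        rintro _ ⟨i, rfl⟩
        rw [mul_apply_eq_comp, hU1, hU1, hU1, mul_assoc]) }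
  have hρk : ∀ g i, ρ g (k i) = k (g * i) := hU1
  have hρ : ∀ g, star (ρ g) = ρ g⁻¹ := fun g => ContinuousLinearMap.ext_on hd (by
    rintro _ ⟨i, rfl⟩
    have := hU2 g (g⁻¹ * i)
    rw [mul_inv_cancel_left] at this
    rw [hρk]
    exact this)
  have hτ : ∀ g, vs (k 1) (ρ g) = χ g := by
    intro g
    rw [vs_apply, hρk, hk]
    simp
  have hmem : ∀ x, x ∈ galg ρ ⊤ ↔ x ∈ cspan (Set.range ρ) := by
    intro x
    rw [mem_galg_iff ρ hρ, Subgroup.coe_top, Set.image_univ]
  have hcomm : ∀ x ∈ cspan (Set.range ρ), ∀ y ∈ cspan (Set.range ρ),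
      vs (k 1) (x * y) = vs (k 1) (y * x) := by
    intro x hx y hy
    refine cspan_induction ((vs (k 1)).comp ((ContinuousLinearMap.mul ℂ _).flip y))
      ((vs (k 1)).comp (ContinuousLinearMap.mul ℂ _ y)) ?_ x hx
    rintro _ ⟨g, rfl⟩
    refine cspan_induction ((vs (k 1)).comp (ContinuousLinearMap.mul ℂ _ (ρ g)))
      ((vs (k 1)).comp ((ContinuousLinearMap.mul ℂ _).flip (ρ g))) ?_ y hy
    rintro _ ⟨g', rfl⟩
    change vs (k 1) (ρ g * ρ g') = vs (k 1) (ρ g' * ρ g)
    rw [← map_mul, ← map_mul, hτ, hτ, h.comm]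
  have hsq : ∀ x : H →L[ℂ] H, vs (k 1) (star x * x) = ⟪x (k 1), x (k 1)⟫_ℂ := by
    intro x
    rw [vs_apply, mul_apply_eq_comp, ContinuousLinearMap.star_eq_adjoint,
      ContinuousLinearMap.adjoint_inner_right]
  have hρmem : ∀ g, ρ g ∈ galg ρ ⊤ := fun g =>
    (hmem _).mpr ((Submodule.le_topologicalClosure _) (Submodule.subset_span ⟨g, rfl⟩))
  have : IsClosed (galg ρ ⊤ : Set (H →L[ℂ] H)) := StarSubalgebra.isClosed_topologicalClosure _
  let τ : galg ρ ⊤ →L[ℂ] ℂ := (vs (k 1)).comp (galg ρ ⊤).toSubalgebra.toSubmodule.subtypeL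
  have hτx : ∀ x : galg ρ ⊤, τ x = vs (k 1) x := fun x => rfl
  let π : Γ →* galg ρ ⊤ := ρ.codRestrict (galg ρ ⊤) hρmem
  have hπ : ∀ g, star (π g) = π g⁻¹ := fun g => Subtype.ext (hρ g)
  refine ⟨{ R := galg ρ ⊤, τ := τ, ft := ⟨?_, fun x y => ?_, fun x => ?_, fun x hx => ?_⟩, π := π,
            star_π := hπ, gen := fun x => ?_ }, hτ⟩
  · have := hτ 1
    rw [map_one, h.one] at this
    exact this
  · exact hcomm _ ((hmem _).mp x.2) _ ((hmem _).mp y.2)
  · have : τ (star x * x) = ⟪(x : H →L[ℂ] H) (k 1), (x : H →L[ℂ] H) (k 1)⟫_ℂ := hsq x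
    rw [this, inner_self_eq_norm_sq_to_K]
    positivity
  · apply Subtype.ext
    refine ContinuousLinearMap.ext_on hd ?_
    rintro _ ⟨g, rfl⟩
    have h1 : vs (k 1) (star ((x : H →L[ℂ] H) * ρ g) * (x * ρ g)) = 0 := by
      have h2 := hcomm _ ((hmem _).mp (hρmem g⁻¹)) _ ((hmem _).mp (star x * x * π g).2)
      have h3 : ((star x * x * π g : galg ρ ⊤) : H →L[ℂ] H)
          = star (x : H →L[ℂ] H) * x * ρ g := rfl
      rw [h3, mul_assoc _ (ρ g), ← map_mul, mul_inv_cancel, map_one, mul_one] at h2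
      rw [star_mul, hρ, mul_assoc, ← mul_assoc (star (x : H →L[ℂ] H)), h2]
      exact hx
    rw [hsq, inner_self_eq_zero, mul_apply_eq_comp, hρk, mul_one] at h1
    exact h1
  · rw [mem_galg_iff π hπ, Subgroup.coe_top, Set.image_univ]
    have h1 := (hmem _).mp x.2
    change x ∈ closure (Submodule.span ℂ (Set.range π) : Set (galg ρ ⊤))
    rw [Topology.IsInducing.subtypeVal.closure_eq_preimage_closure_image]
    refine closure_mono ?_ h1
    intro y hy
    induction hy using Submodule.span_induction with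
    | mem y hy =>
      obtain ⟨g, rfl⟩ := hy
      exact ⟨π g, Submodule.subset_span ⟨g, rfl⟩, rfl⟩
    | zero => exact ⟨0, Submodule.zero_mem _, rfl⟩
    | add y z _ _ hy hz =>
      obtain ⟨y, hy, rfl⟩ := hy
      obtain ⟨z, hz, rfl⟩ := hz
      exact ⟨y + z, Submodule.add_mem _ hy hz, rfl⟩
    | smul c y _ hy =>
      obtain ⟨y, hy, rfl⟩ := hy
      exact ⟨c • y, Submodule.smul_mem _ c hy, rfl⟩

end Vale.Agent.P070
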