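import Vale.Agent.P070.Seq

/-! The trace preserving conditional expectation onto the closed span of an admissible
sequence. -/

open scoped ComplexOrder InnerProductSpace
open Filter Topology

namespace Vale.Agent.P070

variable {R : Type*} [CStarAlgebra R] {τ : R →L[ℂ] ℂ} {r s t : ℕ → R}

/-- The gaps of a decreasing sequence. -/
def gap (r : ℕ → R) (j : ℕ) : R := r j - r (j + 1)

namespace Dec

theorem gap_proj (h : Dec r) (j : ℕ) : IsStarProjection (gap r j) := h.sub_proj (Nat.le_succ j)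

theorem mul_gap_of_le (h : Dec r) {k j : ℕ} (hkj : k ≤ j) : r k * gap r j = gap r j := by
  rw [gap, mul_sub, h.anti k j hkj, h.anti k (j + 1) (by omega)]

theorem gap_mul_of_le (h : Dec r) {k j : ℕ} (hkj : k ≤ j) : gap r j * r k = gap r j := by
  rw [gap, sub_mul, h.anti' hkj, h.anti' (by omega : k ≤ j + 1)]

theorem mul_gap_of_lt (h : Dec r) {k j : ℕ} (hkj : j < k) : r k * gap r j = 0 := by
  rw [gap, mul_sub, h.anti' hkj.le, h.anti' (by omega : j + 1 ≤ k), sub_self]

theorem gap_mul_of_lt (h : Dec r) {k j : ℕ} (hkj : j < k) : gap r j * r k = 0 := by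
  rw [gap, sub_mul, h.anti j k hkj.le, h.anti (j + 1) k (by omega), sub_self]

theorem gap_mul_gap (h : Dec r) {i j : ℕ} (hij : i ≠ j) : gap r i * gap r j = 0 := by
  rcases lt_or_gt_of_ne hij with hij | hij
  · rw [gap, sub_mul, h.mul_gap_of_le hij.le, h.mul_gap_of_le (by omega : i + 1 ≤ j), sub_self]
  · rw [gap, sub_mul, h.mul_gap_of_lt hij, h.mul_gap_of_lt (by omega : j < i + 1), sub_self]

end Dec

theorem Adm.tr_gap_ne_zero (h : Adm τ r) (j : ℕ) : τ (gap r j) ≠ 0 := by
  rw [gap, map_sub, sub_ne_zero]; exact (h.strict j).symm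

theorem norm_add_le_of_orth {p a b : R} {C : ℝ} (hp : IsStarProjection p) (ha : p * a = a)
    (ha' : a * p = a) (hb : p * b = 0) (hb' : b * p = 0) (haC : ‖a‖ ≤ C) (hbC : ‖b‖ ≤ C) :
    ‖a + b‖ ≤ C := by
  have hC : 0 ≤ C := (norm_nonneg _).trans haC
  have hsa : star a * p = star a := by
    rw [← hp.isSelfAdjoint.star_eq, ← star_mul, ha]
  have hsb : p * star b = 0 := by
    rw [← hp.isSelfAdjoint.star_eq, ← star_mul, hb', star_zero]
  have h1 : star a * b = 0 := by rw [← hsa, mul_assoc, hb, mul_zero]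
  have h2 : star b * a = 0 := by
    have := congrArg star h1
    rwa [star_mul, star_star, star_zero] at this
  have h3 : star (a + b) * (a + b) = star a * a + star b * b := by
    rw [star_add, add_mul, mul_add, mul_add, h1, h2, add_zero, zero_add]
  have h4 : star a * a * (star b * b) = 0 := by
    rw [← ha', mul_assoc, mul_assoc a p, ← mul_assoc p, hsb, zero_mul, mul_zero, mul_zero]
  have h5 : star b * b * (star a * a) = 0 := by
    have := congrArg star h4
    simpa [star_mul, mul_assoc] using this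
  have h6 := IsStarNormal.norm_add_eq_max (IsSelfAdjoint.star_mul_self a).isStarNormal
    (IsSelfAdjoint.star_mul_self b).isStarNormal (h4.trans h5.symm) h4
  rw [← h3, CStarRing.norm_star_mul_self, CStarRing.norm_star_mul_self,
    CStarRing.norm_star_mul_self] at h6
  have h7 : ‖a + b‖ * ‖a + b‖ ≤ C * C := by
    rw [h6]
    exact max_le (mul_self_le_mul_self (norm_nonneg _) haC)
      (mul_self_le_mul_self (norm_nonneg _) hbC)
  exact (mul_self_le_mul_self_iff (norm_nonneg _) hC).2 h7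

theorem Dec.sum_gap_mul (h : Dec r) (μ : ℕ → ℂ) (m n : ℕ) :
    r n * (∑ j ∈ Finset.Ico m n, μ j • gap r j) = 0 ∧
      (∑ j ∈ Finset.Ico m n, μ j • gap r j) * r n = 0 := by
  rw [Finset.mul_sum, Finset.sum_mul]
  constructor <;> refine Finset.sum_eq_zero fun j hj => ?_
  · rw [mul_smul_comm, h.mul_gap_of_lt (Finset.mem_Ico.1 hj).2, smul_zero]
  · rw [smul_mul_assoc, h.gap_mul_of_lt (Finset.mem_Ico.1 hj).2, smul_zero]

theorem Dec.norm_sum_gap_le (h : Dec r) (μ : ℕ → ℂ) {C : ℝ} (hC : 0 ≤ C) (m n : ℕ)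
    (hμ : ∀ j, m ≤ j → ‖μ j‖ ≤ C) : ‖∑ j ∈ Finset.Ico m n, μ j • gap r j‖ ≤ C := by
  induction n with
  | zero => simpa using hC
  | succ n ih =>
    rcases le_or_gt m n with hmn | hmn
    · rw [Finset.sum_Ico_succ_top hmn, add_comm]
      refine norm_add_le_of_orth (h.proj n) ?_ ?_ (h.sum_gap_mul μ m n).1
        (h.sum_gap_mul μ m n).2 ?_ ih
      · rw [mul_smul_comm, h.mul_gap_of_le le_rfl]
      · rw [smul_mul_assoc, h.gap_mul_of_le le_rfl]
      · rw [norm_smul]
        exact (mul_le_of_le_one_right (norm_nonneg _) (h.gap_proj n).norm_le).trans (hμ n hmn)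
    · rw [Finset.Ico_eq_empty (by omega)]
      simpa using hC

theorem mem_ker_of_gap (hτ : IsFT τ) (h : Adm τ r) {y : R} (hy : ∀ j, τ (gap r j * y) = 0) :
    y ∈ Ker τ r := by
  intro k
  have h1 : ∀ m, τ (r (k + m) * y) = τ (r k * y) := by
    intro m
    induction m with
    | zero => rfl
    | succ m ih =>
      have := hy (k + m)
      rw [gap, sub_mul, map_sub, sub_eq_zero] at this
      rw [← ih, this, add_assoc]
  have h2 : Tendsto (fun m => τ (r m * y)) atTop (𝓝 0) := by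
    refine squeeze_zero_norm (fun m => hτ.norm_proj_mul_le' (h.proj m) y) ?_
    simpa using h.lim.norm.const_mul ‖y‖
  have h3 := h2.comp (tendsto_add_atTop_nat k)
  refine tendsto_nhds_unique ?_ h3
  refine tendsto_const_nhds.congr fun m => ?_
  rw [Function.comp_apply, add_comm m k, h1]

theorem gap_mem_cspan (j : ℕ) : gap r j ∈ cspan (Set.range r) :=
  sub_mem (mem_cspan ⟨j, rfl⟩) (mem_cspan ⟨j + 1, rfl⟩)

theorem exists_dec_bound (hτ : IsFT τ) (h : Adm τ r) {x : R} (hx : Exc r x) {C : ℝ}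
    (hC : ∀ j, ‖τ (gap r j * x)‖ ≤ C * ‖τ (gap r j)‖) :
    ∃ d ∈ cspan (Set.range r), ‖d‖ ≤ C ∧ x - d ∈ Ker τ r := by
  obtain ⟨c, hc⟩ := hx
  set l : ℕ → ℂ := fun j => τ (gap r j * x) / τ (gap r j) with hl
  have hlC : ∀ j, ‖l j‖ ≤ C := fun j => by
    rw [hl, norm_div, div_le_iff₀ (norm_pos_iff.2 (h.tr_gap_ne_zero j))]; exact hC j
  have hC0 : 0 ≤ C := (norm_nonneg _).trans (hlC 0)
  have hlc : ∀ N j, N ≤ j → ‖l j - c‖ ≤ ‖r N * (x - c • 1) * r N‖ := by
    intro N j hj
    refine (norm_ratio_sub_le hτ (h.gap_proj j) (h.tr_gap_ne_zero j) x c).trans ?_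
    have : gap r j * (x - c • 1) * gap r j =
        gap r j * (r N * (x - c • 1) * r N) * gap r j := by
      rw [← mul_assoc, ← mul_assoc, h.gap_mul_of_le hj, mul_assoc _ (r N), h.mul_gap_of_le hj]
    rw [this]
    calc _ ≤ ‖gap r j‖ * ‖r N * (x - c • 1) * r N‖ * ‖gap r j‖ := norm_mul₃_le
      _ ≤ 1 * ‖r N * (x - c • 1) * r N‖ * 1 := by gcongr <;> exact (h.gap_proj j).norm_le
      _ = _ := by ring
  have hlim : Tendsto l atTop (𝓝 c) := by
    rw [tendsto_iff_norm_sub_tendsto_zero]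
    exact squeeze_zero (fun _ => norm_nonneg _) (fun j => hlc j j le_rfl) hc
  have hcC : ‖c‖ ≤ C := le_of_tendsto' hlim.norm hlC
  set d : ℕ → R := fun m => c • r m + ∑ j ∈ Finset.Ico 0 m, l j • gap r j with hd
  have hdiff : ∀ N n, N ≤ n → d n - d N = ∑ j ∈ Finset.Ico N n, (l j - c) • gap r j := by
    intro N n hn
    induction n, hn using Nat.le_induction with
    | base => simp
    | succ n hn ih =>
      rw [Finset.sum_Ico_succ_top hn, ← ih, hd]
      simp only
      rw [Finset.sum_Ico_succ_top (Nat.zero_le n), gap, sub_smul, smul_sub c]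
      abel
  have hcau : CauchySeq d := by
    refine Metric.cauchySeq_iff'.2 fun ε hε => ?_
    obtain ⟨N, hN⟩ := (hc.eventually (gt_mem_nhds hε)).exists
    refine ⟨N, fun n hn => ?_⟩
    rw [dist_eq_norm, hdiff N n hn]
    exact (h.norm_sum_gap_le _ (norm_nonneg _) N n (hlc N)).trans_lt hN
  obtain ⟨d₀, hd₀⟩ := cauchySeq_tendsto_of_complete hcau
  refine ⟨d₀, ?_, ?_, ?_⟩
  · refine (isClosed_cspan _).mem_of_tendsto hd₀ (Eventually.of_forall fun m => ?_)
    exact add_mem (Submodule.smul_mem _ _ (mem_cspan ⟨m, rfl⟩))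
      (Submodule.sum_mem _ fun j _ => Submodule.smul_mem _ _ (gap_mem_cspan j))
  · refine le_of_tendsto' hd₀.norm fun m => ?_
    refine norm_add_le_of_orth (h.proj m) ?_ ?_ (h.sum_gap_mul l 0 m).1 (h.sum_gap_mul l 0 m).2
      ?_ (h.norm_sum_gap_le l hC0 0 m fun j _ => hlC j)
    · rw [mul_smul_comm, h.idem]
    · rw [smul_mul_assoc, h.idem]
    · rw [norm_smul, h.norm_eq, mul_one]; exact hcC
  · refine mem_ker_of_gap hτ h fun j => ?_
    have h1 : gap r j * d₀ = l j • gap r j := by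
      refine tendsto_nhds_unique (hd₀.const_mul (gap r j)) ?_
      refine tendsto_const_nhds.congr' ?_
      filter_upwards [eventually_gt_atTop j] with m hm
      rw [hd]
      simp only
      rw [mul_add, mul_smul_comm, h.gap_mul_of_lt hm, smul_zero, zero_add, Finset.mul_sum,
        Finset.sum_eq_single j]
      · rw [mul_smul_comm, (h.gap_proj j).isIdempotentElem.eq]
      · intro i _ hij
        rw [mul_smul_comm, h.gap_mul_gap hij.symm, smul_zero]
      · intro hj
        exact absurd (Finset.mem_Ico.2 ⟨Nat.zero_le j, hm⟩) hj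
    rw [mul_sub, map_sub, h1, map_smul, smul_eq_mul, hl]
    simp only
    rw [div_mul_cancel₀ _ (h.tr_gap_ne_zero j), sub_self]

theorem Ker.tr_gap {y : R} (hy : y ∈ Ker τ r) (j : ℕ) : τ (gap r j * y) = 0 := by
  rw [gap, sub_mul, map_sub, hy j, hy (j + 1), sub_self]

theorem exists_dec_approx (hτ : IsFT τ) (h : Adm τ r) {x y : R} (hx : Exc r x)
    (hy : y ∈ Ker τ r) : ∃ d ∈ cspan (Set.range r), ‖d‖ ≤ ‖x - y‖ ∧ x - d ∈ Ker τ r := by
  refine exists_dec_bound hτ h hx fun j => ?_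
  have := hτ.norm_proj_mul_le' (h.gap_proj j) (x - y)
  rwa [mul_sub, map_sub, Ker.tr_gap hy, sub_zero] at this

theorem zero_mem_ker : (0 : R) ∈ Ker τ r := fun k => by simp

theorem exists_dec (hτ : IsFT τ) (h : Adm τ r) {x : R} (hx : Exc r x) :
    ∃ d ∈ cspan (Set.range r), x - d ∈ Ker τ r := by
  obtain ⟨d, hd, -, hk⟩ := exists_dec_approx hτ h hx zero_mem_ker
  exact ⟨d, hd, hk⟩

theorem Gad.pre (hτ : IsFT τ) {B : StarSubalgebra ℂ R} {r : Bool → ℕ → R} {u : Bool → R}
    (h : Gad τ B r u) : Pre τ B r u where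
  toUni := h.toUni
  closed := h.closed
  comm x _ y _ := hτ.comm x y
  map_star x _ := hτ.map_star x
  adm := h.adm
  mem := h.mem
  tr_eq := h.tr_eq
  dec e a ha := exists_dec hτ (h.adm e) (h.exc e a ha)

end Vale.Agent.P070
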