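import Vale.Agent.P070.TowerThm

/-! The distinguished excising sequence `p` sees every nonzero element. -/

open scoped ComplexOrder InnerProductSpace
open Filter Topology Set

namespace Vale.Agent.P070

variable {R : Type*} [CStarAlgebra R] {τ : R →L[ℂ] ℂ} {p X : ℕ → R} {B : StarSubalgebra ℂ R}

theorem Av_add' (X : ℕ → R) (k : ℕ) (x y : R) : Av X k (x + y) = Av X k x + Av X k y := by
  induction k with
  | zero => rfl
  | succ k ih => simp only [Av, ih, mul_add, add_mul, smul_add]; abel

theorem Av_smul' (X : ℕ → R) (k : ℕ) (c : ℂ) (x : R) : Av X k (c • x) = c • Av X k x := by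
  induction k with
  | zero => rfl
  | succ k ih => simp only [Av, ih, mul_smul_comm, smul_mul_assoc, smul_add, smul_comm c]

theorem Av_sub (X : ℕ → R) (k : ℕ) (x y : R) : Av X k (x - y) = Av X k x - Av X k y := by
  rw [sub_eq_add_neg, Av_add', ← neg_one_smul ℂ y, Av_smul', neg_one_smul, ← sub_eq_add_neg]

theorem Base.norm_X_le (h : Base τ B p X) (n : ℕ) : ‖X n‖ ≤ 1 := by
  have h1 : ‖X n‖ * ‖X n‖ ≤ 1 := by
    rw [← CStarRing.norm_star_mul_self, h.X_star, h.X_sq]
    exact (IsStarProjection.one R).norm_le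
  nlinarith [norm_nonneg (X n)]

theorem Base.norm_Av_le (h : Base τ B p X) (k : ℕ) (x : R) : ‖Av X k x‖ ≤ ‖x‖ := by
  induction k with
  | zero => exact le_rfl
  | succ k ih =>
    have h1 : ‖X k * Av X k x * X k‖ ≤ ‖x‖ :=
      calc _ ≤ ‖X k‖ * ‖Av X k x‖ * ‖X k‖ := norm_mul₃_le
        _ ≤ 1 * ‖x‖ * 1 := by gcongr <;> exact h.norm_X_le k
        _ = _ := by ring
    have h2 := norm_add_le (Av X k x) (X k * Av X k x * X k)
    rw [Av, norm_smul, norm_inv, Complex.norm_two]
    linarith

/-- The elements whose averages are excised with scalar the trace. -/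
def psiSub (τ : R →L[ℂ] ℂ) (p X : ℕ → R) : Submodule ℂ R where
  carrier := {x | ∀ η : ℝ, 0 < η → ∀ᶠ k in atTop, ∀ᶠ n in atTop,
    ‖p n * (Av X k x - τ x • 1) * p n‖ ≤ η}
  zero_mem' := fun η hη => Eventually.of_forall fun k => Eventually.of_forall fun n => by
    have : Av X k (0 : R) = 0 := by simpa using Av_smul' X k 0 0
    simpa [this] using hη.le
  add_mem' := by
    intro x y hx hy η hη
    filter_upwards [hx (η / 2) (by positivity), hy (η / 2) (by positivity)] with k h1 h2
    filter_upwards [h1, h2] with n h1 h2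
    rw [Av_add', map_add, add_smul, show Av X k x + Av X k y - (τ x • 1 + τ y • 1) =
      (Av X k x - τ x • 1) + (Av X k y - τ y • 1) by abel, mul_add, add_mul]
    exact (norm_add_le _ _).trans (by linarith)
  smul_mem' := by
    intro c x hx η hη
    filter_upwards [hx (η / (‖c‖ + 1)) (by positivity)] with k h1
    filter_upwards [h1] with n h1
    rw [Av_smul', map_smul, smul_assoc, ← smul_sub, mul_smul_comm, smul_mul_assoc, norm_smul]
    rw [le_div_iff₀ (by positivity)] at h1
    nlinarith [norm_nonneg (p n * (Av X k x - τ x • 1) * p n), norm_nonneg c]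

theorem Base.isClosed_psiSub (hτ : IsFT τ) (h : Base τ B p X) :
    IsClosed (psiSub τ p X : Set R) := by
  refine isClosed_of_closure_subset fun x hx η hη => ?_
  obtain ⟨y, hy, hxy⟩ := Metric.mem_closure_iff.1 hx (η / 3) (by positivity)
  filter_upwards [hy (η / 3) (by positivity)] with k h1
  filter_upwards [h1] with n h1
  rw [dist_eq_norm] at hxy
  have h2 : Av X k x - τ x • 1 = (Av X k y - τ y • 1) + (Av X k (x - y) - τ (x - y) • (1 : R)) := by
    rw [Av_sub, map_sub, sub_smul]; abel
  rw [h2, mul_add, add_mul]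
  refine (norm_add_le _ _).trans ?_
  have h3 := norm_compress_le h.adm.toDec h.adm.toDec (Av X k (x - y) - τ (x - y) • (1 : R)) n n
  have h4 := norm_sub_le (Av X k (x - y)) (τ (x - y) • (1 : R))
  have h5 := h.norm_Av_le k (x - y)
  have h6 : ‖τ (x - y) • (1 : R)‖ ≤ ‖x - y‖ := by
    rw [norm_smul]
    exact (mul_le_of_le_one_right (norm_nonneg _) (IsStarProjection.one R).norm_le).trans
      (hτ.norm_le _)
  linarith

theorem Base.sm_Av (h : Base τ B p X) {x : R} (hx : ∀ b ∈ B, ∀ b' ∈ B, Sm p (b * x * b') p)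
    (k : ℕ) : ∀ b ∈ B, ∀ b' ∈ B, Sm p (b * Av X k x * b') p := by
  induction k with
  | zero => exact hx
  | succ k ih =>
    intro b hb b' hb'
    have := (smSub p p).smul_mem (2 : ℂ)⁻¹ ((smSub p p).add_mem (ih b hb b' hb')
      (ih _ (mul_mem hb (h.X_mem k)) _ (mul_mem (h.X_mem k) hb')))
    rw [mem_smSub] at this
    convert this using 1
    simp only [Av, mul_smul_comm, smul_mul_assoc, mul_add, add_mul, mul_assoc]

namespace Tower

variable {I : Type} [LinearOrder I] [WellFoundedLT I] (T : Tower τ I)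

theorem exc_p (hτ : IsFT τ) (h : Base τ (T.A ∅) p X) (x : R) : Exc p x :=
  T.exc_top hτ h.adm (S := ∅) (fun _ hβ => hβ.elim) h.mem h.exc x

theorem psi_top (hτ : IsFT τ) (h : Base τ (T.A ∅) p X) (x : R) : x ∈ psiSub τ p X := by
  refine T.induct (M := psiSub τ p X) (h.isClosed_psiSub hτ) ∅ h.psi (fun γ ih => ?_) x
  rw [empty_union] at ih ⊢
  rw [← Iio_insert]
  by_cases ha : T.act γ
  · intro y hy
    have hg := T.gad γ ha
    have hle : T.A ∅ ≤ T.A (Iio γ) := T.mono _ _ (empty_subset _)
    refine (hg.pre hτ).ext_induction (h.isClosed_psiSub hτ) ih (fun w hw η hη => ?_)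
      (T.insert_le _ _ hy)
    refine Eventually.of_forall fun k => ?_
    have := h.sm_Av (x := w) (fun b hb b' hb' => hg.sm_self_wset hτ h.adm (fun n => hle (h.mem n))
      (fun z _ => T.exc_p hτ h z) (wset_mul_mem hw (hle hb) (hle hb'))) k 1 (one_mem _) 1
      (one_mem _)
    rw [one_mul, mul_one] at this
    simpa [hg.free w hw] using this.eventually_le hη
  · exact Subset.trans (T.insert_le_of_inact ha _) ih

theorem eq_zero_of_tendsto (hτ : IsFT τ) (h : Base τ (T.A ∅) p X) {a : R}
    (ha : ∀ b, Tendsto (fun n => ‖a * b * p n‖) atTop (𝓝 0)) : a = 0 := by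
  refine hτ.faithful a (norm_le_zero_iff.1 (le_of_forall_pos_le_add fun η hη => ?_))
  obtain ⟨k, hk⟩ := (T.psi_top hτ h (star a * a) (η / 2) (by positivity)).exists
  have h1 := h.sm_Av (x := star a * a) (fun b _ b' _ => by
    refine squeeze_zero (fun _ => norm_nonneg _) (fun n => ?_)
      (by simpa using (ha b').const_mul ‖b * star a‖)
    rw [show p n * (b * (star a * a) * b') * p n = p n * (b * star a * (a * b' * p n)) by
      simp only [mul_assoc]]
    exact (h.adm.norm_mul_le n _).trans (norm_mul_le _ _)) k 1 (one_mem _) 1 (one_mem _)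
  rw [one_mul, mul_one] at h1
  obtain ⟨n, hn1, hn2⟩ := (hk.and (h1.eventually_le (half_pos hη))).exists
  rw [← h.adm.norm_compress_smul (τ (star a * a)) n n, show τ (star a * a) • (1 : R) =
    Av X k (star a * a) - (Av X k (star a * a) - τ (star a * a) • 1) by abel, mul_sub, sub_mul]
  refine (norm_sub_le _ _).trans ?_
  linarith

end Tower

theorem exists_star_mul_eq_proj {q y : R} (hq : IsStarProjection q) {c : ℂ}
    (hc : ‖q * (star y * y - c • 1) * q‖ < ‖c‖) : ∃ g : R, star (y * g) * (y * g) = q := by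
  let _ : PartialOrder R := CStarAlgebra.spectralOrder R
  have : StarOrderedRing R := CStarAlgebra.spectralOrderedRing R
  have hc0 : c ≠ 0 := norm_pos_iff.1 ((norm_nonneg _).trans_lt hc)
  have hqq := hq.isIdempotentElem.eq
  have hqs := hq.isSelfAdjoint.star_eq
  set t := q * (star y * y) * q + (1 - q) with ht
  have hu : IsUnit t := by
    have h1 : IsUnit (1 - (-c⁻¹) • (q * (star y * y - c • 1) * q)) := by
      refine isUnit_one_sub_of_norm_lt_one ?_
      rw [norm_smul, norm_neg, norm_inv, inv_mul_lt_iff₀ (norm_pos_iff.2 hc0), mul_one]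
      exact hc
    have h2 : IsUnit (c • q + (1 - q)) := by
      refine ⟨⟨c • q + (1 - q), c⁻¹ • q + (1 - q), ?_, ?_⟩, rfl⟩ <;>
        simp [add_mul, mul_add, mul_sub, sub_mul, hqq, smul_smul, hc0]
    convert h1.mul h2 using 1
    have e1 : q * (star y * y - c • 1) * q = q * (star y * y) * q - c • q := by
      rw [mul_sub, sub_mul, mul_smul_comm, mul_one, smul_mul_assoc, hqq]
    have e2 : q * (star y * y) * q * q = q * (star y * y) * q := by rw [mul_assoc _ q q, hqq]
    rw [e1, ht]
    generalize q * (star y * y) * q = z at e2 ⊢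
    have e3 : 1 - (-c⁻¹) • (z - c • q) = c⁻¹ • z + (1 - q) := by
      rw [neg_smul, sub_neg_eq_add, smul_sub, smul_smul, inv_mul_cancel₀ hc0, one_smul]; abel
    rw [e3, add_mul, mul_add, mul_add, smul_mul_assoc, smul_mul_assoc, mul_smul_comm, e2,
      smul_smul, inv_mul_cancel₀ hc0, one_smul, mul_sub z, mul_one, e2, sub_self, smul_zero,
      add_zero, mul_smul_comm, hq.one_sub_mul_self, smul_zero, zero_add,
      hq.one_sub.isIdempotentElem.eq]
  have h0 : 0 ≤ t := by
    refine add_nonneg ?_ hq.one_sub.nonneg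
    have := star_mul_self_nonneg (y * q)
    rwa [star_mul, hqs, ← mul_assoc, mul_assoc q] at this
  have hcomm : Commute t q := by
    simp only [Commute, SemiconjBy, ht, add_mul, mul_add, sub_mul, mul_sub, mul_assoc, hqq,
      one_mul, mul_one, sub_self]
    rw [← mul_assoc q q, hqq]
  set g := t ^ (-(1 / 2) : ℝ) with hg
  have hg1 : g * t * g = 1 := CFC.conjugate_rpow_neg_one_half t ⟨h0, hu⟩
  have hgs : star g = g := (IsSelfAdjoint.of_nonneg CFC.rpow_nonneg).star_eq
  have hgq : Commute g q := hcomm.cfc_nnreal _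
  refine ⟨q * g, ?_⟩
  have h3 : q * (star y * y) * q = t * q := by
    simp only [ht, add_mul, sub_mul, mul_assoc, hqq, one_mul, sub_self, add_zero]
  calc star (y * (q * g)) * (y * (q * g)) = g * (q * (star y * y) * q) * g := by
        simp only [star_mul, hgs, hqs, mul_assoc]
    _ = g * t * g * q := by rw [h3, mul_assoc, mul_assoc, ← hgq.eq]; simp only [mul_assoc]
    _ = q := by rw [hg1, one_mul]

theorem Tower.exists_proj_le {I : Type} [LinearOrder I] [WellFoundedLT I] (T : Tower τ I)
    (hτ : IsFT τ) (h : Base τ (T.A ∅) p X) (a : R) (ha : a ≠ 0) (n₀ : ℕ) :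
    ∃ n, n₀ < n ∧ ∃ c, star (a * c) * (a * c) = p n := by
  have h1 : ¬ ∀ b, Tendsto (fun n => ‖a * b * p n‖) atTop (𝓝 0) := fun h1 =>
    ha (T.eq_zero_of_tendsto hτ h h1)
  push Not at h1
  obtain ⟨b, hb⟩ := h1
  obtain ⟨c, hc⟩ := T.exc_p hτ h (star (a * b) * (a * b))
  have hc0 : c ≠ 0 := by
    rintro rfl
    apply hb
    have h2 := (hc.tendsto_norm h.adm).sqrt
    simp only [norm_sq_eq_compress h.adm.toDec, Real.sqrt_sq (norm_nonneg _), norm_zero,
      Real.sqrt_zero] at h2
    exact h2
  obtain ⟨n, hn1, hn2⟩ := ((hc.eventually (gt_mem_nhds (norm_pos_iff.2 hc0))).and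
    (eventually_gt_atTop n₀)).exists
  obtain ⟨g, hg⟩ := exists_star_mul_eq_proj (h.adm.proj n) hn1
  exact ⟨n, hn2, b * g, by rw [← mul_assoc a b g]; exact hg⟩

end Vale.Agent.P070
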