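import Vale.Agent.P070.Irred

/-! The projection step. -/

open scoped ComplexOrder InnerProductSpace
open Filter Topology

namespace Vale.Agent.P070

variable {A : Type*} [CStarAlgebra A] {H : Type*} [NormedAddCommGroup H]
  [InnerProductSpace ℂ H] [CompleteSpace H] {π : A →⋆ₐ[ℂ] (H →L[ℂ] H)}

lemma rep_adj (a : A) (x y : H) : ⟪π a x, y⟫_ℂ = ⟪x, π (star a) y⟫_ℂ := by
  rw [map_star, ContinuousLinearMap.star_eq_adjoint, ContinuousLinearMap.adjoint_inner_right]

lemma rep_mul (a b : A) (x : H) : π (a * b) x = π a (π b x) := by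
  rw [map_mul, mul_apply_eq_comp]

lemma rep_norm_le (a : A) (x : H) : ‖π a x‖ ≤ ‖a‖ * ‖x‖ :=
  ((π a).le_opNorm x).trans
    (mul_le_mul_of_nonneg_right (NonUnitalStarAlgHom.norm_apply_le π a) (norm_nonneg _))

lemma rep_norm_sq (a : A) (x : H) : (⟪x, π (star a * a) x⟫_ℂ).re = ‖π a x‖ ^ 2 := by
  rw [rep_mul, ← rep_adj, inner_self_eq_norm_sq_to_K]
  norm_cast

lemma Irr.decomp (h : Irr π) {ζ : H} (hζ : ζ ≠ 0) (y : A) {e : ℝ} (he : 0 < e) :
    ∃ (c : ℂ) (x x' : A), y - c • 1 = x + star x' ∧ ‖π x ζ‖ < e ∧ ‖π x' ζ‖ < e := by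
  set c := ⟪ζ, π y ζ⟫_ℂ / ⟪ζ, ζ⟫_ℂ with hc
  set z := y - c • 1 with hz
  have h0 : ⟪ζ, π z ζ⟫_ℂ = 0 := by
    have : ⟪ζ, ζ⟫_ℂ ≠ 0 := inner_self_ne_zero.mpr hζ
    rw [hz, map_sub, map_smul, map_one, sub_apply, smul_apply, one_apply_eq_self, inner_sub_right,
      inner_smul_right, hc, div_mul_cancel₀ _ this, sub_self]
  obtain ⟨h1, s1, n1⟩ := h.sa1 (μ := (1 / 2 : ℂ) • π z ζ) hζ
    (by rw [inner_smul_right, h0]; simp) (half_pos he)
  obtain ⟨h2, s2, n2⟩ := h.sa1 (μ := (-Complex.I / 2) • π z ζ) hζ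
    (by rw [inner_smul_right, h0]; simp) (half_pos he)
  refine ⟨c, z - h1 - Complex.I • h2, h1 - Complex.I • h2, ?_, ?_, ?_⟩
  · rw [star_sub, star_smul, s1.star_eq, s2.star_eq, Complex.star_def, Complex.conj_I]
    module
  · have e1 : π (z - h1 - Complex.I • h2) ζ = -(π h1 ζ - (1 / 2 : ℂ) • π z ζ)
        - Complex.I • (π h2 ζ - (-Complex.I / 2) • π z ζ) := by
      rw [map_sub, map_sub, map_smul, sub_apply, sub_apply, smul_apply, smul_sub, smul_smul]
      have : Complex.I * (-Complex.I / 2) = 1 / 2 := by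
        linear_combination (-1 / 2) * Complex.I_mul_I
      rw [this]
      module
    rw [e1]
    refine (norm_sub_le _ _).trans_lt ?_
    rw [norm_neg, norm_smul, Complex.norm_I, one_mul]
    linarith
  · have e1 : π (h1 - Complex.I • h2) ζ = (π h1 ζ - (1 / 2 : ℂ) • π z ζ)
        - Complex.I • (π h2 ζ - (-Complex.I / 2) • π z ζ) := by
      rw [map_sub, map_smul, sub_apply, smul_apply, smul_sub, smul_smul]
      have : Complex.I * (-Complex.I / 2) = 1 / 2 := by
        linear_combination (-1 / 2) * Complex.I_mul_I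
      rw [this]
      module
    rw [e1]
    refine (norm_sub_le _ _).trans_lt ?_
    rw [norm_smul, Complex.norm_I, one_mul]
    linarith

lemma exists_cut (π : A →⋆ₐ[ℂ] (H →L[ℂ] H)) {q : A} (hq : IsStarProjection q) {ζ : H}
    (hqζ : π q ζ = ζ) (G : Finset A) {κ : ℝ} (hκ : 0 < κ) :
    ∃ a : A, IsSelfAdjoint a ∧ q * a = a ∧ ‖a‖ ≤ 1 ∧
      (∀ x ∈ G, ∀ c, κ * ‖x * (a * c)‖ ^ 2 ≤ ‖a * c‖ ^ 2) ∧
      ‖ζ - π a ζ‖ ^ 2 ≤ 2 * κ * ∑ x ∈ G, ‖π x ζ‖ ^ 2 := by
  let := CStarAlgebra.spectralOrder A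
  have := CStarAlgebra.spectralOrderedRing A
  set s : A := ∑ x ∈ G, star x * x with hs
  have s0 : 0 ≤ s := Finset.sum_nonneg fun x _ => star_mul_self_nonneg x
  have ks0 : 0 ≤ κ • s := smul_nonneg hκ.le s0
  set t : A := q * (1 - κ • s) * q with ht
  have hqs := hq.isSelfAdjoint
  have hqq : q * q = q := hq.isIdempotentElem
  have tsa : IsSelfAdjoint t := by
    have : IsSelfAdjoint (1 - κ • s) := (IsSelfAdjoint.one A).sub ks0.isSelfAdjoint
    exact this.conjugate_self hqs
  have t1 : t ≤ 1 := by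
    have h1 : star q * (1 - κ • s) * q ≤ star q * 1 * q :=
      star_left_conjugate_le_conjugate (sub_le_self _ ks0) q
    rw [hqs.star_eq, mul_one, hqq] at h1
    exact h1.trans hq.le_one
  set a := t⁺ with ha
  have a0 : 0 ≤ a := CFC.posPart_nonneg t
  have asa : IsSelfAdjoint a := a0.isSelfAdjoint
  have n0 : 0 ≤ t⁻ := CFC.negPart_nonneg t
  have hsub : a - t⁻ = t := CFC.posPart_sub_negPart t tsa
  have hat : a * t = a * a := by
    conv_lhs => rw [← hsub]
    rw [mul_sub, CFC.posPart_mul_negPart, sub_zero]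
  have haq : a * q = a := by
    have h1 : star (a * (1 - q)) * (a * (1 - q)) = 0 := by
      rw [star_mul, asa.star_eq, mul_assoc, ← mul_assoc a a, ← hat, ht]
      simp only [mul_assoc, hq.mul_one_sub_self, mul_zero]
    have h2 := (CStarRing.star_mul_self_eq_zero_iff _).mp h1
    rw [mul_sub, mul_one, sub_eq_zero] at h2
    exact h2.symm
  have hqa : q * a = a := by
    have := congrArg star haq
    rwa [star_mul, hqs.star_eq, asa.star_eq] at this
  have a3 : 0 ≤ a * a * a := conjugate_nonneg_of_nonneg a0 a0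
  have an : ‖a‖ ≤ 1 := by
    have h1 : star a * t * a ≤ star a * 1 * a := star_left_conjugate_le_conjugate t1 a
    rw [asa.star_eq, hat, mul_one] at h1
    have h2 := CStarAlgebra.norm_le_norm_of_nonneg_of_le a3 h1
    rw [asa.norm_mul_self] at h2
    have h3 : ‖a * a * (a * a)‖ = (‖a‖ ^ 2) ^ 2 := by
      have : IsSelfAdjoint (a * a) := by rw [IsSelfAdjoint, star_mul, asa.star_eq]
      rw [this.norm_mul_self, asa.norm_mul_self]
    have h4 : ‖a * a * (a * a)‖ ≤ ‖a * a * a‖ * ‖a‖ := by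
      rw [← mul_assoc]
      exact norm_mul_le _ _
    by_contra hcon
    push Not at hcon
    have h5 : ‖a * a * a‖ * ‖a‖ ≤ ‖a‖ ^ 2 * ‖a‖ := mul_le_mul_of_nonneg_right h2 (norm_nonneg _)
    have h6 : 0 < ‖a‖ ^ 3 := by positivity
    nlinarith
  refine ⟨a, asa, hqa, an, fun x hx c => ?_, ?_⟩
  · set v := a * c with hv
    have hqv : q * v = v := by rw [hv, ← mul_assoc, hqa]
    have h1 : star v * (1 - κ • s) * v = star c * (a * a * a) * c := by
      have e1 : star v * (1 - κ • s) * v = star v * t * v := by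
        conv_lhs => rw [← hqv]
        rw [star_mul, hqs.star_eq, ht]
        simp only [mul_assoc]
      rw [e1, hv, star_mul, asa.star_eq, ← hat]
      simp only [mul_assoc]
    have h2 : 0 ≤ star v * (1 - κ • s) * v := h1 ▸ star_left_conjugate_nonneg a3 c
    have h3 : star x * x ≤ s :=
      Finset.single_le_sum (f := fun x => star x * x) (fun x _ => star_mul_self_nonneg x) hx
    have h4 : star v * (κ • (star x * x)) * v ≤ star v * v := by
      refine (star_left_conjugate_le_conjugate (smul_le_smul_of_nonneg_left h3 hκ.le) v).trans ?_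
      rwa [mul_sub, sub_mul, mul_one, sub_nonneg] at h2
    have e2 : star v * (κ • (star x * x)) * v = κ • (star (x * v) * (x * v)) := by
      rw [star_mul x v]
      simp only [mul_smul_comm, smul_mul_assoc, mul_assoc]
    rw [e2] at h4
    have h5 := CStarAlgebra.norm_le_norm_of_nonneg_of_le
      (smul_nonneg hκ.le (star_mul_self_nonneg _)) h4
    rwa [norm_smul, CStarRing.norm_star_mul_self, CStarRing.norm_star_mul_self, Real.norm_eq_abs,
      abs_of_pos hκ, ← sq, ← sq] at h5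
  · have h1 : 0 ≤ (⟪ζ, π t⁻ ζ⟫_ℂ).re :=
      ((ContinuousLinearMap.nonneg_iff_isPositive _).mp (map_nonneg π n0)).re_inner_nonneg_right ζ
    have h2 : (⟪ζ, π t ζ⟫_ℂ).re = ‖ζ‖ ^ 2 - κ * ∑ x ∈ G, ‖π x ζ‖ ^ 2 := by
      rw [ht, rep_mul, rep_mul, hqζ, ← hqs.star_eq, ← rep_adj, hqζ, ← Complex.coe_smul, map_sub,
        map_one, map_smul, sub_apply, smul_apply, one_apply_eq_self, inner_sub_right,
        inner_smul_right, Complex.sub_re, Complex.re_ofReal_mul, inner_self_eq_norm_sq_to_K, hs,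
        map_sum, sum_apply, inner_sum, Complex.re_sum]
      simp only [rep_norm_sq]
      norm_cast
    have h3 : (⟪ζ, π a ζ⟫_ℂ).re = (⟪ζ, π t ζ⟫_ℂ).re + (⟪ζ, π t⁻ ζ⟫_ℂ).re := by
      conv_lhs => rw [← sub_add_cancel a t⁻, hsub]
      rw [map_add, add_apply, inner_add_right, Complex.add_re]
    have h4 : ‖π a ζ‖ ≤ ‖ζ‖ :=
      (rep_norm_le a ζ).trans (mul_le_of_le_one_left (norm_nonneg _) an)
    have h5 := norm_sub_sq (𝕜 := ℂ) ζ (π a ζ)
    simp only [RCLike.re_to_complex] at h5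
    have h6 : ‖π a ζ‖ ^ 2 ≤ ‖ζ‖ ^ 2 := pow_le_pow_left₀ (norm_nonneg _) h4 2
    linarith

lemma exists_cayley {k : A} (hk : IsSelfAdjoint k) :
    ∃ r w : A, star w * w = 1 ∧ w = -1 + (2 : ℂ) • (k * r) ∧
      w * (k + Complex.I • 1) = k - Complex.I • 1 := by
  have hu : IsUnit (k + Complex.I • 1) := by
    by_contra hcon
    have h1 : -Complex.I ∈ spectrum ℂ k := by
      rw [spectrum.mem_iff, Algebra.algebraMap_eq_smul_one]
      intro h2
      apply hcon
      have := h2.neg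
      rwa [neg_sub, neg_smul, sub_neg_eq_add] at this
    have := hk.im_eq_zero_of_mem_spectrum h1
    simp at this
  obtain ⟨u, hu⟩ := hu
  have h1 : (k + Complex.I • 1) * (↑u⁻¹ : A) = 1 := by rw [← hu]; simp
  have h2 : (↑u⁻¹ : A) * (k + Complex.I • 1) = 1 := by rw [← hu]; simp
  have hst : star (k - Complex.I • 1) = k + Complex.I • 1 := by
    rw [star_sub, star_smul, star_one, hk.star_eq, Complex.star_def, Complex.conj_I]
    module
  have hst' : star (k + Complex.I • 1) = k - Complex.I • 1 := by rw [← hst, star_star]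
  have hcomm : (k + Complex.I • 1) * (k - Complex.I • 1)
      = (k - Complex.I • 1) * (k + Complex.I • 1) := by
    simp only [mul_sub, sub_mul, mul_add, add_mul, mul_smul_comm, smul_mul_assoc, mul_one, one_mul]
    module
  refine ⟨↑u⁻¹, (k - Complex.I • 1) * ↑u⁻¹, ?_, ?_, ?_⟩
  · rw [star_mul, hst, mul_assoc, ← mul_assoc (k + Complex.I • 1), hcomm, mul_assoc, h1, mul_one,
      ← hst', ← star_mul, h1, star_one]
  · have h3 : (-1 : A) = -((k + Complex.I • 1) * (↑u⁻¹ : A)) := by rw [h1]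
    rw [h3]
    simp only [sub_mul, add_mul, smul_mul_assoc, one_mul]
    module
  · rw [mul_assoc, h2, mul_one]

lemma Irr.rotate (h : Irr π) {a : A} (ha : IsSelfAdjoint a) (an : ‖a‖ ≤ 1) {x y : H}
    (hn : ‖π a x‖ = ‖π a y‖) (hne : π a x ≠ π a y) {e : ℝ} (he : 0 < e) :
    ∃ w c : A, star w * w = 1 ∧ w * a = a * c ∧ ‖π w (π a x) - π a y‖ < e := by
  set χ := (-Complex.I / 2) • (π a x - π a y) with hχ
  set μ1 := (1 / 2 : ℂ) • (x + y) with hμ1
  have hχa : χ = π a ((-Complex.I / 2) • (x - y)) := by rw [map_smul, map_sub]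
  have hχ0 : χ ≠ 0 := smul_ne_zero (by simp) (sub_ne_zero.mpr hne)
  have haχ : π a χ ≠ 0 := by
    intro h0
    apply hχ0
    have : ⟪χ, χ⟫_ℂ = 0 := by
      conv_lhs => congr; rw [hχa]
      rw [rep_adj, ha.star_eq, h0, inner_zero_right]
    exact inner_self_eq_zero.mp this
  obtain ⟨b, hb, hbn⟩ := h.sa1 (μ := μ1) haχ (by
    rw [rep_adj, ha.star_eq, hμ1, map_smul, map_add, hχ, inner_smul_left, inner_smul_right,
      inner_sub_left, inner_add_right, inner_add_right, inner_self_eq_norm_sq_to_K,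
      inner_self_eq_norm_sq_to_K, hn, ← inner_conj_symm (π a y) (π a x)]
    generalize ⟪π a x, π a y⟫_ℂ = z
    generalize ((‖π a y‖ : ℝ) : ℂ) ^ 2 = r
    have e1 : (starRingEnd ℂ) (-Complex.I / 2) * (1 / 2 * (r + z - ((starRingEnd ℂ) z + r)))
        = ((-z.im / 2 : ℝ) : ℂ) := by
      rw [map_div₀, map_neg, Complex.conj_I, show r + z - ((starRingEnd ℂ) z + r)
        = z - (starRingEnd ℂ) z by ring, Complex.sub_conj, map_ofNat]
      push_cast
      linear_combination (z.im / 2 : ℂ) * Complex.I_mul_I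
    exact e1 ▸ Complex.ofReal_im _) (half_pos he)
  have hk : IsSelfAdjoint (a * b * a) := hb.conjugate_self ha
  obtain ⟨r, w, hw1, hw2, hw3⟩ := exists_cayley hk
  refine ⟨w, -1 + (2 : ℂ) • (b * a * r * a), hw1, ?_, ?_⟩
  · rw [hw2]
    simp only [add_mul, mul_add, smul_mul_assoc, mul_smul_comm, mul_assoc, neg_mul, one_mul,
      mul_neg, mul_one]
  · set E := π (a * b * a) χ - π a μ1 with hE
    have hEn : ‖E‖ < e / 2 := by
      rw [hE, rep_mul, rep_mul, ← map_sub]
      exact ((rep_norm_le a _).trans (mul_le_of_le_one_left (norm_nonneg _) an)).trans_lt hbn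
    have hI : Complex.I * (-Complex.I / 2) = 1 / 2 := by
      linear_combination (-1 / 2) * Complex.I_mul_I
    have hIχ : π (Complex.I • (1 : A)) χ = (1 / 2 : ℂ) • (π a x - π a y) := by
      rw [map_smul π, map_one, smul_apply, one_apply_eq_self, hχ, smul_smul, hI]
    have hμa : π a μ1 = (1 / 2 : ℂ) • (π a x + π a y) := by rw [hμ1, map_smul, map_add]
    have e1 : π a x = π (a * b * a + Complex.I • 1) χ - E := by
      rw [hE, map_add π, add_apply, hIχ, hμa]
      module
    have e2 : π a y = π (a * b * a - Complex.I • 1) χ - E := by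
      rw [hE, map_sub π, sub_apply, hIχ, hμa]
      module
    have e3 : π w (π a x) - π a y = E - π w E := by
      conv_lhs => rw [e1, e2]
      rw [map_sub, ← rep_mul, hw3]
      abel
    have hwE : ‖π w E‖ = ‖E‖ := by
      have := rep_norm_sq (π := π) w E
      rw [hw1, map_one, one_apply_eq_self, inner_self_eq_norm_sq_to_K] at this
      norm_cast at this
      exact ((pow_left_inj₀ (norm_nonneg _) (norm_nonneg _) two_ne_zero).mp this).symm
    rw [e3]
    refine (norm_sub_le _ _).trans_lt ?_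
    linarith

theorem Irr.step (h : Irr π) (p : ℕ → A) (hp : ∀ n, IsStarProjection (p n))
    (h1 : ∀ n, π (p n) ≠ 0)
    (h2 : ∀ a : A, a ≠ 0 → ∀ n₀, ∃ n, n₀ < n ∧ ∃ c, star (a * c) * (a * c) = p n)
    {q : A} (hq : IsStarProjection q) {ζ : H} (hζ : ζ ≠ 0) (hqζ : π q ζ = ζ) (F : Finset A)
    {ε : ℝ} (hε : 0 < ε) (n₀ : ℕ) :
    ∃ n, n₀ < n ∧ ∃ v : A, star v * v = p n ∧ q * v = v ∧ ‖ζ‖ - ε < ‖π (v * star v) ζ‖ ∧
      ∀ y ∈ F, ∃ c : ℂ, ‖star v * (y - c • 1) * v‖ ≤ ε := by
  classical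
  have hζn : 0 < ‖ζ‖ := norm_pos_iff.mpr hζ
  set m := min (ε / 4) ‖ζ‖ with hm
  have hm0 : 0 < m := lt_min (by linarith) hζn
  set κ := 4 / ε ^ 2 with hκ
  have hκ0 : 0 < κ := by positivity
  set B := 4 * κ * F.card + 1 with hB
  have hB1 : 1 ≤ B := by
    have : 0 ≤ 4 * κ * F.card := by positivity
    linarith
  have he0 : 0 < m / B := by positivity
  choose cf xf xf' hdec hx hx' using fun y => h.decomp hζ y he0
  obtain ⟨a, asa, hqa, an, hcut, hclose⟩ :=
    exists_cut π hq hqζ (F.image xf ∪ F.image xf') hκ0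
  have hcl : ‖ζ - π a ζ‖ < m := by
    have s1 : ∑ x ∈ F.image xf ∪ F.image xf', ‖π x ζ‖ ^ 2
        ≤ (F.image xf ∪ F.image xf').card * (m / B) ^ 2 := by
      rw [← nsmul_eq_mul, ← Finset.sum_const]
      refine Finset.sum_le_sum fun x hx0 => pow_le_pow_left₀ (norm_nonneg _) ?_ 2
      rcases Finset.mem_union.mp hx0 with h3 | h3
      · obtain ⟨y, _, rfl⟩ := Finset.mem_image.mp h3
        exact (hx y).le
      · obtain ⟨y, _, rfl⟩ := Finset.mem_image.mp h3
        exact (hx' y).le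
    have s2 : ((F.image xf ∪ F.image xf').card : ℝ) ≤ 2 * F.card := by
      have := Finset.card_union_le (F.image xf) (F.image xf')
      have a1 := Finset.card_image_le (s := F) (f := xf)
      have a2 := Finset.card_image_le (s := F) (f := xf')
      have : (F.image xf ∪ F.image xf').card ≤ 2 * F.card := by omega
      exact_mod_cast this
    have s3 : 2 * κ * (2 * F.card * (m / B) ^ 2) < m ^ 2 := by
      have e : 2 * κ * (2 * F.card * (m / B) ^ 2) = (B - 1) / B ^ 2 * m ^ 2 := by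
        rw [hB]
        field_simp
        ring
      rw [e]
      refine mul_lt_of_lt_one_left (by positivity) ?_
      rw [div_lt_one (by positivity)]
      nlinarith
    have s4 : ‖ζ - π a ζ‖ ^ 2 < m ^ 2 := by
      refine (hclose.trans ?_).trans_lt s3
      gcongr
      exact s1.trans (mul_le_mul_of_nonneg_right s2 (by positivity))
    exact lt_of_pow_lt_pow_left₀ 2 hm0.le s4
  have hζ' : π a ζ ≠ 0 := by
    intro h0
    rw [h0, sub_zero] at hcl
    exact absurd (min_le_right _ _) (not_le.mpr hcl)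
  have ha0 : a ≠ 0 := by
    rintro rfl
    simp at hζ'
  obtain ⟨n, hn, c, hc⟩ := h2 a ha0 n₀
  obtain ⟨z₀, hz1, hz2, hz3⟩ : ∃ z₀ : H, π (p n) z₀ = z₀ ∧ ‖z₀‖ = ‖π a ζ‖ ∧
      π a (π c z₀) ≠ π a ζ := by
    obtain ⟨w, hw⟩ : ∃ w, π (p n) w ≠ 0 := by
      by_contra hcon
      push Not at hcon
      exact h1 n (ContinuousLinearMap.ext hcon)
    have hwn : 0 < ‖π (p n) w‖ := norm_pos_iff.mpr hw
    set z : H := ((‖π a ζ‖ / ‖π (p n) w‖ : ℝ) : ℂ) • π (p n) w with hz
    have b1 : π (p n) z = z := by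
      rw [hz, map_smul, ← rep_mul, (hp n).isIdempotentElem.eq]
    have b2 : ‖z‖ = ‖π a ζ‖ := by
      rw [hz, norm_smul, Complex.norm_real, Real.norm_eq_abs, abs_of_nonneg (by positivity)]
      field_simp
    by_cases hzz : π a (π c z) = π a ζ
    · refine ⟨-z, by rw [map_neg, b1], by rw [norm_neg, b2], ?_⟩
      rw [map_neg, map_neg, hzz]
      intro h0
      apply hζ'
      have : (2 : ℂ) • π a ζ = 0 := by
        rw [two_smul]
        nth_rewrite 1 [← h0]
        exact neg_add_cancel _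
      simpa using this
    · exact ⟨z, b1, b2, hzz⟩
  have hz4 : ‖π a (π c z₀)‖ = ‖π a ζ‖ := by
    have := rep_norm_sq (π := π) (a * c) z₀
    rw [hc, hz1, inner_self_eq_norm_sq_to_K, rep_mul] at this
    norm_cast at this
    rw [← hz2]
    exact ((pow_left_inj₀ (norm_nonneg _) (norm_nonneg _) two_ne_zero).mp this).symm
  obtain ⟨w, c', hw1, hw2, hw3⟩ := h.rotate asa an hz4 hz3 (show 0 < ε / 4 by linarith)
  have hv : w * (a * c) = a * (c' * c) := by rw [← mul_assoc, hw2, mul_assoc]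
  have hvv : star (w * (a * c)) * (w * (a * c)) = p n := by
    rw [star_mul, mul_assoc, ← mul_assoc (star w), hw1, one_mul, hc]
  have hvn : ‖w * (a * c)‖ ≤ 1 := by
    have b1 := (hp n).norm_le
    rw [← hvv, CStarRing.norm_star_mul_self] at b1
    nlinarith [norm_nonneg (w * (a * c))]
  refine ⟨n, hn, w * (a * c), hvv, by rw [hv, ← mul_assoc, hqa], ?_, fun y hy => ⟨cf y, ?_⟩⟩
  · set v := w * (a * c) with hvdef
    have b1 : π (v * star v) (π v z₀) = π v z₀ := by
      rw [← rep_mul, mul_assoc, hvv, rep_mul, hz1]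
    have b2 : ‖ζ - π v z₀‖ < ε / 2 := by
      have e : ζ - π v z₀ = (ζ - π a ζ) - (π w (π a (π c z₀)) - π a ζ) := by
        rw [hvdef, rep_mul, rep_mul]
        abel
      rw [e]
      refine (norm_sub_le _ _).trans_lt ?_
      have := min_le_left (ε / 4) ‖ζ‖
      linarith
    have b3 : ‖π (v * star v) (ζ - π v z₀)‖ ≤ ‖ζ - π v z₀‖ := by
      refine (rep_norm_le _ _).trans (mul_le_of_le_one_left (norm_nonneg _) ?_)
      rw [CStarRing.norm_self_mul_star]
      nlinarith [norm_nonneg v]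
    rw [map_sub, b1] at b3
    have b4 := norm_sub_norm_le (π v z₀) (π (v * star v) ζ)
    rw [norm_sub_rev] at b4
    have b5 := norm_sub_norm_le ζ (π v z₀)
    linarith
  · have key : ∀ x ∈ F.image xf ∪ F.image xf', ‖x * (w * (a * c))‖ ≤ ε / 2 := by
      intro x hx0
      have b1 := hcut x hx0 (c' * c)
      rw [← hv] at b1
      have b2 : ‖w * (a * c)‖ ^ 2 ≤ 1 := pow_le_one₀ (norm_nonneg _) hvn
      have b3 : ‖x * (w * (a * c))‖ ^ 2 ≤ (ε / 2) ^ 2 := by
        have : κ * (ε / 2) ^ 2 = 1 := by rw [hκ]; field_simp; norm_num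
        exact le_of_mul_le_mul_left (by linarith) hκ0
      exact le_of_pow_le_pow_left₀ two_ne_zero (by linarith) b3
    have k1 := key _ (Finset.mem_union_left _ (Finset.mem_image_of_mem xf hy))
    have k2 := key _ (Finset.mem_union_right _ (Finset.mem_image_of_mem xf' hy))
    set v := w * (a * c) with hvdef
    have e : star v * (y - cf y • 1) * v = star v * (xf y * v) + star (xf' y * v) * v := by
      rw [hdec, star_mul (xf' y)]
      simp only [mul_add, add_mul, mul_assoc]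
    rw [e]
    refine (norm_add_le _ _).trans ?_
    have k3 : ‖star v * (xf y * v)‖ ≤ ‖xf y * v‖ :=
      (norm_mul_le _ _).trans (mul_le_of_le_one_left (norm_nonneg _) (by rwa [norm_star]))
    have k4 : ‖star (xf' y * v) * v‖ ≤ ‖xf' y * v‖ := by
      refine (norm_mul_le _ _).trans ?_
      rw [norm_star]
      exact mul_le_of_le_one_right (norm_nonneg _) hvn
    linarith

end Vale.Agent.P070
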