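import Vale.Agent.P070.Faithful
import Vale.Agent.P070.Step

/-! Every irreducible representation of the top of the tower contains the distinguished
vector state. -/

open scoped ComplexOrder InnerProductSpace
open Filter Topology Set

namespace Vale.Agent.P070

variable {R : Type*} [CStarAlgebra R] {τ : R →L[ℂ] ℂ} {p X : ℕ → R}
variable {H : Type*} [NormedAddCommGroup H] [InnerProductSpace ℂ H] [CompleteSpace H]

theorem exists_fixed_of_dec {Q : ℕ → H →L[ℂ] H} (hQ : Dec Q) {ξ : H} {c : ℝ} (hc : 0 < c)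
    (h : ∀ k, c ≤ ‖Q k ξ‖) : ∃ ζ : H, ζ ≠ 0 ∧ ∀ k, Q k ζ = ζ := by
  have key : ∀ k l, k ≤ l → ‖Q k ξ - Q l ξ‖ ^ 2 = ‖Q k ξ‖ ^ 2 - ‖Q l ξ‖ ^ 2 := by
    intro k l hkl
    have h1 : ⟪Q l ξ, Q k ξ - Q l ξ⟫_ℂ = 0 := by
      rw [← ContinuousLinearMap.adjoint_inner_right, ← ContinuousLinearMap.star_eq_adjoint,
        hQ.star_eq, map_sub, ← mul_apply_eq_comp, ← mul_apply_eq_comp, hQ.anti' hkl, hQ.idem,
        sub_self, inner_zero_right]
    have h2 := norm_add_sq_eq_norm_sq_add_norm_sq_of_inner_eq_zero _ _ h1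
    rw [add_sub_cancel] at h2
    nlinarith
  have hanti : Antitone fun k => ‖Q k ξ‖ ^ 2 := fun k l hkl => by
    have := key k l hkl
    nlinarith [sq_nonneg ‖Q k ξ - Q l ξ‖]
  have hconv := tendsto_atTop_ciInf hanti ⟨0, by rintro _ ⟨m, rfl⟩; positivity⟩
  have hcau : CauchySeq fun k => Q k ξ := by
    refine Metric.cauchySeq_iff'.2 fun ε hε => ?_
    obtain ⟨N, hN⟩ := Metric.cauchySeq_iff'.1 hconv.cauchySeq (ε ^ 2) (by positivity)
    refine ⟨N, fun n hn => ?_⟩
    have h1 := hN n hn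
    rw [Real.dist_eq, abs_sub_comm, ← key N n hn, abs_of_nonneg (sq_nonneg _)] at h1
    rw [dist_comm, dist_eq_norm]
    exact lt_of_pow_lt_pow_left₀ 2 hε.le h1
  obtain ⟨ζ, hζ⟩ := cauchySeq_tendsto_of_complete hcau
  refine ⟨ζ, norm_pos_iff.1 (hc.trans_le (ge_of_tendsto' hζ.norm h)), fun k => ?_⟩
  refine tendsto_nhds_unique (((Q k).continuous.tendsto ζ).comp hζ) (hζ.congr' ?_)
  filter_upwards [eventually_ge_atTop k] with l hl
  rw [Function.comp_apply, ← mul_apply_eq_comp, hQ.anti k l hl]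

theorem Dec.map {r : ℕ → R} (h : Dec r) (π : R →⋆ₐ[ℂ] (H →L[ℂ] H)) : Dec fun k => π (r k) where
  proj k := (h.proj k).map π
  anti k l hkl := by rw [← map_mul, h.anti k l hkl]

theorem inner_eq_of_sm {r : ℕ → R} (h : Dec r) (π : R →⋆ₐ[ℂ] (H →L[ℂ] H)) {η : H}
    (hη : ∀ k, π (r k) η = η) {x : R} {c : ℂ} (hc : Sm r (x - c • 1) r) :
    ⟪η, π x η⟫_ℂ = c * ⟪η, η⟫_ℂ := by
  have h1 : ∀ k, ⟪η, π x η⟫_ℂ - c * ⟪η, η⟫_ℂ = ⟪η, π (r k * (x - c • 1) * r k) η⟫_ℂ := by
    intro k
    rw [map_mul, map_mul, mul_apply_eq_comp, mul_apply_eq_comp, hη k,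
      ← ContinuousLinearMap.adjoint_inner_left (π (r k)), ← ContinuousLinearMap.star_eq_adjoint,
      ← map_star, h.star_eq, hη k, map_sub, map_smul, map_one, sub_apply, inner_sub_right,
      smul_apply, inner_smul_right]
    rfl
  rw [← sub_eq_zero, ← norm_le_zero_iff]
  refine ge_of_tendsto' (by simpa using (hc.mul_const ‖η‖).const_mul ‖η‖) fun k => ?_
  rw [h1 k]
  refine (norm_inner_le_norm _ _).trans ?_
  gcongr
  exact (ContinuousLinearMap.le_opNorm _ _).trans
    (by gcongr; exact NonUnitalStarAlgHom.norm_apply_le π _)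

namespace Tower

variable {I : Type} [LinearOrder I] (T : Tower τ I)

theorem exists_countable_mem (x : R) : ∃ U : Set I, U.Countable ∧ x ∈ T.A U := by
  have h1 := T.fin univ x (T.top x)
  obtain ⟨y, hy, hlim⟩ := mem_closure_iff_seq_limit.1 h1
  choose F hF using fun n => mem_iUnion.1 (hy n)
  refine ⟨⋃ n, ((F n).1 : Set I), countable_iUnion fun n => (F n).1.countable_toSet, ?_⟩
  refine (T.closed _).mem_of_tendsto hlim (Eventually.of_forall fun n => ?_)
  exact T.mono _ _ (subset_iUnion (fun n => ((F n).1 : Set I)) n) (hF n)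

theorem exists_closed_countable {U : Set I} (hU : U.Countable) :
    ∃ S, U ⊆ S ∧ S.Countable ∧ T.Closed S := by
  let f : ℕ → Set I := fun n => Nat.rec U (fun _ V => ⋃ β ∈ V, T.supp β) n
  have hf : ∀ n, (f n).Countable := by
    intro n
    induction n with
    | zero => exact hU
    | succ n ih => exact ih.biUnion fun β _ => T.supp_countable β
  refine ⟨⋃ n, f n, subset_iUnion f 0, countable_iUnion hf, fun β hβ => ?_⟩
  obtain ⟨n, hn⟩ := mem_iUnion.1 hβ
  exact Subset.trans (subset_biUnion_of_mem (u := T.supp) hn) (subset_iUnion f (n + 1))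

theorem exists_dense_seq {S : Set I} (hS : S.Countable) :
    ∃ Y : ℕ → R, (T.A S : Set R) ⊆ closure (range Y) := by
  obtain ⟨c, hc, hsub⟩ := T.sep S hS
  have hne : c.Nonempty := by
    by_contra h
    rw [not_nonempty_iff_eq_empty] at h
    have := hsub (one_mem (T.A S))
    simp [h] at this
  obtain ⟨Y, hY⟩ := hc.exists_eq_range hne
  exact ⟨Y, hY ▸ hsub⟩

/-- The state of the recursive construction. -/
structure St (p : ℕ → R) (π : R →⋆ₐ[ℂ] (H →L[ℂ] H)) (ξ : H) where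
  q : R
  n : ℕ
  S : Set I
  L : List (ℕ → R)
  proj : IsStarProjection q
  tr : τ q = τ (p n)
  big : 1 / 2 < ‖π q ξ‖
  cnt : S.Countable
  cl : T.Closed S
  mem : q ∈ T.A S
  dense : ∃ Y ∈ L, (T.A S : Set R) ⊆ closure (range Y)

theorem St.step [WellFoundedLT I] (hτ : IsFT τ) (h : Base τ (T.A ∅) p X)
    {π : R →⋆ₐ[ℂ] (H →L[ℂ] H)} (hπ : Irr π) {ξ : H} (h1 : ∀ n, π (p n) ≠ 0) (k : ℕ)
    (s : T.St p π ξ) : ∃ s' : T.St p π ξ, s.q * s'.q = s'.q ∧ s.n < s'.n ∧ s.S ⊆ s'.S ∧
      (∀ Y ∈ s.L, Y ∈ s'.L) ∧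
      ∀ Y ∈ s.L, ∀ l ≤ k, ∃ c : ℂ, ‖s'.q * (Y l - c • 1) * s'.q‖ ≤ 1 / ((k : ℝ) + 1) := by
  classical
  have hζ : π s.q ξ ≠ 0 := norm_pos_iff.1 (lt_trans (by norm_num) s.big)
  have hqζ : π s.q (π s.q ξ) = π s.q ξ := by
    rw [← mul_apply_eq_comp, ← map_mul, s.proj.isIdempotentElem.eq]
  have hε : 0 < min (‖π s.q ξ‖ - 1 / 2) (1 / ((k : ℝ) + 1)) :=
    lt_min (sub_pos.2 s.big) (by positivity)
  obtain ⟨n, hn, v, hv, hqv, hbig, hF⟩ := hπ.step p h.adm.proj h1 (T.exists_proj_le hτ h) s.proj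
    hζ hqζ ((s.L.toFinset ×ˢ Finset.range (k + 1)).image fun z => z.1 z.2) hε s.n
  have hvn : ‖v‖ ≤ 1 := by
    have h2 : ‖v‖ * ‖v‖ ≤ 1 := by
      rw [← CStarRing.norm_star_mul_self, hv]; exact h.adm.norm_le n
    nlinarith [norm_nonneg v]
  have hvp : v * p n = v := by
    have h2 : star (v * (1 - p n)) * (v * (1 - p n)) = 0 := by
      rw [star_mul, (h.adm.proj n).one_sub.isSelfAdjoint.star_eq, mul_assoc, ← mul_assoc (star v),
        hv, (h.adm.proj n).mul_one_sub_self, mul_zero]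
    have h3 := (CStarRing.star_mul_self_eq_zero_iff _).1 h2
    rwa [mul_sub, mul_one, sub_eq_zero, eq_comm] at h3
  have hproj : IsStarProjection (v * star v) := by
    refine ⟨?_, IsSelfAdjoint.mul_star_self v⟩
    rw [IsIdempotentElem, mul_assoc, ← mul_assoc (star v), hv, ← mul_assoc, hvp]
  have hqq : s.q * (v * star v) = v * star v := by rw [← mul_assoc, hqv]
  have hqq' : v * star v * s.q = v * star v := by
    have := congrArg star hqq
    rwa [star_mul, hproj.isSelfAdjoint.star_eq, s.proj.isSelfAdjoint.star_eq] at this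
  obtain ⟨U, hU, hvU⟩ := T.exists_countable_mem (v * star v)
  obtain ⟨S, hS1, hS2, hS3⟩ := T.exists_closed_countable (s.cnt.union hU)
  obtain ⟨Y, hY⟩ := T.exists_dense_seq hS2
  refine ⟨⟨v * star v, n, S, Y :: s.L, hproj, by rw [hτ.comm, hv], ?_, hS2, hS3,
    T.mono _ _ (subset_union_right.trans hS1) hvU, Y, by simp, hY⟩, hqq, hn,
    subset_union_left.trans hS1, fun Y hY => by simp [hY], fun Y hY l hl => ?_⟩
  · rw [← mul_apply_eq_comp, ← map_mul, hqq'] at hbig
    have := min_le_left (‖π s.q ξ‖ - 1 / 2) (1 / ((k : ℝ) + 1))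
    linarith
  · obtain ⟨c, hc⟩ := hF (Y l) (Finset.mem_image.2 ⟨(Y, l), by
      simp [hY, Nat.lt_succ_iff.2 hl], rfl⟩)
    refine ⟨c, ?_⟩
    calc ‖v * star v * (Y l - c • 1) * (v * star v)‖
        = ‖v * (star v * (Y l - c • 1) * v) * star v‖ := by simp only [mul_assoc]
      _ ≤ ‖v‖ * ‖star v * (Y l - c • 1) * v‖ * ‖star v‖ := norm_mul₃_le
      _ ≤ 1 * (1 / ((k : ℝ) + 1)) * 1 := by
        rw [norm_star]
        gcongr
        exact hc.trans (min_le_right _ _)
      _ = _ := by ring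

theorem exists_adm [WellFoundedLT I] (hτ : IsFT τ) (h : Base τ (T.A ∅) p X)
    {π : R →⋆ₐ[ℂ] (H →L[ℂ] H)} (hπ : Irr π) {ξ : H} (hξ : ‖ξ‖ = 1) (h1 : ∀ n, π (p n) ≠ 0) :
    ∃ (q : ℕ → R) (n : ℕ → ℕ), StrictMono n ∧ n 0 = 0 ∧ Adm τ q ∧ (∀ k, τ (q k) = τ (p (n k))) ∧
      (∀ x, Exc q x) ∧ ∀ k, 1 / 2 ≤ ‖π (q k) ξ‖ := by
  obtain ⟨Y₀, hY₀⟩ := T.exists_dense_seq countable_empty
  let s₀ : T.St p π ξ := ⟨1, 0, ∅, [Y₀], IsStarProjection.one R, by rw [h.adm.zero],
    by rw [map_one, one_apply_eq_self, hξ]; norm_num, countable_empty,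
    fun _ hβ => hβ.elim, one_mem _, Y₀, by simp, hY₀⟩
  choose g hg using St.step T hτ h hπ (ξ := ξ) h1
  let f : ℕ → T.St p π ξ := fun k => Nat.rec s₀ g k
  have hf : ∀ k, f (k + 1) = g k (f k) := fun k => rfl
  have hn : StrictMono fun k => (f k).n := strictMono_nat_of_lt_succ fun k => (hg k (f k)).2.1
  have hS : Monotone fun k => (f k).S := monotone_nat_of_le_succ fun k => (hg k (f k)).2.2.1
  have hL : ∀ k l, k ≤ l → ∀ Y ∈ (f k).L, Y ∈ (f l).L := by
    intro k l hkl Y hY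
    induction l, hkl using Nat.le_induction with
    | base => exact hY
    | succ l _ ih => exact (hg l (f l)).2.2.2.1 Y ih
  have htr : ∀ m, τ (p (m + 1)) = (2 : ℂ)⁻¹ * τ (p m) := by
    intro m
    have := congrArg τ (h.split m)
    rw [map_add, hτ.comm _ (X m), ← mul_assoc, h.X_sq, one_mul] at this
    rw [this]; ring
  have htr' : ∀ m, τ (p m) = (2 : ℂ)⁻¹ ^ m := by
    intro m
    induction m with
    | zero => rw [h.adm.zero, hτ.map_one, pow_zero]
    | succ m ih => rw [htr, ih, pow_succ']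
  have hadm : Adm τ fun k => (f k).q :=
    { proj := fun k => (f k).proj
      anti := fun k l hkl => by
        induction l, hkl using Nat.le_induction with
        | base => exact (f k).proj.isIdempotentElem.eq
        | succ l _ ih =>
          have := (hg l (f l)).1
          rw [← hf] at this
          rw [← this, ← mul_assoc, ih]
      zero := rfl
      strict := fun k hk => by
        rw [(f (k + 1)).tr, (f k).tr, htr', htr'] at hk
        have h2 := congrArg norm hk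
        simp only [norm_pow, norm_inv, Complex.norm_ofNat] at h2
        exact (hn (Nat.lt_succ_self k)).ne'
          (pow_right_injective₀ (by norm_num) (by norm_num) h2)
      lim := by
        simp only [(f _).tr]
        exact h.adm.lim.comp hn.tendsto_atTop }
  refine ⟨fun k => (f k).q, fun k => (f k).n, hn, rfl, hadm, fun k => (f k).tr, ?_,
    fun k => (f k).big.le⟩
  have hk : ∀ k, (T.A (f k).S : Set R) ⊆ excSub fun k => (f k).q := by
    intro k
    obtain ⟨Y, hY, hsub⟩ := (f k).dense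
    refine hsub.trans (closure_minimal ?_ (isClosed_excSub hadm))
    rintro _ ⟨l, rfl⟩
    refine (exc_iff hadm).2 fun ε hε => ?_
    obtain ⟨m, hm1, hm2, hm3⟩ := ((tendsto_one_div_add_atTop_nhds_zero_nat.eventually
      (ge_mem_nhds hε)).and ((eventually_ge_atTop k).and (eventually_ge_atTop l))).exists
    obtain ⟨c, hc⟩ := (hg m (f m)).2.2.2.2 Y (hL k m hm2 Y hY) l hm3
    exact ⟨m + 1, c, hc.trans hm1⟩
  refine T.exc_top hτ hadm (S := ⋃ k, (f k).S) (fun β hβ => ?_)
    (fun k => T.mono _ _ (subset_iUnion (fun k => (f k).S) k) (f k).mem) ?_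
  · obtain ⟨k, hk⟩ := mem_iUnion.1 hβ
    exact ((f k).cl β hk).trans (subset_iUnion (fun k => (f k).S) k)
  · refine T.subset_of_finite (M := excSub fun k => (f k).q) (isClosed_excSub hadm)
      fun F hF => ?_
    obtain ⟨k, hkF⟩ := (directed_of_isDirected_le hS).exists_mem_subset_of_finset_subset_biUnion hF
    exact Subset.trans (T.mono _ _ hkF) (hk k)

theorem exists_fixed [WellFoundedLT I] (hτ : IsFT τ) (h : Base τ (T.A ∅) p X)
    {π : R →⋆ₐ[ℂ] (H →L[ℂ] H)} (hπ : Irr π) [Nontrivial H] :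
    ∃ ζ : H, ‖ζ‖ = 1 ∧ ∀ n, π (p n) ζ = ζ := by
  have h1 : ∀ n, π (p n) ≠ 0 := by
    intro n
    induction n with
    | zero => rw [h.adm.zero, map_one]; exact one_ne_zero
    | succ n ih =>
      intro h0
      apply ih
      rw [h.split n, map_add, map_mul, map_mul, h0]; simp
  obtain ⟨ξ, hξ⟩ := exists_norm_eq H zero_le_one
  obtain ⟨q, n, hn, hn0, hq, htr, hexc, hbig⟩ := T.exists_adm hτ h hπ hξ h1
  obtain ⟨η, hη0, hη⟩ := exists_fixed_of_dec (hq.toDec.map π) (by norm_num) hbig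
  have hp' : Adm τ fun k => p (n k) :=
    { proj := fun k => h.adm.proj _
      anti := fun k l hkl => h.adm.anti _ _ (hn.monotone hkl)
      zero := by rw [hn0, h.adm.zero]
      strict := fun k => by rw [← htr, ← htr]; exact hq.strict k
      lim := h.adm.lim.comp hn.tendsto_atTop }
  have hexc' : ∀ x, Exc (fun k => p (n k)) x := fun x => by
    obtain ⟨c, hc⟩ := T.exc_p hτ h x
    exact ⟨c, hc.comp hn.tendsto_atTop⟩
  obtain ⟨b, hb⟩ : ∃ b, ¬ Sm (fun k => p (n k)) b q := by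
    by_contra hcon
    push Not at hcon
    let s : Bool → ℕ → R := fun e => cond e (fun k => p (n k)) q
    obtain ⟨α, hmem, hα⟩ := T.sat s
    have hu := hα
      { adm := fun e => by cases e; exacts [hq, hp']
        mem := hmem
        tr_eq := fun e k => by cases e; exacts [htr k, (htr k).symm]
        exc := fun e x _ => by cases e; exacts [hexc x, hexc' x]
        orth := fun e x _ => by
          cases e
          · have := (hcon (star x)).star' hp'.toDec hq.toDec
            rw [star_star] at this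
            exact this
          · exact hcon x }
    have h2 : Sm (s (!false)) (T.u α (!false) * 1) q := hcon _
    have h3 : Sm q 1 q := hu.sm_of_u_mul h2
    have h4 : Tendsto (fun _ : ℕ => (1 : ℝ)) atTop (𝓝 0) :=
      h3.congr fun k => by rw [mul_one, hq.idem, hq.norm_eq]
    exact one_ne_zero (tendsto_nhds_unique tendsto_const_nhds h4)
  obtain ⟨δ, hδ, hδ'⟩ := exists_lower_of_not_sm hp'.toDec hq.toDec hb
  have hlow : ∀ m, δ * ‖η‖ ≤ ‖π (p m) (π b η)‖ := by
    intro m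
    obtain ⟨c, hc⟩ := hexc (star (p m * b) * (p m * b))
    have h2 : δ ^ 2 ≤ ‖c‖ := by
      refine ge_of_tendsto' (hc.tendsto_norm hq) fun k => ?_
      rw [norm_sq_eq_compress hq.toDec]
      have h3 : ‖p (n m) * b * q k‖ ≤ ‖p m * b * q k‖ :=
        norm_compress_anti h.adm.toDec hq.toDec b (hn.id_le m) le_rfl
      have := (hδ' m k).le.trans h3
      gcongr
    have h3 := congrArg norm (inner_eq_of_sm hq.toDec π hη hc)
    rw [map_mul, map_star, mul_apply_eq_comp, ContinuousLinearMap.star_eq_adjoint,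
      ContinuousLinearMap.adjoint_inner_right, norm_mul, ← inner_self_re_eq_norm,
      ← inner_self_re_eq_norm, inner_self_eq_norm_sq, inner_self_eq_norm_sq, map_mul,
      mul_apply_eq_comp] at h3
    refine (pow_le_pow_iff_left₀ (by positivity) (norm_nonneg _) two_ne_zero).1 ?_
    rw [h3, mul_pow]
    gcongr
  obtain ⟨ζ, hζ0, hζ⟩ := exists_fixed_of_dec (h.adm.toDec.map π)
    (mul_pos hδ (norm_pos_iff.2 hη0)) hlow
  refine ⟨(‖ζ‖⁻¹ : ℂ) • ζ, ?_, fun n => by rw [map_smul, hζ]⟩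
  rw [norm_smul, norm_inv, Complex.norm_real, norm_norm, inv_mul_cancel₀ (norm_ne_zero_iff.2 hζ0)]

theorem exists_equiv [WellFoundedLT I] (hτ : IsFT τ) (h : Base τ (T.A ∅) p X)
    {H' : Type*} [NormedAddCommGroup H'] [InnerProductSpace ℂ H'] [CompleteSpace H']
    {π : R →⋆ₐ[ℂ] (H →L[ℂ] H)} {π' : R →⋆ₐ[ℂ] (H' →L[ℂ] H')} (hπ : Irr π) (hπ' : Irr π')
    [Nontrivial H] [Nontrivial H'] :
    ∃ U : H ≃ₗᵢ[ℂ] H', ∀ a x, U (π a x) = π' a (U x) := by
  obtain ⟨ζ, hζ1, hζ⟩ := T.exists_fixed hτ h hπ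
  obtain ⟨ζ', hζ1', hζ'⟩ := T.exists_fixed hτ h hπ'
  have hst : ∀ x, ⟪ζ, π x ζ⟫_ℂ = ⟪ζ', π' x ζ'⟫_ℂ := by
    intro x
    obtain ⟨c, hc⟩ := T.exc_p hτ h x
    rw [inner_eq_of_sm h.adm.toDec π hζ hc, inner_eq_of_sm h.adm.toDec π' hζ' hc,
      inner_self_eq_norm_sq_to_K, inner_self_eq_norm_sq_to_K, hζ1, hζ1']
  have hd := hπ.cyclic (ξ := ζ) (by rw [← norm_ne_zero_iff, hζ1]; exact one_ne_zero)
  have hd' := hπ'.cyclic (ξ := ζ') (by rw [← norm_ne_zero_iff, hζ1']; exact one_ne_zero)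
  obtain ⟨U, hU⟩ := exists_unitary_of_gram (fun a => π a ζ) (fun a => π' a ζ') (fun a b => by
    have h1 := hst (star a * b)
    simpa only [map_mul, map_star, mul_apply_eq_comp, ContinuousLinearMap.star_eq_adjoint,
      ContinuousLinearMap.adjoint_inner_right] using h1) hd hd'
  refine ⟨U, fun a x => ?_⟩
  have := ContinuousLinearMap.ext_on hd
    (f := (U : H →L[ℂ] H').comp (π a)) (g := (π' a).comp (U : H →L[ℂ] H')) (by
      rintro _ ⟨b, rfl⟩
      have h1 := hU (a * b)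
      have h2 := hU b
      simp only [map_mul, mul_apply_eq_comp] at h1 h2
      simp [h1, h2])
  exact congrArg (fun f : H →L[ℂ] H' => f x) this

end Tower

theorem Adm.not_compact {r : ℕ → R} (h : Adm τ r) (φ : R →⋆ₙₐ[ℂ] (H →L[ℂ] H))
    (hφ : Function.Injective φ) (hr : range φ = {T : H →L[ℂ] H | IsCompactOperator T}) :
    False := by
  have hone : φ 1 = 1 := by
    ext ξ
    by_cases hξ : ξ = 0
    · simp [hξ]
    have hc : InnerProductSpace.rankOne ℂ ξ ξ ∈ range φ := by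
      rw [hr, InnerProductSpace.rankOne_def']
      exact (isCompactOperator_of_locallyCompactSpace_dom (innerSL ℂ ξ)).clm_comp
        (ContinuousLinearMap.toSpanSingleton ℂ ξ)
    obtain ⟨a, ha⟩ := hc
    have h1 : φ 1 * φ a = φ a := by rw [← map_mul, one_mul]
    have h2 := congrArg (fun T : H →L[ℂ] H => T ξ) h1
    simp only [ha, mul_apply_eq_comp, InnerProductSpace.rankOne_apply, map_smul] at h2
    exact smul_right_injective H (inner_self_ne_zero.2 hξ) h2
  have hfin : FiniteDimensional ℂ H := by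
    have : (1 : H →L[ℂ] H) ∈ range φ := ⟨1, hone⟩
    rw [hr] at this
    exact FiniteDimensional.of_isCompactOperator_id this
  have hfin' : FiniteDimensional ℂ R :=
    FiniteDimensional.of_injective (φ : R →ₗ[ℂ] (H →L[ℂ] H)) hφ
  have hli : LinearIndependent ℂ (gap r) := by
    rw [linearIndependent_iff']
    intro s g hg i hi
    have h1 := congrArg (fun x => gap r i * x) hg
    simp only [Finset.mul_sum, mul_smul_comm, mul_zero] at h1
    rw [Finset.sum_eq_single i, (h.gap_proj i).isIdempotentElem.eq] at h1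
    · refine (smul_eq_zero.1 h1).resolve_right fun h0 => h.tr_gap_ne_zero i ?_
      rw [h0, map_zero]
    · intro j _ hij
      rw [h.gap_mul_gap hij.symm, smul_zero]
    · intro h; exact absurd hi h
  exact Module.Finite.not_linearIndependent_of_infinite _ hli

end Vale.Agent.P070
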