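import Vale.Agent.P070.Build
import Vale.Agent.P070.Main

/-! Passing from possibly non-unital representations to unital ones. -/

open scoped InnerProductSpace

namespace Vale.Agent.P070

variable {R : Type*} [CStarAlgebra R]
variable {H : Type*} [NormedAddCommGroup H] [InnerProductSpace ℂ H] [CompleteSpace H]

theorem exists_unital (π : R →⋆ₙₐ[ℂ] (H →L[ℂ] H)) (h0 : π ≠ 0)
    (hirr : ∀ K : Submodule ℂ H, IsClosed (K : Set H) → (∀ a, ∀ x ∈ K, π a x ∈ K) →
      K = ⊥ ∨ K = ⊤) :
    Nontrivial H ∧ ∃ ρ : R →⋆ₐ[ℂ] (H →L[ℂ] H), Irr ρ ∧ ∀ a, ρ a = π a := by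
  have hker : LinearMap.ker (π 1 : H →ₗ[ℂ] H) = ⊥ := by
    refine (hirr _ (π 1).isClosed_ker fun a x hx => ?_).resolve_right fun htop => h0 ?_
    · have hx' : π 1 x = 0 := hx
      change π 1 (π a x) = 0
      rw [← mul_apply_eq_comp, ← map_mul, one_mul, ← mul_one a, map_mul,
        mul_apply_eq_comp, hx', map_zero]
    · ext a x
      have hx : x ∈ LinearMap.ker (π 1 : H →ₗ[ℂ] H) := htop ▸ Submodule.mem_top
      have hx' : π 1 x = 0 := hx
      rw [← mul_one a, map_mul, mul_apply_eq_comp, hx', map_zero]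
      rfl
  have hone : π 1 = 1 := by
    ext x
    have hx : π 1 x - x ∈ LinearMap.ker (π 1 : H →ₗ[ℂ] H) := by
      change π 1 (π 1 x - x) = 0
      rw [map_sub, ← mul_apply_eq_comp, ← map_mul, one_mul, sub_self]
    rw [hker, Submodule.mem_bot, sub_eq_zero] at hx
    exact hx
  refine ⟨?_, ⟨{ π with
      map_one' := hone
      commutes' := fun c => ?_ }, hirr, fun a => rfl⟩⟩
  · by_contra hH
    rw [not_nontrivial_iff_subsingleton] at hH
    exact h0 (by ext a x; exact Subsingleton.elim _ _)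
  · change π (algebraMap ℂ R c) = _
    rw [Algebra.algebraMap_eq_smul_one, Algebra.algebraMap_eq_smul_one, map_smul, hone]

end Vale.Agent.P070
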