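import Vale.Agent.P070.Gram

/-! GNS representation of a faithful tracial state and basic trace inequalities. -/

open scoped ComplexOrder InnerProductSpace
open Filter Topology

namespace Vale.Agent.P070

universe u

theorem IsFT.exists_gns {R : Type u} [CStarAlgebra R] {τ : R →L[ℂ] ℂ} (h : IsFT τ) :
    ∃ (H : Type u) (_ : NormedAddCommGroup H) (_ : InnerProductSpace ℂ H) (_ : CompleteSpace H)
      (Ω : H) (ι : R →⋆ₐ[ℂ] (H →L[ℂ] H)),
      (∀ x, ⟪Ω, ι x Ω⟫_ℂ = τ x) ∧ DenseRange (fun x => ι x Ω) := by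
  let : PartialOrder R := CStarAlgebra.spectralOrder R
  have : StarOrderedRing R := CStarAlgebra.spectralOrderedRing R
  let f : R →ₚ[ℂ] ℂ := PositiveLinearMap.mk₀ (τ : R →ₗ[ℂ] ℂ) (fun x hx => by
    obtain ⟨y, rfl⟩ := CStarAlgebra.nonneg_iff_eq_star_mul_self.mp hx
    exact h.nonneg y)
  have hf : ∀ x, f x = τ x := fun x => rfl
  have hι : ∀ x : R, f.gnsStarAlgHom x ((f.toPreGNS 1 : f.PreGNS) : f.GNS) =
      ((f.toPreGNS x : f.PreGNS) : f.GNS) := by
    intro x
    simp
  refine ⟨f.GNS, inferInstance, inferInstance, inferInstance,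
    ((f.toPreGNS 1 : f.PreGNS) : f.GNS), f.gnsStarAlgHom, fun x => ?_, ?_⟩
  · rw [hι, UniformSpace.Completion.inner_coe, PositiveLinearMap.preGNS_inner_def]
    simp [hf]
  · have : (fun x : R => f.gnsStarAlgHom x ((f.toPreGNS 1 : f.PreGNS) : f.GNS)) =
        ((↑) : f.PreGNS → f.GNS) ∘ f.toPreGNS := funext hι
    rw [this]
    exact UniformSpace.Completion.denseRange_coe.comp f.toPreGNS.surjective.denseRange
      (UniformSpace.Completion.continuous_coe _)

end Vale.Agent.P070
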