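import Vale.Agent.P070.Defs

/-! Two families with the same Gram kernel and dense spans are related by a unitary. -/

open scoped ComplexOrder InnerProductSpace
open Filter Topology

namespace Vale.Agent.P070

theorem exists_unitary_of_gram {ι E F : Type*}
    [NormedAddCommGroup E] [InnerProductSpace ℂ E] [CompleteSpace E]
    [NormedAddCommGroup F] [InnerProductSpace ℂ F] [CompleteSpace F]
    (v : ι → E) (w : ι → F) (h : ∀ i j, ⟪v i, v j⟫_ℂ = ⟪w i, w j⟫_ℂ)
    (hv : Dense (Submodule.span ℂ (Set.range v) : Set E))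
    (hw : Dense (Submodule.span ℂ (Set.range w) : Set F)) :
    ∃ U : E ≃ₗᵢ[ℂ] F, ∀ i, U (v i) = w i := by
  have hd₁ : DenseRange (Finsupp.linearCombination ℂ v) := by
    rw [DenseRange, ← LinearMap.coe_range, Finsupp.range_linearCombination]; exact hv
  have hd₂ : DenseRange (Finsupp.linearCombination ℂ w) := by
    rw [DenseRange, ← LinearMap.coe_range, Finsupp.range_linearCombination]; exact hw
  have hn : ∀ x : ι →₀ ℂ, ‖Finsupp.linearCombination ℂ w (LinearEquiv.refl ℂ _ x)‖ =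
      ‖Finsupp.linearCombination ℂ v x‖ := by
    intro x
    rw [norm_eq_sqrt_re_inner (𝕜 := ℂ), norm_eq_sqrt_re_inner (𝕜 := ℂ)]
    congr 2
    simp only [LinearEquiv.refl_apply, Finsupp.linearCombination_apply, Finsupp.sum, sum_inner,
      inner_sum, inner_smul_left, inner_smul_right, h]
  refine ⟨(LinearEquiv.refl ℂ (ι →₀ ℂ)).extendOfIsometry _ _ hd₁ hd₂ hn, fun i => ?_⟩
  have := LinearEquiv.extendOfIsometry_eq (LinearEquiv.refl ℂ (ι →₀ ℂ)) _ _ hd₁ hd₂ hn
    (Finsupp.single i 1)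
  simpa using this

/-- A linear isometry equivalence as a unitary operator. -/
theorem exists_unitary_op {ι E : Type*}
    [NormedAddCommGroup E] [InnerProductSpace ℂ E] [CompleteSpace E]
    (v w : ι → E) (h : ∀ i j, ⟪v i, v j⟫_ℂ = ⟪w i, w j⟫_ℂ)
    (hv : Dense (Submodule.span ℂ (Set.range v) : Set E))
    (hw : Dense (Submodule.span ℂ (Set.range w) : Set E)) :
    ∃ U : E →L[ℂ] E, star U * U = 1 ∧ U * star U = 1 ∧ (∀ i, U (v i) = w i) ∧
      ∀ i, star U (w i) = v i := by
  obtain ⟨U, hU⟩ := exists_unitary_of_gram v w h hv hw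
  have hs : star (U : E →L[ℂ] E) = (U.symm : E →L[ℂ] E) := by
    rw [ContinuousLinearMap.star_eq_adjoint]; exact U.adjoint_eq_symm
  refine ⟨(U : E →L[ℂ] E), ?_, ?_, hU, fun i => ?_⟩
  · rw [hs]; ext x; simp
  · rw [hs]; ext x; simp
  · rw [hs, ← hU i]; simp

end Vale.Agent.P070
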