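import Vale.Agent.P070.Words
import Vale.Agent.P070.Char

/-! Transfer between two models of the same character along the closed graph. -/

open scoped ComplexOrder InnerProductSpace
open Filter Topology Set

namespace Vale.Agent.P070

variable {Γ : Type*} [Group Γ] {R₁ R₂ : Type*} [CStarAlgebra R₁] [CStarAlgebra R₂]
  {ρ₁ : Γ →* R₁} {ρ₂ : Γ →* R₂} {τ₁ : R₁ →L[ℂ] ℂ} {τ₂ : R₂ →L[ℂ] ℂ} {Λ : Subgroup Γ}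

theorem isClosed_galg (ρ : Γ →* R₁) (Λ : Subgroup Γ) : IsClosed (galg ρ Λ : Set R₁) :=
  StarSubalgebra.isClosed_topologicalClosure _

theorem mem_galg (ρ : Γ →* R₁) {g : Γ} (hg : g ∈ Λ) : ρ g ∈ galg ρ Λ :=
  StarSubalgebra.le_topologicalClosure _ (StarAlgebra.subset_adjoin ℂ _ ⟨g, hg, rfl⟩)

theorem galg_le {ρ : Γ →* R₁} {C : StarSubalgebra ℂ R₁} (hC : IsClosed (C : Set R₁))
    (h : ∀ g ∈ Λ, ρ g ∈ C) : galg ρ Λ ≤ C :=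
  StarSubalgebra.topologicalClosure_minimal
    (StarAlgebra.adjoin_le (by rintro _ ⟨g, hg, rfl⟩; exact h g hg)) hC

theorem galg_mono (ρ : Γ →* R₁) {Λ' : Subgroup Γ} (h : Λ ≤ Λ') : galg ρ Λ ≤ galg ρ Λ' :=
  galg_le (isClosed_galg ρ Λ') fun _ hg => mem_galg ρ (h hg)

theorem star_prod (h₁ : ∀ g, star (ρ₁ g) = ρ₁ g⁻¹) (h₂ : ∀ g, star (ρ₂ g) = ρ₂ g⁻¹) (g : Γ) :
    star (ρ₁.prod ρ₂ g) = ρ₁.prod ρ₂ g⁻¹ := Prod.ext (h₁ g) (h₂ g)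

theorem map_mem_of_galg {E : Type*} [NormedAddCommGroup E] [NormedSpace ℂ E]
    (h₁ : ∀ g, star (ρ₁ g) = ρ₁ g⁻¹) (f : R₁ →L[ℂ] E) {M : Submodule ℂ E}
    (hM : IsClosed (M : Set E)) (h : ∀ g ∈ Λ, f (ρ₁ g) ∈ M) {x : R₁} (hx : x ∈ galg ρ₁ Λ) :
    f x ∈ M :=
  map_mem_of_cspan f hM (by rintro _ ⟨g, hg, rfl⟩; exact h g hg) ((mem_galg_iff ρ₁ h₁ Λ x).1 hx)

theorem graph_tr (h₁ : ∀ g, star (ρ₁ g) = ρ₁ g⁻¹) (h₂ : ∀ g, star (ρ₂ g) = ρ₂ g⁻¹)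
    (h : ∀ g ∈ Λ, τ₁ (ρ₁ g) = τ₂ (ρ₂ g)) {p : R₁ × R₂} (hp : p ∈ galg (ρ₁.prod ρ₂) Λ) :
    τ₁ p.1 = τ₂ p.2 := by
  have := map_mem_of_galg (star_prod h₁ h₂)
    (τ₁.comp (ContinuousLinearMap.fst ℂ R₁ R₂) - τ₂.comp (ContinuousLinearMap.snd ℂ R₁ R₂))
    (M := ⊥) (by simp) (fun g hg => by simp [h g hg]) hp
  simpa [sub_eq_zero] using this

theorem graph_eq_zero (hτ₂ : IsFT τ₂) {G : StarSubalgebra ℂ (R₁ × R₂)}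
    (h : ∀ p ∈ G, τ₁ p.1 = τ₂ p.2) {p : R₁ × R₂} (hp : p ∈ G) (h0 : p.1 = 0) : p.2 = 0 := by
  have := h _ (mul_mem (star_mem hp) hp)
  refine hτ₂.faithful _ ?_
  simpa [h0] using this.symm

theorem graph_fst_mem (h₁ : ∀ g, star (ρ₁ g) = ρ₁ g⁻¹) (h₂ : ∀ g, star (ρ₂ g) = ρ₂ g⁻¹)
    {p : R₁ × R₂} (hp : p ∈ galg (ρ₁.prod ρ₂) Λ) : p.1 ∈ galg ρ₁ Λ :=
  map_mem_of_galg (star_prod h₁ h₂) (ContinuousLinearMap.fst ℂ R₁ R₂)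
    (M := Subalgebra.toSubmodule (galg ρ₁ Λ).toSubalgebra) (isClosed_galg ρ₁ Λ)
    (fun _ hg => mem_galg ρ₁ hg) hp

theorem graph_snd_mem (h₁ : ∀ g, star (ρ₁ g) = ρ₁ g⁻¹) (h₂ : ∀ g, star (ρ₂ g) = ρ₂ g⁻¹)
    {p : R₁ × R₂} (hp : p ∈ galg (ρ₁.prod ρ₂) Λ) : p.2 ∈ galg ρ₂ Λ :=
  map_mem_of_galg (star_prod h₁ h₂) (ContinuousLinearMap.snd ℂ R₁ R₂)
    (M := Subalgebra.toSubmodule (galg ρ₂ Λ).toSubalgebra) (isClosed_galg ρ₂ Λ)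
    (fun _ hg => mem_galg ρ₂ hg) hp

theorem graph_swap (h₁ : ∀ g, star (ρ₁ g) = ρ₁ g⁻¹) (h₂ : ∀ g, star (ρ₂ g) = ρ₂ g⁻¹)
    {p : R₁ × R₂} (hp : p ∈ galg (ρ₁.prod ρ₂) Λ) : (p.2, p.1) ∈ galg (ρ₂.prod ρ₁) Λ :=
  map_mem_of_galg (star_prod h₁ h₂)
    ((ContinuousLinearMap.snd ℂ R₁ R₂).prod (ContinuousLinearMap.fst ℂ R₁ R₂))
    (M := Subalgebra.toSubmodule (galg (ρ₂.prod ρ₁) Λ).toSubalgebra) (isClosed_galg _ Λ)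
    (fun _ hg => mem_galg (ρ₂.prod ρ₁) hg) hp

theorem graph_norm_le (hτ₁ : IsFT τ₁) (hτ₂ : IsFT τ₂) (h₁ : ∀ g, star (ρ₁ g) = ρ₁ g⁻¹)
    (h₂ : ∀ g, star (ρ₂ g) = ρ₂ g⁻¹) (h : ∀ g ∈ Λ, τ₁ (ρ₁ g) = τ₂ (ρ₂ g)) {p : R₁ × R₂}
    (hp : p ∈ galg (ρ₁.prod ρ₂) Λ) : ‖p.2‖ ≤ ‖p.1‖ := by
  refine hτ₂.norm_le_of_forall (isClosed_galg ρ₂ Λ) (graph_snd_mem h₁ h₂ hp) (norm_nonneg _)
    fun y hy => ?_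
  have hn : ∀ q ∈ galg (ρ₁.prod ρ₂) Λ, n2 τ₁ q.1 = n2 τ₂ q.2 := fun q hq =>
    congrArg Complex.re (graph_tr h₁ h₂ h (mul_mem (star_mem hq) hq))
  have hcl : IsClosed {y : R₂ | n2 τ₂ (p.2 * y) ≤ ‖p.1‖ ^ 2 * n2 τ₂ y} :=
    isClosed_le (by unfold n2; fun_prop) (by unfold n2; fun_prop)
  refine closure_minimal (fun z hz => ?_) hcl ((mem_galg_iff ρ₂ h₂ Λ y).1 hy)
  have hz' : z ∈ (Subalgebra.toSubmodule (galg (ρ₁.prod ρ₂) Λ).toSubalgebra).map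
      (LinearMap.snd ℂ R₁ R₂) := by
    refine Submodule.span_le.2 ?_ hz
    rintro _ ⟨g, hg, rfl⟩
    exact ⟨_, mem_galg (ρ₁.prod ρ₂) hg, rfl⟩
  obtain ⟨q, hq, rfl⟩ := hz'
  have e1 := hn _ (mul_mem hp hq)
  have e2 := hn _ hq
  change n2 τ₂ (p.2 * q.2) ≤ ‖p.1‖ ^ 2 * n2 τ₂ q.2
  rw [← e2]
  exact e1.symm.le.trans (hτ₁.n2_mul_le p.1 q.1)

theorem graph_total (hτ₁ : IsFT τ₁) (hτ₂ : IsFT τ₂) (h₁ : ∀ g, star (ρ₁ g) = ρ₁ g⁻¹)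
    (h₂ : ∀ g, star (ρ₂ g) = ρ₂ g⁻¹) (h : ∀ g ∈ Λ, τ₁ (ρ₁ g) = τ₂ (ρ₂ g)) {a : R₁}
    (ha : a ∈ galg ρ₁ Λ) : ∃ b, (a, b) ∈ galg (ρ₁.prod ρ₂) Λ := by
  set G := galg (ρ₁.prod ρ₂) Λ with hG
  have hc : CompleteSpace G := (isClosed_galg _ Λ).completeSpace_coe
  have hanti : AntilipschitzWith 1 (fun p : G => p.1.1) := by
    refine AntilipschitzWith.of_le_mul_dist fun p q => ?_
    have := graph_norm_le hτ₁ hτ₂ h₁ h₂ h (sub_mem p.2 q.2)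
    rw [NNReal.coe_one, one_mul, Subtype.dist_eq, Prod.dist_eq, dist_eq_norm, dist_eq_norm]
    exact max_le le_rfl this
  have hcl : IsClosed (range fun p : G => p.1.1) :=
    hanti.isClosed_range (uniformContinuous_fst.comp uniformContinuous_subtype_val)
  have hM : (((Subalgebra.toSubmodule G.toSubalgebra).map (LinearMap.fst ℂ R₁ R₂) :
      Submodule ℂ R₁) : Set R₁) = range fun p : G => p.1.1 := by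
    ext x
    constructor
    · rintro ⟨q, hq, rfl⟩; exact ⟨⟨q, hq⟩, rfl⟩
    · rintro ⟨q, rfl⟩; exact ⟨q.1, q.2, rfl⟩
  obtain ⟨q, hq, rfl⟩ := cspan_le (M := (Subalgebra.toSubmodule G.toSubalgebra).map
    (LinearMap.fst ℂ R₁ R₂)) (hM ▸ hcl) (by
      rintro _ ⟨g, hg, rfl⟩
      exact ⟨_, mem_galg (ρ₁.prod ρ₂) hg, rfl⟩) ((mem_galg_iff ρ₁ h₁ Λ a).1 ha)
  exact ⟨q.2, hq⟩

/-- A trace preserving isometric bijective correspondence between two subalgebras. -/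
structure Rel (τ₁ : R₁ →L[ℂ] ℂ) (τ₂ : R₂ →L[ℂ] ℂ) (B₁ : StarSubalgebra ℂ R₁)
    (B₂ : StarSubalgebra ℂ R₂) (G : StarSubalgebra ℂ (R₁ × R₂)) : Prop where
  tr : ∀ p ∈ G, τ₁ p.1 = τ₂ p.2
  norm_eq : ∀ p ∈ G, ‖p.1‖ = ‖p.2‖
  mem₁ : ∀ p ∈ G, p.1 ∈ B₁
  mem₂ : ∀ p ∈ G, p.2 ∈ B₂
  tot₁ : ∀ a ∈ B₁, ∃ b, (a, b) ∈ G
  tot₂ : ∀ b ∈ B₂, ∃ a, (a, b) ∈ G

theorem graph_rel (hτ₁ : IsFT τ₁) (hτ₂ : IsFT τ₂) (h₁ : ∀ g, star (ρ₁ g) = ρ₁ g⁻¹)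
    (h₂ : ∀ g, star (ρ₂ g) = ρ₂ g⁻¹) (h : ∀ g ∈ Λ, τ₁ (ρ₁ g) = τ₂ (ρ₂ g)) :
    Rel τ₁ τ₂ (galg ρ₁ Λ) (galg ρ₂ Λ) (galg (ρ₁.prod ρ₂) Λ) where
  tr _ hp := graph_tr h₁ h₂ h hp
  norm_eq _ hp := le_antisymm
    (graph_norm_le hτ₂ hτ₁ h₂ h₁ (fun g hg => (h g hg).symm) (graph_swap h₁ h₂ hp))
    (graph_norm_le hτ₁ hτ₂ h₁ h₂ h hp)
  mem₁ _ hp := graph_fst_mem h₁ h₂ hp
  mem₂ _ hp := graph_snd_mem h₁ h₂ hp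
  tot₁ _ ha := graph_total hτ₁ hτ₂ h₁ h₂ h ha
  tot₂ b hb := by
    obtain ⟨a, ha⟩ := graph_total hτ₂ hτ₁ h₂ h₁ (fun g hg => (h g hg).symm) hb
    exact ⟨a, graph_swap h₂ h₁ ha⟩

namespace Rel

variable {B₁ : StarSubalgebra ℂ R₁} {B₂ : StarSubalgebra ℂ R₂} {G : StarSubalgebra ℂ (R₁ × R₂)}

theorem eq_of (h : Rel τ₁ τ₂ B₁ B₂ G) {p q : R₁ × R₂} (hp : p ∈ G) (hq : q ∈ G)
    (he : p.1 = q.1) : p.2 = q.2 := by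
  have := h.norm_eq _ (sub_mem hp hq)
  rw [Prod.fst_sub, he, sub_self, norm_zero, eq_comm, norm_eq_zero, Prod.snd_sub] at this
  exact sub_eq_zero.1 this

theorem adm (h : Rel τ₁ τ₂ B₁ B₂ G) {r₁ : ℕ → R₁} {r₂ : ℕ → R₂} (hr : ∀ k, (r₁ k, r₂ k) ∈ G)
    (ha : Adm τ₁ r₁) : Adm τ₂ r₂ where
  proj k := ⟨h.eq_of (mul_mem (hr k) (hr k)) (hr k) (ha.idem k),
    h.eq_of (star_mem (hr k)) (hr k) (ha.star_eq k)⟩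
  anti k l hkl := h.eq_of (mul_mem (hr k) (hr l)) (hr l) (ha.anti k l hkl)
  zero := h.eq_of (hr 0) (one_mem G) ha.zero
  strict k := by rw [← h.tr _ (hr k), ← h.tr _ (hr (k + 1))]; exact ha.strict k
  lim := ha.lim.congr fun k => h.tr _ (hr k)

theorem sm (h : Rel τ₁ τ₂ B₁ B₂ G) {s₁ t₁ : ℕ → R₁} {s₂ t₂ : ℕ → R₂} (hs : ∀ k, (s₁ k, s₂ k) ∈ G)
    (ht : ∀ k, (t₁ k, t₂ k) ∈ G) {p : R₁ × R₂} (hp : p ∈ G) (hsm : Sm s₁ p.1 t₁) :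
    Sm s₂ p.2 t₂ :=
  hsm.congr fun k => h.norm_eq _ (mul_mem (mul_mem (hs k) hp) (ht k))

theorem cond (h : Rel τ₁ τ₂ B₁ B₂ G) {r₁ : Bool → ℕ → R₁} {r₂ : Bool → ℕ → R₂}
    (hr : ∀ e k, (r₁ e k, r₂ e k) ∈ G) (hc : Cond τ₁ B₁ r₁) : Cond τ₂ B₂ r₂ where
  adm e := h.adm (hr e) (hc.adm e)
  mem e k := h.mem₂ _ (hr e k)
  tr_eq e k := by rw [← h.tr _ (hr e k), ← h.tr _ (hr (!e) k)]; exact hc.tr_eq e k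
  exc e x hx := by
    obtain ⟨a, ha⟩ := h.tot₂ x hx
    obtain ⟨c, hc⟩ := hc.exc e a (h.mem₁ _ ha)
    exact ⟨c, h.sm (hr e) (hr e) (sub_mem ha (SMulMemClass.smul_mem c (one_mem G))) hc⟩
  orth e x hx := by
    obtain ⟨a, ha⟩ := h.tot₂ x hx
    exact h.sm (hr e) (hr (!e)) ha (hc.orth e a (h.mem₁ _ ha))

end Rel

end Vale.Agent.P070
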