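import Vale.Agent.P070.GNS

/-! Existence of a free unitary (reduced HNN extension) by dimension counting. -/

open scoped ComplexOrder InnerProductSpace
open Filter Topology

namespace Vale.Agent.P070

/-- Amplification of a representation. -/
lemma exists_diag {R : Type} [CStarAlgebra R] {E : Type} [NormedAddCommGroup E]
    [InnerProductSpace ℂ E] [CompleteSpace E] (ι : R →⋆ₐ[ℂ] (E →L[ℂ] E)) (J : Type) :
    ∃ π : R →⋆ₐ[ℂ] (lp (fun _ : J => E) 2 →L[ℂ] lp (fun _ : J => E) 2),
      ∀ a x j, π a x j = ι a (x j) := by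
  let f : R → (lp (fun _ : J => E) 2 →L[ℂ] lp (fun _ : J => E) 2) := fun a =>
    lp.mapCLM 2 (fun _ => ι a) (norm_nonneg (ι a)) fun _ => le_rfl
  have hf : ∀ a x j, f a x j = ι a (x j) := fun _ _ _ => rfl
  refine ⟨{ toFun := f
            map_one' := ?_
            map_mul' := fun a b => ?_
            map_zero' := ?_
            map_add' := fun a b => ?_
            commutes' := fun c => ?_
            map_star' := fun a => ?_ }, hf⟩
  · ext x j
    simp [hf]
  · ext x j
    simp [hf]
  · ext x j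
    simp [hf]
  · ext x j
    simp [hf]
  · ext x j
    simp [hf, Algebra.algebraMap_eq_smul_one]
  · rw [ContinuousLinearMap.star_eq_adjoint, ContinuousLinearMap.eq_adjoint_iff]
    intro x y
    simp only [lp.inner_eq_tsum, hf, map_star, ContinuousLinearMap.star_eq_adjoint,
      ContinuousLinearMap.adjoint_inner_left]

/-- A maximal orthonormal family of a subspace indexed by a prescribed set. -/
lemma exists_on_family {H : Type} [NormedAddCommGroup H] [InnerProductSpace ℂ H]
    (W : Submodule ℂ H) {I D : Type} {v : I → H} (hv : Orthonormal ℂ v) (hvW : ∀ i, v i ∈ W)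
    {f : D → H} (hf : DenseRange f) (hD : Cardinal.mk D ≤ Cardinal.mk I) :
    ∃ b : I → H, Orthonormal ℂ b ∧ (∀ i, b i ∈ W) ∧
      ∀ x ∈ W, (∀ i, ⟪b i, x⟫_ℂ = 0) → x = 0 := by
  classical
  let v' : I → W := fun i => ⟨v i, hvW i⟩
  have hv' : Orthonormal ℂ v' := hv
  obtain ⟨w, hw1, hw2, hw3⟩ := exists_maximal_orthonormal hv'.toSubtypeRange
  rw [maximal_orthonormal_iff_orthogonalComplement_eq_bot hw2] at hw3
  have h1 : Cardinal.mk I ≤ Cardinal.mk w :=
    Cardinal.mk_le_of_injective (f := fun i => (⟨v' i, hw1 ⟨i, rfl⟩⟩ : w))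
      fun i j h => hv'.linearIndependent.injective (congrArg Subtype.val h)
  have h2 : Cardinal.mk w ≤ Cardinal.mk D := by
    choose g hg using fun x : w => hf.exists_dist_lt ((x : W) : H) (ε := 1 / 2) (by norm_num)
    refine Cardinal.mk_le_of_injective (f := g) fun x y h => ?_
    by_contra hxy
    have h3 := norm_sub_mul_self (𝕜 := ℂ) (x : W) (y : W)
    rw [hw2.2 hxy, hw2.1 x, hw2.1 y] at h3
    have h4 := dist_triangle_right ((x : W) : H) ((y : W) : H) (f (g x))
    have h5 := hg x
    have h6 := hg y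
    rw [← h] at h6
    have h7 : dist ((x : W) : H) ((y : W) : H) = ‖(x : W) - (y : W)‖ := by
      rw [dist_eq_norm]
      rfl
    rw [map_zero] at h3
    nlinarith [norm_nonneg ((x : W) - (y : W))]
  obtain ⟨e⟩ := Cardinal.eq.mp (le_antisymm h1 (h2.trans hD))
  refine ⟨fun i => ((e i : W) : H), ?_, fun i => (e i : W).2, fun x hx h => ?_⟩
  · exact (hw2.comp e e.injective : Orthonormal ℂ fun i => (e i : W))
  · have : (⟨x, hx⟩ : W) ∈ (Submodule.span ℂ w)ᗮ := by
      rw [Submodule.mem_orthogonal]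
      intro y hy
      induction hy using Submodule.span_induction with
      | mem y hy =>
        have := h (e.symm ⟨y, hy⟩)
        simp only [e.apply_symm_apply] at this
        exact this
      | zero => exact inner_zero_left _
      | add y z _ _ hy hz => rw [inner_add_left, hy, hz, add_zero]
      | smul c y _ hy => rw [inner_smul_left, hy, mul_zero]
    rw [hw3] at this
    exact congrArg Subtype.val this

/-- The swapping unitary. -/
lemma exists_swap {H : Type} [NormedAddCommGroup H] [InnerProductSpace ℂ H] [CompleteSpace H]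
    {P : Bool → ℕ → H →L[ℂ] H} (hP : ∀ d, Dec (P d)) (hP0 : ∀ d, P d 0 = 1)
    (hlim : ∀ d x, (∀ k, P d k x = x) → x = 0) {I D : Type} {v w : Bool → ℕ → I → H}
    (hv : ∀ d j, Orthonormal ℂ (v d j)) (hw : ∀ d j, Orthonormal ℂ (w d j))
    (hv1 : ∀ d j i, P d j (v d j i) = v d j i) (hv2 : ∀ d j i, P d (j + 1) (v d j i) = 0)
    (hw1 : ∀ d j i, P d j (w d j i) = w d j i) (hw2 : ∀ d j i, P d (j + 1) (w d j i) = 0)
    (hvw : ∀ d j i i', ⟪v d j i, w d j i'⟫_ℂ = 0)
    {f : D → H} (hf : DenseRange f) (hD : Cardinal.mk D ≤ Cardinal.mk I) :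
    ∃ U : H →L[ℂ] H, star U * U = 1 ∧ U * star U = 1 ∧ (∀ k, P true k * U = U * P false k) ∧
      ∀ x y, (∀ j i, ⟪v false j i, x⟫_ℂ = 0) → (∀ j i, ⟪v true j i, y⟫_ℂ = 0) →
        ⟪y, U x⟫_ℂ = 0 := by
  classical
  have hsa : ∀ d k x y, ⟪P d k x, y⟫_ℂ = ⟪x, P d k y⟫_ℂ := fun d k =>
    ((hP d).proj k).isSelfAdjoint.isSymmetric
  have hanti : ∀ d k l x, k ≤ l → P d k (P d l x) = P d l x := fun d k l x h => by
    rw [← mul_apply_eq_comp, (hP d).anti k l h]
  have hanti' : ∀ d k l x, k ≤ l → P d l (P d k x) = P d l x := fun d k l x h => by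
    have := congrArg star ((hP d).anti k l h)
    rw [star_mul, ((hP d).proj k).isSelfAdjoint.star_eq, ((hP d).proj l).isSelfAdjoint.star_eq]
      at this
    rw [← mul_apply_eq_comp, this]
  let W : Bool → ℕ → Submodule ℂ H := fun d j =>
    { carrier := {x | P d j x = x ∧ P d (j + 1) x = 0 ∧ ∀ i, ⟪v d j i, x⟫_ℂ = 0}
      add_mem' := fun ha hb => ⟨by rw [map_add, ha.1, hb.1], by rw [map_add, ha.2.1, hb.2.1, add_zero],
        fun i => by rw [inner_add_right, ha.2.2, hb.2.2, add_zero]⟩
      zero_mem' := ⟨map_zero _, map_zero _, fun i => inner_zero_right _⟩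
      smul_mem' := fun c x ha => ⟨by rw [map_smul, ha.1], by rw [map_smul, ha.2.1, smul_zero],
        fun i => by rw [inner_smul_right, ha.2.2, mul_zero]⟩ }
  choose z hz1 hz2 hz3 using fun d j =>
    exists_on_family (W d j) (hw d j) (fun i => ⟨hw1 d j i, hw2 d j i, fun i' => hvw d j i' i⟩) hf hD
  let b : Bool → ℕ × Bool × I → H := fun d t =>
    if t.2.1 = d then v d t.1 t.2.2 else z d t.1 t.2.2
  have hb1 : ∀ d t, P d t.1 (b d t) = b d t := by
    intro d t
    simp only [b]
    split_ifs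
    exacts [hv1 _ _ _, (hz2 _ _ _).1]
  have hb2 : ∀ d t, P d (t.1 + 1) (b d t) = 0 := by
    intro d t
    simp only [b]
    split_ifs
    exacts [hv2 _ _ _, (hz2 _ _ _).2.1]
  have hb3 : ∀ d t k, P d k (b d t) = if k ≤ t.1 then b d t else 0 := by
    intro d t k
    split_ifs with h
    · rw [← hb1, hanti d k _ _ h]
    · rw [← hanti' d (t.1 + 1) k _ (by omega), hb2, map_zero]
  have hbo : ∀ d, Orthonormal ℂ (b d) := by
    intro d
    have hlt : ∀ t t' : ℕ × Bool × I, t.1 < t'.1 → ⟪b d t, b d t'⟫_ℂ = 0 := by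
      intro t t' h
      rw [← hb1 d t', ← hsa, hb3, if_neg (by omega), inner_zero_left]
    constructor
    · intro t
      simp only [b]
      split_ifs
      exacts [(hv _ _).1 _, (hz1 _ _).1 _]
    · rintro ⟨j, s, i⟩ ⟨j', s', i'⟩ h
      rcases lt_trichotomy j j' with h1 | rfl | h1
      · exact hlt _ _ h1
      · simp only [b]
        split_ifs with h2 h3 h3
        · exact (hv _ _).2 fun h4 => h (by rw [h2, h3, h4])
        · exact (hz2 _ _ _).2.2 _
        · rw [inner_eq_zero_symm]
          exact (hz2 _ _ _).2.2 _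
        · refine (hz1 _ _).2 fun h4 => h ?_
          have : s = s' := by
            revert h2 h3
            cases s <;> cases s' <;> cases d <;> simp
          rw [this, h4]
      · rw [inner_eq_zero_symm]
        exact hlt _ _ h1
  have hbc : ∀ d, (Submodule.span ℂ (Set.range (b d)))ᗮ = ⊥ := by
    intro d
    rw [eq_bot_iff]
    intro x hx
    have h1 : ∀ t, ⟪b d t, x⟫_ℂ = 0 := fun t =>
      Submodule.inner_right_of_mem_orthogonal (Submodule.subset_span (Set.mem_range_self t)) hx
    have h2 : ∀ j t, t.1 = j → ⟪b d t, P d j x - P d (j + 1) x⟫_ℂ = 0 := by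
      rintro _ t rfl
      rw [inner_sub_right, ← hsa, ← hsa, hb1, hb2, h1, inner_zero_left, sub_zero]
    have h3 : ∀ j, P d j x - P d (j + 1) x = 0 := by
      intro j
      refine hz3 d j _ ⟨?_, ?_, fun i => ?_⟩ fun i => ?_
      · rw [map_sub, hanti d j j _ le_rfl, hanti d j (j + 1) _ (by omega)]
      · rw [map_sub, hanti' d j (j + 1) _ (by omega), hanti d _ _ _ le_rfl, sub_self]
      · simpa [b] using h2 j (j, d, i) rfl
      · simpa [b] using h2 j (j, !d, i) rfl
    refine hlim d x fun k => ?_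
    induction k with
    | zero => rw [hP0, one_apply_eq_self]
    | succ k ih => rw [← sub_eq_zero.mp (h3 k), ih]
  have hbd : ∀ d, Dense (Submodule.span ℂ (Set.range (b d)) : Set H) := fun d =>
    Submodule.dense_iff_topologicalClosure_eq_top.mpr
      (Submodule.topologicalClosure_eq_top_iff.mpr (hbc d))
  obtain ⟨U, h1, h2, h3, h4⟩ := exists_unitary_op (b false) (b true)
    (fun t t' => by rw [orthonormal_iff_ite.mp (hbo _), orthonormal_iff_ite.mp (hbo _)])
    (hbd _) (hbd _)
  refine ⟨U, h1, h2, fun k => ContinuousLinearMap.ext_on (hbd false) ?_, fun x y hx hy => ?_⟩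
  · rintro _ ⟨t, rfl⟩
    rw [mul_apply_eq_comp, mul_apply_eq_comp, h3, hb3, hb3]
    split_ifs
    exacts [(h3 t).symm, (map_zero _).symm]
  · have h5 := (HilbertBasis.mkOfOrthogonalEqBot (hbo true) (hbc true)).hasSum_inner_mul_inner y
      (U x)
    rw [HilbertBasis.coe_mkOfOrthogonalEqBot] at h5
    refine h5.unique ?_
    convert hasSum_zero with t
    obtain ⟨j, s, i⟩ := t
    cases s
    · have : ⟪b true (j, false, i), U x⟫_ℂ = 0 := by
        rw [← ContinuousLinearMap.adjoint_inner_left, ← ContinuousLinearMap.star_eq_adjoint, h4]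
        simpa [b] using hx j i
      rw [this, mul_zero]
    · have : ⟪y, b true (j, true, i)⟫_ℂ = 0 := by
        rw [inner_eq_zero_symm]
        simpa [b] using hy j i
      rw [this, zero_mul]

theorem exists_hnn {R : Type} [CStarAlgebra R] {τ : R →L[ℂ] ℂ} (hτ : IsFT τ)
    {B : StarSubalgebra ℂ R} (hB : IsClosed (B : Set R)) {r : Bool → ℕ → R}
    (adm : ∀ e, Adm τ (r e)) (mem : ∀ e k, r e k ∈ B)
    (tr_eq : ∀ e k, τ (r e k) = τ (r (!e) k))
    (dec : ∀ e, ∀ a ∈ B, ∃ d ∈ cspan (Set.range (r e)), a - d ∈ Ker τ (r e)) :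
    ∃ (H : Type) (_ : NormedAddCommGroup H) (_ : InnerProductSpace ℂ H) (_ : CompleteSpace H)
      (Ω : H) (π : R →⋆ₐ[ℂ] (H →L[ℂ] H)) (u : Bool → H →L[ℂ] H),
      (∀ x, vs Ω (π x) = τ x) ∧ Pre (vs Ω) (B.map π) (fun e k => π (r e k)) u ∧
        Free (vs Ω) (B.map π) (fun e k => π (r e k)) u := by
  classical
  obtain ⟨E, _, _, _, ω, ι, hι, hdense⟩ := hτ.exists_gns
  have hin : ∀ a b, ⟪ι a ω, ι b ω⟫_ℂ = τ (star a * b) := by
    intro a b
    rw [← hι, map_mul, map_star, mul_apply_eq_comp, ContinuousLinearMap.star_eq_adjoint,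
      ContinuousLinearMap.adjoint_inner_right]
  have hstar : ∀ a, ‖ι (star a) ω‖ = ‖ι a ω‖ := by
    intro a
    rw [norm_eq_sqrt_re_inner (𝕜 := ℂ), norm_eq_sqrt_re_inner (𝕜 := ℂ), hin, hin, star_star,
      hτ.comm]
  have rs : ∀ d k, star (r d k) = r d k := fun d k => ((adm d).proj k).isSelfAdjoint.star_eq
  have ranti : ∀ d k l, k ≤ l → r d k * r d l = r d l := fun d => (adm d).anti
  have ranti' : ∀ d k l, k ≤ l → r d l * r d k = r d l := fun d k l h => by
    have := congrArg star (ranti d k l h)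
    rwa [star_mul, rs, rs] at this
  have hlim0 : ∀ d (y : E), (∀ k, ι (r d k) y = y) → y = 0 := by
    intro d y hy
    refine hdense.eq_zero_of_inner_right (𝕜 := ℂ) fun a => ?_
    have h1 : Tendsto (fun k => ‖ι (r d k) ω‖) atTop (𝓝 0) := by
      have h2 := (Real.continuous_sqrt.comp Complex.continuous_re).continuousAt.tendsto.comp
        (adm d).lim
      simp only [Function.comp_def, Complex.zero_re, Real.sqrt_zero] at h2
      refine h2.congr fun k => ?_
      rw [norm_eq_sqrt_re_inner (𝕜 := ℂ), hin, rs, ranti d k k le_rfl]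
      rfl
    have h3 := (h1.const_mul ‖ι (star a)‖).mul_const ‖y‖
    rw [mul_zero, zero_mul] at h3
    refine norm_le_zero_iff.mp (ge_of_tendsto' h3 fun k => ?_)
    have h4 : ⟪ι a ω, y⟫_ℂ = ⟪ι (r d k * a) ω, y⟫_ℂ := by
      rw [map_mul, mul_apply_eq_comp, ← ContinuousLinearMap.adjoint_inner_right (ι (r d k)),
        ← ContinuousLinearMap.star_eq_adjoint, ← map_star, rs, hy]
    rw [h4]
    refine (norm_inner_le_norm _ _).trans (mul_le_mul_of_nonneg_right ?_ (norm_nonneg _))
    rw [← hstar, star_mul, rs, map_mul, mul_apply_eq_comp]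
    exact ContinuousLinearMap.le_opNorm _ _
  let e : Bool → ℕ → R := fun d j => r d j - r d (j + 1)
  have es : ∀ d j, star (e d j) = e d j := fun d j => by simp only [e, star_sub, rs]
  have e1 : ∀ d j, r d j * e d j = e d j := fun d j => by
    simp only [e]
    rw [mul_sub, ranti d j j le_rfl, ranti d j (j + 1) (by omega)]
  have e2 : ∀ d j, r d (j + 1) * e d j = 0 := fun d j => by
    simp only [e]
    rw [mul_sub, ranti' d j (j + 1) (by omega), ranti d _ _ le_rfl, sub_self]
  have ee : ∀ d j, e d j * e d j = e d j := fun d j => by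
    nth_rewrite 1 [show e d j = r d j - r d (j + 1) from rfl]
    rw [sub_mul, e1, e2, sub_zero]
  have ene : ∀ d j, ι (e d j) ω ≠ 0 := by
    intro d j h
    have := hin (e d j) (e d j)
    rw [h, inner_zero_left, es, ee, map_sub] at this
    exact (adm d).strict j (sub_eq_zero.mp this.symm).symm
  let ξ : Bool → ℕ → E := fun d j => ((‖ι (e d j) ω‖⁻¹ : ℝ) : ℂ) • ι (e d j) ω
  have ξn : ∀ d j, ‖ξ d j‖ = 1 := fun d j => by
    simp only [ξ]
    rw [norm_smul, Complex.norm_real, norm_inv, norm_norm,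
      inv_mul_cancel₀ (norm_ne_zero_iff.mpr (ene d j))]
  have ξ1 : ∀ d j, ι (r d j) (ξ d j) = ξ d j := fun d j => by
    simp only [ξ]
    rw [map_smul, ← mul_apply_eq_comp, ← map_mul, e1]
  have ξ2 : ∀ d j, ι (r d (j + 1)) (ξ d j) = 0 := fun d j => by
    simp only [ξ]
    rw [map_smul, ← mul_apply_eq_comp, ← map_mul, e2, map_zero, zero_apply, smul_zero]
  have ξker : ∀ d j a, a ∈ Ker τ (r d) → ⟪ι (star a) (ξ d j), ξ d j⟫_ℂ = 0 := by
    intro d j a ha
    simp only [ξ]
    rw [map_smul, inner_smul_left, inner_smul_right, ← mul_apply_eq_comp, ← map_mul, hin, star_mul,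
      star_star, es, hτ.comm, ← mul_assoc (e d j), ee]
    simp only [e]
    rw [sub_mul, map_sub τ, ha, ha, sub_zero, mul_zero, mul_zero]
  obtain ⟨π, hπ⟩ := exists_diag ι (Option (Bool × ℕ) × E)
  let s : Option (Bool × ℕ) × E → E → lp (fun _ : Option (Bool × ℕ) × E => E) 2 :=
    fun t x => lp.single 2 t x
  have πs : ∀ a t x, π a (s t x) = s t (ι a x) := by
    intro a t x
    ext t'
    rw [hπ]
    simp only [s, lp.single_apply]
    exact Pi.apply_single (fun _ => ι a) (fun _ => map_zero _) t x t'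
  have ss : ∀ t t' x y, ⟪s t x, s t' y⟫_ℂ = if t = t' then ⟪x, y⟫_ℂ else 0 := by
    intro t t' x y
    simp only [s]
    rw [lp.inner_single_left]
    split_ifs with h
    · rw [h, lp.single_apply_self]
    · rw [lp.single_apply_ne _ _ _ h, inner_zero_right]
  have so : ∀ o d j, Orthonormal ℂ fun i => s (o, i) (ξ d j) := by
    intro o d j
    rw [orthonormal_iff_ite]
    intro i i'
    rw [ss, inner_self_eq_norm_sq_to_K, ξn]
    simp
  have s0 : ∀ t, s t 0 = 0 := fun t => lp.single_zero _ _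
  have hvs : ∀ x, vs (s (none, 0) ω) (π x) = τ x := fun x => by
    rw [vs_apply, πs, ss, if_pos rfl, hι]
  have : Infinite E := by
    refine Infinite.of_injective (fun c : ℂ => c • ξ true 0) (smul_left_injective ℂ ?_)
    rw [← norm_ne_zero_iff, ξn]
    exact one_ne_zero
  let f : List ((Option (Bool × ℕ) × E) × E) → lp (fun _ : Option (Bool × ℕ) × E => E) 2 :=
    fun l => (l.map fun t => s t.1 t.2).sum
  have hf : DenseRange f := by
    intro x
    refine mem_closure_of_tendsto (lp.hasSum_single (by norm_num) x)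
      (Eventually.of_forall fun F => ⟨F.toList.map fun t => (t, x t), ?_⟩)
    simp only [f, List.map_map]
    exact Finset.sum_map_toList _ _
  have hD : Cardinal.mk (List ((Option (Bool × ℕ) × E) × E)) ≤ Cardinal.mk E := by
    have h1 : Cardinal.aleph0 ≤ Cardinal.mk E := Cardinal.aleph0_le_mk E
    rw [Cardinal.mk_list_eq_mk, Cardinal.mk_prod, Cardinal.mk_prod]
    simp only [Cardinal.lift_id]
    exact Cardinal.mul_le_of_le h1 (Cardinal.mul_le_of_le h1 (Cardinal.mk_le_aleph0.trans h1) le_rfl)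
      le_rfl
  have hdec : ∀ d, Dec fun k => π (r d k) := fun d =>
    ⟨fun k => ((adm d).proj k).map π, fun k l h => by rw [← map_mul, ranti d k l h]⟩
  obtain ⟨U, hU1, hU2, hU3, hU4⟩ := exists_swap (P := fun d k => π (r d k)) hdec
    (fun d => by rw [(adm d).zero, map_one])
    (fun d x hx => by
      ext t
      exact hlim0 d _ fun k => by rw [← hπ, hx])
    (v := fun d j i => s (some (d, j), i) (ξ d j)) (w := fun d j i => s (none, i) (ξ d j))
    (fun d j => so _ d j) (fun d j => so _ d j)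
    (fun d j i => by rw [πs, ξ1]) (fun d j i => by rw [πs, ξ2, s0])
    (fun d j i => by rw [πs, ξ1]) (fun d j i => by rw [πs, ξ2, s0])
    (fun d j i i' => by rw [ss, if_neg (by simp)]) hf hD
  have hinj : Function.Injective π := by
    rw [injective_iff_map_eq_zero]
    intro a ha
    refine hτ.faithful a ?_
    rw [← hvs, map_mul, ha, mul_zero, map_zero]
  have hiso : Isometry π := NonUnitalStarAlgHom.isometry π hinj
  let u : Bool → _ := fun d => if d then U else star U
  let N : Bool → Set (lp (fun _ : Option (Bool × ℕ) × E => E) 2) :=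
    fun d => {x | ∀ j i, ⟪s (some (d, j), i) (ξ d j), x⟫_ℂ = 0}
  have hu : ∀ d, ∀ x ∈ N (!d), ∀ y ∈ N d, ⟪y, u d x⟫_ℂ = 0 := by
    intro d x hx y hy
    cases d
    · rw [show u false = star U from rfl, ContinuousLinearMap.star_eq_adjoint,
        ContinuousLinearMap.adjoint_inner_right, inner_eq_zero_symm]
      exact hU4 y x hy hx
    · exact hU4 x y hx hy
  have πadj : ∀ a x y, ⟪x, π a y⟫_ℂ = ⟪π (star a) x, y⟫_ℂ := fun a x y => by
    rw [map_star, ContinuousLinearMap.star_eq_adjoint, ContinuousLinearMap.adjoint_inner_left]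
  have hred : ∀ c d w, RedW (vs (s (none, 0) ω)) (B.map π) (fun e k => π (r e k)) u c d w →
      ∀ x ∈ N (!d), ∀ y ∈ N c, ⟪y, w x⟫_ℂ = 0 := by
    intro c d w hw
    induction hw with
    | single c => exact hu c
    | @cons c c' d a w ha hK _ ih =>
      intro x hx y hy
      obtain ⟨a, -, rfl⟩ := ha
      rw [mul_apply_eq_comp, mul_apply_eq_comp]
      refine hu c _ (fun j i => ?_) y hy
      change ⟪_, π a (w x)⟫_ℂ = 0
      rw [πadj]
      refine ih x hx _ fun j' i' => ?_
      rw [πs, ss]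
      split_ifs with h
      · simp only [Prod.mk.injEq, Option.some.injEq] at h
        obtain ⟨⟨h1, rfl⟩, -⟩ := h
        have h2 := hK (by rw [h1]; simp)
        rw [← h1, inner_eq_zero_symm]
        refine ξker _ _ _ fun k => ?_
        rw [← hvs, map_mul]
        exact h2 k
      · rfl
  have hΩ : ∀ d a, π a (s (none, 0) ω) ∈ N d := fun d a j i => by
    rw [πs, ss, if_neg (by simp)]
  refine ⟨_, inferInstance, inferInstance, inferInstance, s (none, 0) ω, π, u, hvs,
    ⟨⟨?_, ?_, ?_⟩, ?_, ?_, ?_, fun d => ⟨hdec d, ?_, ?_, ?_⟩, ?_, ?_, ?_⟩, ?_⟩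
  · intro d
    cases d
    · exact star_star U
    · rfl
  · intro d
    cases d
    · exact hU1
    · exact hU2
  · intro d k
    cases d
    · have := congrArg star (hU3 k)
      rw [star_mul, star_mul, ← map_star, ← map_star, rs, rs] at this
      exact this.symm
    · exact hU3 k
  · exact hiso.isClosedEmbedding.isClosedMap _ hB
  · rintro _ ⟨x, -, rfl⟩ _ ⟨y, -, rfl⟩
    change vs _ (π x * π y) = vs _ (π y * π x)
    rw [← map_mul, ← map_mul, hvs, hvs, hτ.comm]
  · intro x _
    rw [vs_apply, vs_apply, ContinuousLinearMap.star_eq_adjoint,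
      ContinuousLinearMap.adjoint_inner_right, ← inner_conj_symm]
    rfl
  · rw [(adm d).zero, map_one]
  · intro k
    rw [hvs, hvs]
    exact (adm d).strict k
  · simp only [hvs]
    exact (adm d).lim
  · exact fun d k => ⟨_, mem d k, rfl⟩
  · intro d k
    rw [hvs, hvs, tr_eq]
  · rintro d _ ⟨a, ha, rfl⟩
    obtain ⟨c, hc, hac⟩ := dec d a ha
    refine ⟨π c, ?_, fun k => ?_⟩
    · refine map_mem_closure hiso.continuous hc fun y hy => ?_
      induction hy using Submodule.span_induction with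
      | mem y hy =>
        obtain ⟨k, rfl⟩ := hy
        exact Submodule.subset_span ⟨k, rfl⟩
      | zero => rw [map_zero]; exact Submodule.zero_mem _
      | add y z _ _ hy hz => rw [map_add]; exact Submodule.add_mem _ hy hz
      | smul c y _ hy => rw [map_smul]; exact Submodule.smul_mem _ _ hy
    · change vs _ (π (r d k) * (π a - π c)) = 0
      rw [← map_sub, ← map_mul, hvs]
      exact hac k
  · rintro _ ⟨c, d, w, _, _, hw, ⟨a, -, rfl⟩, ⟨a', -, rfl⟩, rfl⟩
    change ⟪s (none, 0) ω, π a (w (π a' (s (none, 0) ω)))⟫_ℂ = 0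
    rw [πadj]
    exact hred c d w hw _ (hΩ _ _) _ (hΩ _ _)

end Vale.Agent.P070
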