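import Vale.Agent.P070.Gram

/-! Irreducible representations: Schur's lemma, density, and the projection step. -/

open scoped ComplexOrder InnerProductSpace
open Filter Topology

namespace Vale.Agent.P070

variable {A : Type*} [CStarAlgebra A] {H : Type*} [NormedAddCommGroup H]
  [InnerProductSpace ℂ H] [CompleteSpace H] {π : A →⋆ₐ[ℂ] (H →L[ℂ] H)}

theorem Irr.cyclic (h : Irr π) {ξ : H} (hξ : ξ ≠ 0) :
    Dense (Submodule.span ℂ (Set.range fun a => π a ξ) : Set H) := by
  set S := Submodule.span ℂ (Set.range fun a => π a ξ) with hS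
  have hinv : ∀ a, ∀ x ∈ S, π a x ∈ S := by
    intro a x hx
    induction hx using Submodule.span_induction with
    | mem x hx =>
      obtain ⟨b, rfl⟩ := hx
      refine Submodule.subset_span ⟨a * b, ?_⟩
      simp
    | zero => simp
    | add x y _ _ hx hy => rw [map_add]; exact S.add_mem hx hy
    | smul c x _ hx => rw [map_smul]; exact S.smul_mem c hx
  rcases h S.topologicalClosure S.isClosed_topologicalClosure (fun a x hx =>
    map_mem_closure (π a).continuous hx (hinv a)) with h0 | h0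
  · exfalso
    apply hξ
    have : ξ ∈ S.topologicalClosure :=
      S.le_topologicalClosure (Submodule.subset_span ⟨1, by simp⟩)
    rwa [h0, Submodule.mem_bot] at this
  · exact Submodule.dense_iff_topologicalClosure_eq_top.mpr h0

lemma Irr.semidefinite (h : Irr π) (T : H →L[ℂ] H) (hs : IsSelfAdjoint T)
    (hT : ∀ a, T * π a = π a * T) :
    (∀ x, 0 ≤ (⟪x, T x⟫_ℂ).re) ∨ (∀ x, (⟪x, T x⟫_ℂ).re ≤ 0) := by
  have hc : ∀ a, Commute T⁺ (π a) := fun a => Commute.cfcₙ_real (hT a) _
  have hp := (ContinuousLinearMap.nonneg_iff_isPositive _).mp (CFC.posPart_nonneg T)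
  have hn := (ContinuousLinearMap.nonneg_iff_isPositive _).mp (CFC.negPart_nonneg T)
  have hsub := CFC.posPart_sub_negPart T hs
  rcases h (T⁺).ker (T⁺).isClosed_ker (fun a x hx => by
    have h1 : T⁺ x = 0 := hx
    have h2 := congrArg (fun S : H →L[ℂ] H => S x) (hc a).eq
    simp only [mul_apply_eq_comp, h1, map_zero] at h2
    exact h2) with h0 | h0
  · left
    intro x
    have h1 : T⁻ x = 0 := by
      have h2 := congrArg (fun S : H →L[ℂ] H => S x) (CFC.posPart_mul_negPart T)
      simp only [mul_apply_eq_comp, zero_apply] at h2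
      have : T⁻ x ∈ (T⁺).ker := h2
      rwa [h0, Submodule.mem_bot] at this
    rw [← hsub, sub_apply, h1, sub_zero]
    exact hp.re_inner_nonneg_right x
  · right
    intro x
    have h1 : T⁺ x = 0 := by
      have : x ∈ (T⁺).ker := by rw [h0]; trivial
      exact this
    rw [← hsub, sub_apply, h1, zero_sub, inner_neg_right, Complex.neg_re,
      neg_nonpos]
    exact hn.re_inner_nonneg_right x

lemma Irr.schur_sa (h : Irr π) (T : H →L[ℂ] H) (hs : IsSelfAdjoint T)
    (hT : ∀ a, T * π a = π a * T) : ∃ c : ℝ, T = (c : ℂ) • 1 := by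
  have key : ∀ t : ℝ, (∀ x, t * ‖x‖ ^ 2 ≤ (⟪x, T x⟫_ℂ).re) ∨
      (∀ x, (⟪x, T x⟫_ℂ).re ≤ t * ‖x‖ ^ 2) := by
    intro t
    have e : ∀ x, (⟪x, (T - (t : ℂ) • 1) x⟫_ℂ).re = (⟪x, T x⟫_ℂ).re - t * ‖x‖ ^ 2 := by
      intro x
      simp only [sub_apply, smul_apply,
        one_apply_eq_self, inner_sub_right, inner_smul_right, inner_self_eq_norm_sq_to_K,
        Complex.sub_re, Complex.coe_algebraMap]
      norm_cast
    have hs' : IsSelfAdjoint (T - (t : ℂ) • 1) := by
      apply hs.sub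
      rw [IsSelfAdjoint, star_smul, star_one]
      simp
    rcases h.semidefinite (T - (t : ℂ) • 1) hs' (fun a => by
      simp [sub_mul, mul_sub, hT]) with h1 | h1
    · left; intro x; have := h1 x; rw [e] at this; linarith
    · right; intro x; have := h1 x; rw [e] at this; linarith
  have fin : ∀ c : ℝ, (∀ x, (⟪x, T x⟫_ℂ).re = c * ‖x‖ ^ 2) → T = (c : ℂ) • 1 := by
    intro c hc
    rw [← sub_eq_zero]
    have := (inner_map_self_eq_zero ((T - (c : ℂ) • 1 : H →L[ℂ] H) : H →ₗ[ℂ] H)).mp (by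
      intro x
      have h1 : ⟪T x, x⟫_ℂ = ⟪x, T x⟫_ℂ := hs.isSymmetric x x
      have h2 : (⟪x, T x⟫_ℂ).im = 0 := by
        have := inner_conj_symm (𝕜 := ℂ) (T x) x
        rw [h1] at this
        exact Complex.conj_eq_iff_im.mp this
      simp only [ContinuousLinearMap.coe_coe, sub_apply,
        smul_apply, one_apply_eq_self, inner_sub_left,
        inner_smul_left, inner_self_eq_norm_sq_to_K, h1, Complex.conj_ofReal,
        Complex.coe_algebraMap]
      apply Complex.ext
      · rw [Complex.sub_re, hc]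
        norm_cast
        simp
      · rw [Complex.sub_im, h2]
        norm_cast)
    exact ContinuousLinearMap.coe_injective this
  by_cases hH : ∃ y : H, y ≠ 0
  · obtain ⟨y, hy⟩ := hH
    have hy2 : 0 < ‖y‖ ^ 2 := by positivity
    refine ⟨(⟪y, T y⟫_ℂ).re / ‖y‖ ^ 2, fin _ fun x => ?_⟩
    set c := (⟪y, T y⟫_ℂ).re / ‖y‖ ^ 2 with hc
    have hcy : (⟪y, T y⟫_ℂ).re = c * ‖y‖ ^ 2 := by rw [hc]; field_simp
    by_cases hx : x = 0
    · simp [hx]
    have hx2 : 0 < ‖x‖ ^ 2 := by positivity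
    set d := (⟪x, T x⟫_ℂ).re / ‖x‖ ^ 2 with hd
    have hdx : (⟪x, T x⟫_ℂ).re = d * ‖x‖ ^ 2 := by rw [hd]; field_simp
    rw [hdx]
    congr 1
    rcases key ((c + d) / 2) with h1 | h1
    · have a1 := h1 x
      have a2 := h1 y
      rw [hdx] at a1
      rw [hcy] at a2
      have := le_of_mul_le_mul_right a1 hx2
      have := le_of_mul_le_mul_right a2 hy2
      linarith
    · have a1 := h1 x
      have a2 := h1 y
      rw [hdx] at a1
      rw [hcy] at a2
      have := le_of_mul_le_mul_right a1 hx2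
      have := le_of_mul_le_mul_right a2 hy2
      linarith
  · push Not at hH
    refine ⟨0, ?_⟩
    ext x
    exact (hH _).trans (hH _).symm

theorem Irr.schur (h : Irr π) (T : H →L[ℂ] H) (hT : ∀ a, T * π a = π a * T) :
    ∃ c : ℂ, T = c • 1 := by
  have hT' : ∀ a, star T * π a = π a * star T := by
    intro a
    have := congrArg star (hT (star a))
    rw [star_mul, star_mul, ← map_star, star_star] at this
    exact this.symm
  obtain ⟨c, hc⟩ := h.schur_sa (T + star T) (IsSelfAdjoint.add_star_self T) (fun a => by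
    rw [add_mul, mul_add, hT, hT'])
  obtain ⟨d, hd⟩ := h.schur_sa (Complex.I • T + star (Complex.I • T))
    (IsSelfAdjoint.add_star_self _) (fun a => by
      rw [add_mul, mul_add, star_smul, smul_mul_assoc, smul_mul_assoc, mul_smul_comm,
        mul_smul_comm, hT, hT'])
  refine ⟨(c - Complex.I * d) / 2, ?_⟩
  rw [star_smul, Complex.star_def, Complex.conj_I] at hd
  have e : T = (1 / 2 : ℂ) • ((T + star T) - Complex.I • (Complex.I • T + -Complex.I • star T)) := by
    rw [smul_add, smul_smul, smul_smul, mul_neg, Complex.I_mul_I]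
    module
  rw [e, hc, hd]
  module

/-- One-vector self-adjoint density. -/
theorem Irr.sa1 (h : Irr π) {χ μ : H} (hχ : χ ≠ 0) (hμ : (⟪χ, μ⟫_ℂ).im = 0) {ε : ℝ}
    (hε : 0 < ε) : ∃ b : A, IsSelfAdjoint b ∧ ‖π b χ - μ‖ < ε := by
  by_contra hcon
  push Not at hcon
  set M : Set H := {x | ∃ b : A, IsSelfAdjoint b ∧ π b χ = x} with hM
  have hconv : Convex ℝ M := by
    rintro x ⟨b, hb, rfl⟩ y ⟨b', hb', rfl⟩ s t _ _ _
    refine ⟨(s : ℂ) • b + (t : ℂ) • b', ?_, ?_⟩
    · rw [IsSelfAdjoint, star_add, star_smul, star_smul, hb.star_eq, hb'.star_eq]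
      simp
    · rw [map_add, map_smul, map_smul]
      simp
  have hnot : μ ∉ closure M := by
    intro hm
    obtain ⟨x, ⟨b, hb, rfl⟩, hx⟩ := Metric.mem_closure_iff.mp hm ε hε
    rw [dist_comm, dist_eq_norm] at hx
    exact absurd hx (not_lt.mpr (hcon b hb))
  obtain ⟨f, u, hf1, hf2⟩ := RCLike.geometric_hahn_banach_point_closed (𝕜 := ℂ) hconv.closure
    isClosed_closure hnot
  have hf3 : ∀ b : A, IsSelfAdjoint b → u < (f (π b χ)).re := fun b hb =>
    hf2 _ (subset_closure ⟨b, hb, rfl⟩)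
  have hu : u < 0 := by simpa using hf3 0 (IsSelfAdjoint.zero A)
  have hf4 : ∀ b : A, IsSelfAdjoint b → (f (π b χ)).re = 0 := by
    intro b hb
    by_contra hne
    have := hf3 (((u / (f (π b χ)).re : ℝ) : ℂ) • b) (by
      rw [IsSelfAdjoint, star_smul, hb.star_eq]; simp)
    rw [map_smul, smul_apply, map_smul, smul_eq_mul, Complex.re_ofReal_mul,
      div_mul_cancel₀ _ hne] at this
    exact lt_irrefl _ this
  set ν := (InnerProductSpace.toDual ℂ H).symm f with hν
  have hfν : ∀ x, f x = ⟪ν, x⟫_ℂ := fun x => by rw [hν, InnerProductSpace.toDual_symm_apply]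
  have adj : ∀ (a : A) (x y : H), ⟪π a x, y⟫_ℂ = ⟪x, π (star a) y⟫_ℂ := by
    intro a x y
    rw [map_star, ContinuousLinearMap.star_eq_adjoint, ContinuousLinearMap.adjoint_inner_right]
  have r1 : ∀ a : A, (⟪ν, π a χ⟫_ℂ + ⟪χ, π a ν⟫_ℂ).re = 0 := by
    intro a
    have h1 := hf4 _ (IsSelfAdjoint.add_star_self a)
    rw [hfν, map_add, add_apply, inner_add_right, ← adj, Complex.add_re,
      ← inner_conj_symm (π a ν) χ, Complex.conj_re] at h1
    rw [Complex.add_re, h1]
  have r2 : ∀ a : A, ⟪ν, π a χ⟫_ℂ + ⟪χ, π a ν⟫_ℂ = 0 := by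
    intro a
    apply Complex.ext (r1 a)
    have h1 := r1 (Complex.I • a)
    simp only [map_smul, smul_apply, inner_smul_right, ← mul_add,
      Complex.I_mul_re, neg_eq_zero] at h1
    exact h1
  have gram : ∀ a b : A, ⟪π a (χ + ν), π b (χ + ν)⟫_ℂ = ⟪π a (χ - ν), π b (χ - ν)⟫_ℂ := by
    intro a b
    rw [adj, adj, ← mul_apply_eq_comp, ← mul_apply_eq_comp, ← map_mul]
    simp only [map_add, map_sub, inner_add_left, inner_add_right, inner_sub_left, inner_sub_right]
    linear_combination 2 * r2 (star a * b)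
  have r3 : ⟪ν, χ⟫_ℂ + ⟪χ, ν⟫_ℂ = 0 := by simpa using r2 1
  have hχ2 : ⟪χ, χ⟫_ℂ ≠ 0 := inner_self_ne_zero.mpr hχ
  have n1 : χ + ν ≠ 0 := by
    intro h0
    rw [eq_neg_of_add_eq_zero_right h0, inner_neg_left, inner_neg_right] at r3
    apply hχ2
    linear_combination (-1 / 2) * r3
  have n2 : χ - ν ≠ 0 := by
    intro h0
    rw [← sub_eq_zero.mp h0] at r3
    apply hχ2
    linear_combination (1 / 2) * r3
  obtain ⟨U, -, -, hU, -⟩ := exists_unitary_op (fun a => π a (χ + ν)) (fun a => π a (χ - ν)) gram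
    (h.cyclic n1) (h.cyclic n2)
  obtain ⟨c, hc⟩ := h.schur U (fun a => by
    refine ContinuousLinearMap.ext_on (h.cyclic n1) ?_
    rintro _ ⟨b, rfl⟩
    simp only [mul_apply_eq_comp]
    rw [hU b, ← mul_apply_eq_comp (π a), ← map_mul, hU,
      map_mul, mul_apply_eq_comp])
  have e1 : c • (χ + ν) = χ - ν := by simpa [hc] using hU 1
  have hc1 : 1 + c ≠ 0 := by
    intro h0
    have : c = -1 := by linear_combination h0
    rw [this] at e1
    apply hχ
    have : (2 : ℂ) • χ = 0 := by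
      rw [show (2 : ℂ) • χ = (χ - ν) - (-1 : ℂ) • (χ + ν) by module, e1, sub_self]
    simpa using this
  obtain ⟨l, hl⟩ : ∃ l : ℂ, ν = l • χ := by
    refine ⟨(1 + c)⁻¹ * (1 - c), ?_⟩
    rw [← smul_smul, eq_comm, inv_smul_eq_iff₀ hc1]
    rw [show (1 - c) • χ = (χ - ν) - c • (χ + ν) + (1 + c) • ν by module, e1, sub_self, zero_add]
  rw [hl, inner_smul_left, inner_smul_right, ← add_mul] at r3
  have hl2 : l.re = 0 := by
    have := congrArg Complex.re ((mul_eq_zero.mp r3).resolve_right hχ2)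
    simp only [Complex.add_re, Complex.conj_re, Complex.zero_re] at this
    linarith
  have : (f μ).re = 0 := by
    rw [hfν, hl, inner_smul_left, Complex.mul_re, Complex.conj_re, hl2, hμ]
    simp
  simp only [RCLike.re_to_complex] at hf1
  linarith

end Vale.Agent.P070
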