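import Vale.Agent.P070.Words

/-! The ping-pong estimate for reduced words. -/

open scoped ComplexOrder InnerProductSpace
open Filter Topology

namespace Vale.Agent.P070

variable {R : Type*} [CStarAlgebra R] {τ : R →L[ℂ] ℂ}
variable {B : StarSubalgebra ℂ R} {r : Bool → ℕ → R} {u : Bool → R}

theorem inner_eq_zero_of_closure_span {H : Type*} [NormedAddCommGroup H] [InnerProductSpace ℂ H]
    {V : Set H} {v : H} (h : ∀ x ∈ V, ⟪x, v⟫_ℂ = 0) :
    v ∈ ((Submodule.span ℂ V).topologicalClosure)ᗮ := by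
  rw [Submodule.mem_orthogonal]
  intro x hx
  have : (Submodule.span ℂ V).topologicalClosure ≤ (ℂ ∙ v)ᗮ :=
    Submodule.topologicalClosure_minimal _ (Submodule.span_le.2 fun y hy =>
      Submodule.mem_orthogonal_singleton_iff_inner_left.2 (h y hy)) (Submodule.isClosed_orthogonal _)
  exact Submodule.mem_orthogonal_singleton_iff_inner_left.1 (this hx)

/-- The seminorms `x ↦ ‖x P_e‖` of the ping-pong projections. -/
structure PP (τ : R →L[ℂ] ℂ) (B : StarSubalgebra ℂ R) (r : Bool → ℕ → R) (u : Bool → R)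
    (N : Bool → R → ℝ) : Prop where
  nonneg : ∀ e x, 0 ≤ N e x
  add_le : ∀ e x y, N e (x + y) ≤ N e x + N e y
  mul_le : ∀ e z x, N e (z * x) ≤ ‖z‖ * N e x
  le_norm : ∀ e x, N e x ≤ ‖x‖
  gap_le : ∀ e j, ∀ x ∈ B, N e (x * gap (r e) j) ^ 2 * ‖τ (gap (r e) j)‖ ≤ n2 τ x
  word : ∀ e d w, RedW τ B r u e d w → ∀ x ∈ Ext B u, ∀ y ∈ Ext B u,
    ‖x * w * y‖ ≤ N e x * ‖w‖ * ‖y‖ + ‖x‖ * ‖w‖ * N (!d) (star y)

section Aux

variable {H : Type*} [NormedAddCommGroup H] [InnerProductSpace ℂ H] [CompleteSpace H]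
  {Ω : H} {ι : R →⋆ₐ[ℂ] (H →L[ℂ] H)}

/-- The closed span of the reduced words starting with the sign `e`. -/
noncomputable def ppK (τ : R →L[ℂ] ℂ) (B : StarSubalgebra ℂ R) (r : Bool → ℕ → R) (u : Bool → R)
    (Ω : H) (ι : R →⋆ₐ[ℂ] (H →L[ℂ] H)) (e : Bool) : Submodule ℂ H :=
  (Submodule.span ℂ {v | ∃ d w a, RedW τ B r u e d w ∧ a ∈ B ∧ v = ι (w * a) Ω}).topologicalClosure

theorem isClosed_ppK (e : Bool) : IsClosed (ppK τ B r u Ω ι e : Set H) :=
  Submodule.isClosed_topologicalClosure _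

instance (e : Bool) : CompleteSpace (ppK τ B r u Ω ι e) := (isClosed_ppK e).completeSpace_coe

theorem mem_ppK {e d : Bool} {w a : R} (hw : RedW τ B r u e d w) (ha : a ∈ B) :
    ι (w * a) Ω ∈ ppK τ B r u Ω ι e :=
  Submodule.le_topologicalClosure _ (Submodule.subset_span ⟨_, _, _, hw, ha, rfl⟩)

theorem orth_ppK (hι : ∀ x, ⟪Ω, ι x Ω⟫_ℂ = τ x) (e : Bool) (c : R)
    (hc : ∀ d w a, RedW τ B r u e d w → a ∈ B → τ (star (w * a) * c) = 0) :
    ι c Ω ∈ (ppK τ B r u Ω ι e)ᗮ := by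
  refine inner_eq_zero_of_closure_span ?_
  rintro _ ⟨d, w, a, hw, ha, rfl⟩
  rw [gns_inner hι]; exact hc d w a hw ha

theorem inner_ker_ppK (hι : ∀ x, ⟪Ω, ι x Ω⟫_ℂ = τ x) (h : Pre τ B r u) (hf : Free τ B r u)
    {e : Bool} {y : R} (hy : y ∈ B) (hk : y ∈ Ker τ (r e)) {ξ : H} (hξ : ξ ∈ ppK τ B r u Ω ι e) :
    ⟪ξ, ι y ξ⟫_ℂ = 0 := by
  have h2 : ppK τ B r u Ω ι e ≤ ((ppK τ B r u Ω ι e)ᗮ).comap (ι y : H →ₗ[ℂ] H) := by
    refine Submodule.topologicalClosure_minimal _ (Submodule.span_le.2 ?_)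
      ((Submodule.isClosed_orthogonal _).preimage (ι y).continuous)
    rintro _ ⟨d, w, a, hw, ha, rfl⟩
    change ι y (ι (w * a) Ω) ∈ (ppK τ B r u Ω ι e)ᗮ
    rw [← mul_apply_eq_comp, ← map_mul]
    refine orth_ppK hι e _ fun d' w' a' hw' ha' => ?_
    have := hf _ (RedW.mem_wset (Red.append (h.red_star hw') hw hy (fun _ => hk))
      (star_mem ha') ha)
    simpa only [star_mul, mul_assoc] using this
  exact (Submodule.mem_orthogonal _ _).1 (h2 hξ) ξ hξ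

/-- The evaluation map `x ↦ ι x Ω`. -/
noncomputable def evL (Ω : H) (ι : R →⋆ₐ[ℂ] (H →L[ℂ] H)) : R →L[ℂ] H :=
  (ContinuousLinearMap.apply ℂ H Ω).comp
    (LinearMap.mkContinuous ι.toLinearMap 1 fun x => by
      rw [one_mul]; exact NonUnitalStarAlgHom.norm_apply_le ι x)

theorem evL_apply (x : R) : evL Ω ι x = ι x Ω := rfl

theorem pingpong_ppK (hι : ∀ x, ⟪Ω, ι x Ω⟫_ℂ = τ x) (h : Pre τ B r u) (hf : Free τ B r u)
    {e d : Bool} {w : R} (hw : RedW τ B r u e d w) {c : R} (hc : c ∈ Ext B u) :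
    ι w (ι c Ω - (ppK τ B r u Ω ι (!d)).starProjection (ι c Ω)) ∈ ppK τ B r u Ω ι e := by
  let F : R →L[ℂ] H := (ι w).comp ((1 - (ppK τ B r u Ω ι (!d)).starProjection).comp (evL Ω ι))
  have hF : ∀ c, F c = ι w (ι c Ω - (ppK τ B r u Ω ι (!d)).starProjection (ι c Ω)) :=
    fun c => rfl
  clear_value F
  rw [← hF]
  have horth : ∀ c, ι c Ω ∈ (ppK τ B r u Ω ι (!d))ᗮ → F c = ι (w * c) Ω := by
    intro c hc
    rw [hF, (Submodule.starProjection_apply_eq_zero_iff _).2 hc, sub_zero, map_mul,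
      mul_apply_eq_comp]
  have hgood : ∀ {e' d' w' a a'}, RedW τ B r u e' d' w' → a ∈ B → a' ∈ B →
      (e' ≠ d → a ∈ Ker τ (r e')) → F (a * w' * a') ∈ ppK τ B r u Ω ι e := by
    intro e' d' w' a a' hw' ha ha' hk
    rw [horth]
    · have := mem_ppK (Ω := Ω) (ι := ι) (Red.append hw hw' ha hk) ha'
      simpa only [mul_assoc] using this
    · refine orth_ppK hι _ _ fun d₂ w₂ a₂ hw₂ ha₂ => ?_
      have h1 := h.red_star hw₂
      rw [Bool.not_not] at h1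
      have := hf _ (RedW.mem_wset (Red.append h1 hw' ha hk) (star_mem ha₂) ha')
      simpa only [star_mul, mul_assoc] using this
  refine h.ext_induction (M := (ppK τ B r u Ω ι e).comap (F : R →ₗ[ℂ] H))
    ((isClosed_ppK e).preimage F.continuous) (fun c hc => ?_) ?_ hc
  · change F c ∈ ppK τ B r u Ω ι e
    rw [horth]
    · exact mem_ppK hw hc
    · refine orth_ppK hι _ _ fun d₂ w₂ a₂ hw₂ ha₂ => ?_
      have := hf _ (RedW.mem_wset (h.red_star hw₂) (star_mem ha₂) hc)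
      simpa only [star_mul, mul_assoc] using this
  · rintro _ ⟨e', d', w', a, a', hw', ha, ha', rfl⟩
    change F (a * w' * a') ∈ ppK τ B r u Ω ι e
    by_cases he : e' = d
    · exact hgood hw' ha ha' (fun hne => absurd he hne)
    · have h2 : e' = !d := by cases e' <;> cases d <;> simp_all
      obtain ⟨g, hg, hk⟩ := h.dec e' a ha
      rw [show a * w' * a' = (a - g) * w' * a' + g * w' * a' by noncomm_ring, map_add]
      refine add_mem (hgood hw' (sub_mem ha (h.D_mem hg)) ha' (fun _ => hk)) ?_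
      obtain ⟨w₂, a₂, hw₂, ha₂, heq⟩ := h.d_mul_red hw' hg
      have h3 : ι (g * w' * a') Ω ∈ ppK τ B r u Ω ι (!d) := by
        rw [heq, mul_assoc, ← h2]; exact mem_ppK hw₂ (mul_mem ha₂ ha')
      rw [hF, Submodule.starProjection_eq_self_iff.2 h3, sub_self, map_zero]
      exact zero_mem _

theorem gap_le_ppK (hτ : IsFT τ) (hι : ∀ x, ⟪Ω, ι x Ω⟫_ℂ = τ x) (h : Pre τ B r u)
    (hf : Free τ B r u) (e : Bool) (j : ℕ) {x : R} (hx : x ∈ B) :
    ‖ι (x * gap (r e) j) * (ppK τ B r u Ω ι e).starProjection‖ ^ 2 * ‖τ (gap (r e) j)‖ ≤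
      n2 τ x := by
  have hιn : ∀ x, ‖ι x‖ ≤ ‖x‖ := fun x => NonUnitalStarAlgHom.norm_apply_le ι x
  set p := gap (r e) j with hp
  have hpp : IsStarProjection p := (h.adm e).gap_proj j
  have hp0 : τ p ≠ 0 := (h.adm e).tr_gap_ne_zero j
  have hpB : p ∈ B := sub_mem (h.mem e j) (h.mem e (j + 1))
  set l : ℂ := τ (star (x * p) * (x * p)) / τ p with hl
  have hy : star (x * p) * (x * p) - l • p ∈ Ker τ (r e) := by
    intro k
    rw [star_mul, hpp.isSelfAdjoint.star_eq, mul_sub, mul_smul_comm, ← mul_assoc (r e k),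
      ← mul_assoc (r e k)]
    rcases le_or_gt k j with hkj | hkj
    · rw [(h.adm e).mul_gap_of_le hkj, map_sub, map_smul, smul_eq_mul, hl,
        div_mul_cancel₀ _ hp0, star_mul, hpp.isSelfAdjoint.star_eq, sub_self]
    · rw [(h.adm e).mul_gap_of_lt hkj]; simp
  have hyB : star (x * p) * (x * p) - l • p ∈ B :=
    sub_mem (mul_mem (star_mem (mul_mem hx hpB)) (mul_mem hx hpB)) (SMulMemClass.smul_mem _ hpB)
  have hb : ‖ι (x * p) * (ppK τ B r u Ω ι e).starProjection‖ ≤ √‖l‖ := by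
    refine ContinuousLinearMap.opNorm_le_bound _ (Real.sqrt_nonneg _) fun v => ?_
    rw [mul_apply_eq_comp]
    set ξ := (ppK τ B r u Ω ι e).starProjection v with hξ
    have hξK : ξ ∈ ppK τ B r u Ω ι e := Submodule.starProjection_apply_mem _ _
    have hξn : ‖ξ‖ ≤ ‖v‖ := Submodule.norm_starProjection_apply_le _ _
    have h1 := inner_ker_ppK hι h hf hyB hy hξK
    rw [map_sub, map_mul, map_star, map_smul, sub_apply, inner_sub_right,
      sub_eq_zero, mul_apply_eq_comp, ContinuousLinearMap.star_eq_adjoint,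
      ContinuousLinearMap.adjoint_inner_right, smul_apply,
      inner_smul_right] at h1
    have h2 : ‖ι (x * p) ξ‖ ^ 2 ≤ ‖l‖ * ‖v‖ ^ 2 := by
      rw [← inner_self_eq_norm_sq (𝕜 := ℂ), inner_self_re_eq_norm, h1, norm_mul]
      gcongr
      calc ‖⟪ξ, ι p ξ⟫_ℂ‖ ≤ ‖ξ‖ * ‖ι p ξ‖ := norm_inner_le_norm _ _
        _ ≤ ‖v‖ * (1 * ‖v‖) := by
          gcongr
          exact ((ι p).le_opNorm ξ).trans (by gcongr; exact (hιn p).trans hpp.norm_le)
        _ = _ := by ring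
    refine (pow_le_pow_iff_left₀ (norm_nonneg _) (by positivity) two_ne_zero).1 ?_
    rwa [mul_pow, Real.sq_sqrt (norm_nonneg _)]
  calc _ ≤ √‖l‖ ^ 2 * ‖τ p‖ := by gcongr
    _ = n2 τ (x * p) := by
      rw [Real.sq_sqrt (norm_nonneg _), hl, norm_div, div_mul_cancel₀ _ (norm_ne_zero_iff.2 hp0),
        hτ.norm_eq_n2]
    _ ≤ ‖p‖ ^ 2 * n2 τ x := hτ.n2_mul_le' x p
    _ ≤ 1 ^ 2 * n2 τ x := by
      have := hτ.n2_nonneg x
      gcongr; exact hpp.norm_le
    _ = _ := by ring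

theorem word_le_ppK (hτ : IsFT τ) (hι : ∀ x, ⟪Ω, ι x Ω⟫_ℂ = τ x) (h : Pre τ B r u)
    (hf : Free τ B r u) {e d : Bool} {w x y : R} (hw : RedW τ B r u e d w) (hx : x ∈ Ext B u)
    (hy : y ∈ Ext B u) :
    ‖x * w * y‖ ≤ ‖ι x * (ppK τ B r u Ω ι e).starProjection‖ * ‖w‖ * ‖y‖ +
      ‖x‖ * ‖w‖ * ‖ι (star y) * (ppK τ B r u Ω ι (!d)).starProjection‖ := by
  have hιn : ∀ x, ‖ι x‖ ≤ ‖x‖ := fun x => NonUnitalStarAlgHom.norm_apply_le ι x
  have hwC : w ∈ Ext B u := Red.mem (le_ext B u) (u_mem_ext h.toUni B) hw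
  refine hτ.norm_le_of_forall (isClosed_ext B u) (mul_mem (mul_mem hx hwC) hy) (by positivity)
    fun z hz => ?_
  rw [← gns_norm_sq hι, ← gns_norm_sq hι, ← mul_pow]
  gcongr
  have h1 := pingpong_ppK hι h hf hw (mul_mem hy hz)
  have h1' := Submodule.starProjection_eq_self_iff.2 h1
  have h3' := (ppK τ B r u Ω ι (!d))ᗮ.norm_starProjection_apply_le (ι (y * z) Ω)
  rw [Submodule.starProjection_orthogonal_val] at h3'
  have hQs : star (ppK τ B r u Ω ι (!d)).starProjection = (ppK τ B r u Ω ι (!d)).starProjection :=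
    (isStarProjection_starProjection (U := ppK τ B r u Ω ι (!d))).isSelfAdjoint.star_eq
  clear h1
  generalize (ppK τ B r u Ω ι e).starProjection = P at *
  generalize (ppK τ B r u Ω ι (!d)).starProjection = Q at *
  set ζ := ι (y * z) Ω with hζ
  have hζ' : ζ = ι y (ι z Ω) := by rw [hζ, map_mul, mul_apply_eq_comp]
  have h2 : ι (x * w * y * z) Ω = (ι x * P) (ι w (ζ - Q ζ)) + ι x (ι w ((Q * ι y) (ι z Ω))) := by
    rw [mul_apply_eq_comp, h1', mul_apply_eq_comp, ← hζ',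
      ← map_add, ← map_add, sub_add_cancel, hζ']
    simp only [map_mul, mul_apply_eq_comp]
  have h3 : ‖ζ - Q ζ‖ ≤ ‖y‖ * ‖ι z Ω‖ := by
    refine h3'.trans ?_
    rw [hζ']
    exact ((ι y).le_opNorm _).trans (by gcongr; exact hιn y)
  have h4 : ‖Q * ι y‖ = ‖ι (star y) * Q‖ := by
    rw [← norm_star, star_mul, hQs, map_star]
  rw [h2, add_mul]
  refine (norm_add_le _ _).trans (add_le_add ?_ ?_)
  · calc _ ≤ ‖ι x * P‖ * ‖ι w (ζ - Q ζ)‖ := ContinuousLinearMap.le_opNorm _ _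
      _ ≤ ‖ι x * P‖ * (‖ι w‖ * ‖ζ - Q ζ‖) := by
        gcongr; exact ContinuousLinearMap.le_opNorm _ _
      _ ≤ ‖ι x * P‖ * (‖w‖ * (‖y‖ * ‖ι z Ω‖)) := by gcongr; exact hιn w
      _ = _ := by ring
  · calc _ ≤ ‖ι x‖ * ‖ι w ((Q * ι y) (ι z Ω))‖ := ContinuousLinearMap.le_opNorm _ _
      _ ≤ ‖ι x‖ * (‖ι w‖ * ‖(Q * ι y) (ι z Ω)‖) := by
        gcongr; exact ContinuousLinearMap.le_opNorm _ _
      _ ≤ ‖x‖ * (‖w‖ * (‖Q * ι y‖ * ‖ι z Ω‖)) := by
        gcongr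
        · exact hιn x
        · exact hιn w
        · exact ContinuousLinearMap.le_opNorm _ _
      _ = _ := by rw [h4]; ring

end Aux

theorem exists_pp (hτ : IsFT τ) (h : Pre τ B r u) (hf : Free τ B r u) :
    ∃ N : Bool → R → ℝ, PP τ B r u N := by
  obtain ⟨H, _, _, _, Ω, ι, hι, -⟩ := hτ.exists_gns
  have hιn : ∀ x, ‖ι x‖ ≤ ‖x‖ := fun x => NonUnitalStarAlgHom.norm_apply_le ι x
  refine ⟨fun e x => ‖ι x * (ppK τ B r u Ω ι e).starProjection‖, fun _ _ => norm_nonneg _,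
    fun e x y => ?_, fun e z x => ?_, fun e x => ?_, fun e j x hx => gap_le_ppK hτ hι h hf e j hx,
    fun e d w hw x hx y hy => word_le_ppK hτ hι h hf hw hx hy⟩
  · rw [map_add, add_mul]; exact norm_add_le _ _
  · rw [map_mul, mul_assoc]
    exact (norm_mul_le _ _).trans (by gcongr; exact hιn z)
  · exact (norm_mul_le _ _).trans ((mul_le_of_le_one_right (norm_nonneg _)
      (Submodule.starProjection_norm_le _)).trans (hιn x))

end Vale.Agent.P070
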