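import Vale.Agent.P070.Basic

/-! Decreasing sequences of projections, smallness and excision. -/

open scoped ComplexOrder InnerProductSpace
open Filter Topology

namespace Vale.Agent.P070

variable {R : Type*} [CStarAlgebra R] {τ : R →L[ℂ] ℂ} {r s t : ℕ → R}

namespace Dec

theorem star_eq (h : Dec r) (k : ℕ) : star (r k) = r k := (h.proj k).isSelfAdjoint.star_eq

theorem idem (h : Dec r) (k : ℕ) : r k * r k = r k := (h.proj k).isIdempotentElem.eq

theorem norm_le (h : Dec r) (k : ℕ) : ‖r k‖ ≤ 1 := (h.proj k).norm_le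

theorem anti' (h : Dec r) {k l : ℕ} (hkl : k ≤ l) : r l * r k = r l := by
  have := congrArg star (h.anti k l hkl)
  rwa [star_mul, h.star_eq, h.star_eq] at this

theorem mul_eq_max (h : Dec r) (k l : ℕ) : r k * r l = r (max k l) := by
  rcases le_total k l with hkl | hkl
  · rw [h.anti k l hkl, max_eq_right hkl]
  · rw [h.anti' hkl, max_eq_left hkl]

theorem sub_proj (h : Dec r) {k l : ℕ} (hkl : k ≤ l) : IsStarProjection (r k - r l) :=
  (h.proj l).sub_of_mul_eq_right (h.proj k) (h.anti k l hkl)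

theorem norm_mul_le (h : Dec r) (k : ℕ) (x : R) : ‖r k * x‖ ≤ ‖x‖ :=
  (_root_.norm_mul_le _ _).trans (mul_le_of_le_one_left (norm_nonneg _) (h.norm_le k))

theorem norm_mul_le' (h : Dec r) (k : ℕ) (x : R) : ‖x * r k‖ ≤ ‖x‖ :=
  (_root_.norm_mul_le _ _).trans (mul_le_of_le_one_right (norm_nonneg _) (h.norm_le k))

end Dec

theorem norm_compress_le (hs : Dec s) (ht : Dec t) (x : R) (k l : ℕ) : ‖s k * x * t l‖ ≤ ‖x‖ :=
  (ht.norm_mul_le' l _).trans (hs.norm_mul_le k x)

theorem norm_compress_anti (hs : Dec s) (ht : Dec t) (x : R) {k l k' l' : ℕ} (hk : k ≤ k')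
    (hl : l ≤ l') : ‖s k' * x * t l'‖ ≤ ‖s k * x * t l‖ := by
  have : s k' * x * t l' = s k' * (s k * x * t l) * t l' := by
    simp only [← mul_assoc, hs.anti' hk]
    rw [mul_assoc _ (t l), ht.anti l l' hl]
  rw [this]
  exact norm_compress_le hs ht _ _ _

theorem sm_iff (hs : Dec s) (ht : Dec t) {x : R} :
    Sm s x t ↔ ∀ ε : ℝ, 0 < ε → ∃ k l, ‖s k * x * t l‖ ≤ ε := by
  constructor
  · intro h ε hε
    obtain ⟨k, hk⟩ := (h.eventually (ge_mem_nhds hε)).exists
    exact ⟨k, k, hk⟩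
  · intro h
    refine Metric.tendsto_atTop.2 fun ε hε => ?_
    obtain ⟨k, l, hkl⟩ := h (ε / 2) (by positivity)
    refine ⟨max k l, fun n hn => ?_⟩
    rw [Real.dist_eq, sub_zero, abs_of_nonneg (norm_nonneg _)]
    exact ((norm_compress_anti hs ht x (le_of_max_le_left hn) (le_of_max_le_right hn)).trans
      hkl).trans_lt (by linarith)

theorem Sm.eventually_le {x : R} (h : Sm s x t) {ε : ℝ} (hε : 0 < ε) :
    ∀ᶠ k in atTop, ‖s k * x * t k‖ ≤ ε := h.eventually (ge_mem_nhds hε)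

theorem exists_lower_of_not_sm (hs : Dec s) (ht : Dec t) {x : R} (h : ¬ Sm s x t) :
    ∃ δ : ℝ, 0 < δ ∧ ∀ k l, δ < ‖s k * x * t l‖ := by
  rw [sm_iff hs ht] at h
  push Not at h
  exact h

theorem Sm.star' (hs : Dec s) (ht : Dec t) {x : R} (h : Sm s x t) : Sm t (star x) s := by
  refine h.congr fun k => ?_
  rw [← norm_star, star_mul, star_mul, hs.star_eq, ht.star_eq, mul_assoc]

/-- The closed submodule of small elements. -/
def smSub (s t : ℕ → R) : Submodule ℂ R where
  carrier := {x | Sm s x t}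
  zero_mem' := by simp [Sm]
  add_mem' := by
    intro x y hx hy
    refine squeeze_zero (fun _ => norm_nonneg _) (fun k => ?_) (by simpa using hx.add hy)
    rw [mul_add, add_mul]; exact norm_add_le _ _
  smul_mem' := by
    intro c x hx
    have := hx.const_mul ‖c‖
    rw [mul_zero] at this
    refine this.congr fun k => ?_
    rw [mul_smul_comm, smul_mul_assoc, norm_smul]

theorem mem_smSub {x : R} : x ∈ smSub s t ↔ Sm s x t := Iff.rfl

theorem isClosed_smSub (hs : Dec s) (ht : Dec t) : IsClosed (smSub s t : Set R) := by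
  refine isClosed_of_closure_subset fun x hx => ?_
  refine (sm_iff hs ht).2 fun ε hε => ?_
  obtain ⟨y, hy, hxy⟩ := Metric.mem_closure_iff.1 hx (ε / 2) (by positivity)
  obtain ⟨k, l, hkl⟩ := (sm_iff hs ht).1 hy (ε / 2) (by positivity)
  refine ⟨k, l, ?_⟩
  have : s k * x * t l = s k * y * t l + s k * (x - y) * t l := by noncomm_ring
  rw [this]
  refine (norm_add_le _ _).trans ?_
  have := norm_compress_le hs ht (x - y) k l
  rw [dist_eq_norm] at hxy
  linarith

theorem Adm.ne_zero (h : Adm τ r) (k : ℕ) : r k ≠ 0 := by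
  intro h0
  apply h.strict k
  rw [← h.anti k (k + 1) (Nat.le_succ k), h0, zero_mul]

theorem Adm.norm_eq (h : Adm τ r) (k : ℕ) : ‖r k‖ = 1 := by
  have h1 : ‖r k‖ * ‖r k‖ = ‖r k‖ := by
    rw [← CStarRing.norm_star_mul_self, h.star_eq, h.idem]
  exact mul_left_cancel₀ (norm_ne_zero_iff.2 (h.ne_zero k)) (by rw [h1, mul_one])

theorem Adm.norm_compress_smul (h : Adm τ r) (c : ℂ) (k l : ℕ) :
    ‖r k * (c • (1 : R)) * r l‖ = ‖c‖ := by
  rw [mul_smul_comm, smul_mul_assoc, mul_one, h.mul_eq_max, norm_smul, h.norm_eq, mul_one]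

theorem exc_iff (h : Adm τ r) {x : R} :
    Exc r x ↔ ∀ ε : ℝ, 0 < ε → ∃ k c, ‖r k * (x - (c : ℂ) • 1) * r k‖ ≤ ε := by
  constructor
  · rintro ⟨c, hc⟩ ε hε
    obtain ⟨k, hk⟩ := (hc.eventually_le hε).exists
    exact ⟨k, c, hk⟩
  · intro H
    choose k c hkc using fun n : ℕ => H (1 / ((n : ℝ) + 1)) (by positivity)
    have hd : ∀ m n, ‖c m - c n‖ ≤ 1 / ((m : ℝ) + 1) + 1 / ((n : ℝ) + 1) := by
      intro m n
      rw [← h.norm_compress_smul (c m - c n) (max (k m) (k n)) (max (k m) (k n))]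
      have : (c m - c n) • (1 : R) = (x - c n • 1) - (x - c m • 1) := by
        rw [sub_smul]; abel
      rw [this, mul_sub, sub_mul, add_comm]
      refine (norm_sub_le _ _).trans (add_le_add ?_ ?_)
      · exact (norm_compress_anti h.toDec h.toDec _ (le_max_right _ _) (le_max_right _ _)).trans
          (hkc n)
      · exact (norm_compress_anti h.toDec h.toDec _ (le_max_left _ _) (le_max_left _ _)).trans
          (hkc m)
    have hlim : Tendsto (fun n : ℕ => 1 / ((n : ℝ) + 1)) atTop (𝓝 0) :=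
      tendsto_one_div_add_atTop_nhds_zero_nat
    have hc : CauchySeq c := by
      refine cauchySeq_of_le_tendsto_0 (fun N : ℕ => 1 / ((N : ℝ) + 1) + 1 / ((N : ℝ) + 1))
        (fun n m N hn hm => ?_) (by simpa using hlim.add hlim)
      rw [dist_eq_norm]
      refine (hd n m).trans (add_le_add ?_ ?_) <;> gcongr
    obtain ⟨c₀, hc₀⟩ := cauchySeq_tendsto_of_complete hc
    refine ⟨c₀, (sm_iff h.toDec h.toDec).2 fun ε hε => ?_⟩
    have h1 := hlim.eventually (ge_mem_nhds (half_pos hε))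
    have h2 := (tendsto_iff_norm_sub_tendsto_zero.1 hc₀).eventually (ge_mem_nhds (half_pos hε))
    obtain ⟨n, hn1, hn2⟩ := (h1.and h2).exists
    refine ⟨k n, k n, ?_⟩
    have : x - c₀ • (1 : R) = (x - c n • 1) + (c n - c₀) • 1 := by rw [sub_smul]; abel
    rw [this, mul_add, add_mul]
    refine (norm_add_le _ _).trans ?_
    rw [h.norm_compress_smul]
    linarith [hkc n]

/-- The submodule of excised elements. -/
def excSub (r : ℕ → R) : Submodule ℂ R where
  carrier := {x | Exc r x}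
  zero_mem' := ⟨0, by simp [Sm]⟩
  add_mem' := by
    rintro x y ⟨c, hc⟩ ⟨d, hd⟩
    refine ⟨c + d, ?_⟩
    have := (smSub r r).add_mem hc hd
    rwa [show x - c • (1 : R) + (y - d • 1) = x + y - (c + d) • 1 by rw [add_smul]; abel] at this
  smul_mem' := by
    rintro a x ⟨c, hc⟩
    refine ⟨a * c, ?_⟩
    have := (smSub r r).smul_mem a hc
    rwa [smul_sub, smul_smul] at this

theorem mem_excSub {x : R} : x ∈ excSub r ↔ Exc r x := Iff.rfl

theorem isClosed_excSub (h : Adm τ r) : IsClosed (excSub r : Set R) := by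
  refine isClosed_of_closure_subset fun x hx => ?_
  refine (exc_iff h).2 fun ε hε => ?_
  obtain ⟨y, hy, hxy⟩ := Metric.mem_closure_iff.1 hx (ε / 2) (by positivity)
  obtain ⟨k, c, hk⟩ := (exc_iff h).1 hy (ε / 2) (by positivity)
  refine ⟨k, c, ?_⟩
  have : r k * (x - c • 1) * r k = r k * (y - c • 1) * r k + r k * (x - y) * r k := by
    noncomm_ring
  rw [this]
  refine (norm_add_le _ _).trans ?_
  have := norm_compress_le h.toDec h.toDec (x - y) k k
  rw [dist_eq_norm] at hxy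
  linarith

theorem Sm.exc {x : R} (h : Sm r x r) : Exc r x := ⟨0, by simpa using h⟩

/-- The norms of compressions converge to the modulus of the excision scalar. -/
theorem Sm.tendsto_norm (h : Adm τ r) {x : R} {c : ℂ} (hc : Sm r (x - c • 1) r) :
    Tendsto (fun k => ‖r k * x * r k‖) atTop (𝓝 ‖c‖) := by
  rw [tendsto_iff_norm_sub_tendsto_zero]
  refine squeeze_zero (fun _ => norm_nonneg _) (fun k => ?_) hc
  rw [← h.norm_compress_smul c k k, mul_sub, sub_mul]
  exact abs_norm_sub_norm_le _ _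

theorem Adm.tr_ne_zero (hτ : IsFT τ) (h : Adm τ r) (k : ℕ) : τ (r k) ≠ 0 := by
  intro h0
  apply h.ne_zero k
  apply hτ.faithful
  rwa [h.star_eq, h.idem]

theorem norm_ratio_sub_le (hτ : IsFT τ) {p : R} (hp : IsStarProjection p) (hp0 : τ p ≠ 0)
    (x : R) (c : ℂ) : ‖τ (p * x) / τ p - c‖ ≤ ‖p * (x - c • 1) * p‖ := by
  have h1 := hτ.norm_proj_mul_le hp (x - c • 1)
  have h2 : τ (p * x) / τ p - c = τ (p * (x - c • 1)) / τ p := by
    rw [mul_sub, map_sub, mul_smul_comm, mul_one, map_smul, smul_eq_mul]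
    field_simp
  rw [h2, norm_div, div_le_iff₀ (norm_pos_iff.2 hp0)]
  exact h1

theorem Sm.tendsto_ratio (hτ : IsFT τ) (h : Adm τ r) {x : R} {c : ℂ} (hc : Sm r (x - c • 1) r) :
    Tendsto (fun k => τ (r k * x) / τ (r k)) atTop (𝓝 c) := by
  rw [tendsto_iff_norm_sub_tendsto_zero]
  exact squeeze_zero (fun _ => norm_nonneg _)
    (fun k => norm_ratio_sub_le hτ (h.proj k) (h.tr_ne_zero hτ k) x c) hc

theorem Sm.scalar_nonneg (hτ : IsFT τ) (h : Adm τ r) {y : R} {c : ℂ}
    (hc : Sm r (star y * y - c • 1) r) : 0 ≤ c := by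
  refine ge_of_tendsto' (hc.tendsto_ratio hτ h) fun k => ?_
  have h1 : τ (r k * (star y * y)) = τ (star (y * r k) * (y * r k)) := by
    rw [star_mul, h.star_eq, ← mul_assoc, ← mul_assoc, hτ.comm _ (r k), ← mul_assoc,
      ← mul_assoc, h.idem]
  rw [h1, ← hτ.ofReal_n2, ← hτ.ofReal_norm_proj (h.proj k), ← Complex.ofReal_div]
  exact Complex.zero_le_real.2 (div_nonneg (hτ.n2_nonneg _) (norm_nonneg _))

theorem Sm.of_ker (hτ : IsFT τ) (h : Adm τ r) {x : R} (hx : Exc r x) (hk : x ∈ Ker τ r) :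
    Sm r x r := by
  obtain ⟨c, hc⟩ := hx
  have h1 := hc.tendsto_ratio hτ h
  have h2 : c = 0 := by
    refine tendsto_nhds_unique h1 ?_
    simp only [hk _, zero_div]
    exact tendsto_const_nhds
  simpa [h2] using hc

theorem norm_sq_eq_compress (h : Dec r) (y : R) (k : ℕ) :
    ‖r k * (star y * y) * r k‖ = ‖y * r k‖ ^ 2 := by
  rw [sq, ← CStarRing.norm_star_mul_self, star_mul, h.star_eq]
  simp only [mul_assoc]

/-- Transitivity of non-orthogonality. -/
theorem sm_trans (hτ : IsFT τ) {B : StarSubalgebra ℂ R} (hs : Dec s) (hr : Adm τ r) (ht : Dec t)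
    (hsB : ∀ k, s k ∈ B) (hrB : ∀ k, r k ∈ B) (hexc : ∀ x ∈ B, Exc r x)
    (hst : ∀ x ∈ B, Sm s x t) {b c : R} (hb : b ∈ B) (hc : c ∈ B) (hn : ¬ Sm s b r) :
    Sm r c t := by
  obtain ⟨δ, hδ, hδ'⟩ := exists_lower_of_not_sm hs hr.toDec hn
  have hx : ∀ m, star b * s m * b ∈ B := fun m => mul_mem (mul_mem (star_mem hb) (hsB m)) hb
  choose γ hγ using fun m => hexc _ (hx m)
  have hsq : ∀ {p : R}, IsStarProjection p → star b * p * b = star (p * b) * (p * b) := by
    intro p hp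
    rw [star_mul, hp.isSelfAdjoint.star_eq, mul_assoc (star b) p (p * b), ← mul_assoc p p,
      hp.isIdempotentElem.eq, mul_assoc]
  have hdiff : ∀ {m k}, m ≤ k → Sm r (star ((s m - s k) * b) * ((s m - s k) * b) -
      (γ m - γ k) • 1) r := by
    intro m k hmk
    have := (smSub r r).sub_mem (hγ m) (hγ k)
    rw [← hsq (hs.sub_proj hmk)]
    rwa [show star b * s m * b - γ m • (1 : R) - (star b * s k * b - γ k • 1) =
      star b * (s m - s k) * b - (γ m - γ k) • 1 by rw [sub_smul]; noncomm_ring] at this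
  have hγ0 : ∀ m, 0 ≤ γ m := fun m =>
    Sm.scalar_nonneg hτ hr (y := s m * b) (by rw [← hsq (hs.proj m)]; exact hγ m)
  have hγle : ∀ {m k}, m ≤ k → γ k ≤ γ m := fun hmk =>
    sub_nonneg.1 (Sm.scalar_nonneg hτ hr (hdiff hmk))
  have hγδ : ∀ m, δ ^ 2 ≤ ‖γ m‖ := by
    intro m
    refine ge_of_tendsto' ((hγ m).tendsto_norm hr) fun k => ?_
    rw [hsq (hs.proj m), norm_sq_eq_compress hr.toDec]
    have := hδ' m k
    gcongr
  have hanti : Antitone fun m => (γ m).re := fun m k hmk => (hγle hmk).1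
  have hconv := tendsto_atTop_ciInf hanti ⟨0, by rintro _ ⟨m, rfl⟩; exact (hγ0 m).1⟩
  refine (sm_iff hr.toDec ht).2 fun ε hε => ?_
  set C : ℝ := ‖c‖ + 2 * ‖b‖ * ‖c‖ + ‖b‖ + 1 with hC
  have hCpos : 0 < C := by positivity
  set η : ℝ := ε * δ ^ 2 / C with hη
  have hηpos : 0 < η := by positivity
  obtain ⟨m, hm⟩ : ∃ m, ∀ k, m ≤ k → ‖γ m - γ k‖ ≤ η ^ 2 := by
    obtain ⟨m, hm⟩ := Metric.cauchySeq_iff'.1 hconv.cauchySeq (η ^ 2) (by positivity)
    refine ⟨m, fun k hk => ?_⟩
    have h1 := hm k hk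
    have h2 : γ m - γ k = (((γ m).re - (γ k).re : ℝ) : ℂ) := by
      apply Complex.ext
      · simp
      · simp [← (hγ0 m).2, ← (hγ0 k).2]
    rw [h2, Complex.norm_real, Real.norm_eq_abs, abs_sub_comm]
    exact h1.le
  obtain ⟨j, hj⟩ := ((hγ m).eventually_le hηpos).exists
  obtain ⟨k, hk, hmk⟩ := (((hst _ (mul_mem (mul_mem hb (hrB j)) hc)).eventually_le hηpos).and
    (eventually_ge_atTop m)).exists
  have h4 : ‖γ m - γ k‖ < (2 * η) ^ 2 := (hm k hmk).trans_lt (by nlinarith)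
  obtain ⟨l, hl, hjl⟩ := ((((hdiff hmk).tendsto_norm hr).eventually (gt_mem_nhds h4)).and
    (eventually_ge_atTop j)).exists
  rw [norm_sq_eq_compress hr.toDec] at hl
  have hl' : ‖r l * star b * (s m - s k)‖ ≤ 2 * η := by
    rw [← norm_star, star_mul, star_mul, star_star, hr.star_eq,
      (hs.sub_proj hmk).isSelfAdjoint.star_eq, ← mul_assoc]
    exact (pow_le_pow_iff_left₀ (norm_nonneg _) (by positivity) two_ne_zero).1 hl.le
  refine ⟨l, k, ?_⟩
  have hid : γ m • (r l * c * t k) =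
      -(r l * (r j * (star b * s m * b - γ m • 1) * r j) * (c * t k)) +
        r l * star b * (s m - s k) * (b * r j * (c * t k)) +
        r l * star b * (s k * (b * r j * c) * t k) := by
    have e1 : r l * (r j * (star b * s m * b - γ m • 1) * r j) =
        r l * (star b * s m * b) * r j - γ m • r l := by
      rw [← mul_assoc, ← mul_assoc, hr.anti' hjl, mul_sub, sub_mul, mul_smul_comm, mul_one,
        smul_mul_assoc, hr.anti' hjl]
    rw [e1, sub_mul, smul_mul_assoc]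
    noncomm_ring
  have hct : ‖c * t k‖ ≤ ‖c‖ := ht.norm_mul_le' k c
  have hbound : ‖γ m • (r l * c * t k)‖ ≤ η * C := by
    rw [hid]
    refine norm_add₃_le.trans ?_
    rw [norm_neg]
    have b1 : ‖r l * (r j * (star b * s m * b - γ m • 1) * r j) * (c * t k)‖ ≤ η * ‖c‖ :=
      (norm_mul_le _ _).trans (mul_le_mul ((hr.norm_mul_le l _).trans hj) hct (norm_nonneg _)
        hηpos.le)
    have b2 : ‖r l * star b * (s m - s k) * (b * r j * (c * t k))‖ ≤ 2 * η * (‖b‖ * ‖c‖) :=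
      (norm_mul_le _ _).trans (mul_le_mul hl' ((norm_mul_le _ _).trans
        (mul_le_mul (hr.norm_mul_le' j b) hct (norm_nonneg _) (norm_nonneg _))) (norm_nonneg _)
        (by positivity))
    have b3 : ‖r l * star b * (s k * (b * r j * c) * t k)‖ ≤ ‖b‖ * η :=
      (norm_mul_le _ _).trans (mul_le_mul ((hr.norm_mul_le l _).trans (norm_star b).le) hk
        (norm_nonneg _) (norm_nonneg _))
    rw [hC]
    nlinarith
  rw [norm_smul, hη, div_mul_cancel₀ _ hCpos.ne'] at hbound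
  have h5 := hγδ m
  have h6 : δ ^ 2 * ‖r l * c * t k‖ ≤ δ ^ 2 * ε :=
    calc _ ≤ ‖γ m‖ * ‖r l * c * t k‖ := by gcongr
      _ ≤ _ := by rw [mul_comm _ ε]; exact hbound
  exact le_of_mul_le_mul_left h6 (by positivity)

end Vale.Agent.P070
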