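import Vale.Agent.P070.PingPong

/-! Compressions of reduced words by admissible sequences tend to zero. -/

open scoped ComplexOrder InnerProductSpace
open Filter Topology

namespace Vale.Agent.P070

variable {R : Type*} [CStarAlgebra R] {τ : R →L[ℂ] ℂ}
variable {B : StarSubalgebra ℂ R} {r : Bool → ℕ → R} {u : Bool → R} {N : Bool → R → ℝ}
variable {s t : ℕ → R}

theorem tendsto_zero_of_approx {f g : ℕ → ℝ} {h : ℕ → ℕ → ℝ} (hf : ∀ k, 0 ≤ f k)
    (hg : Tendsto g atTop (𝓝 0)) (hh : ∀ m, Tendsto (h m) atTop (𝓝 0))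
    (hle : ∀ m, ∀ᶠ k in atTop, f k ≤ g m + h m k) : Tendsto f atTop (𝓝 0) := by
  refine Metric.tendsto_nhds.2 fun ε hε => ?_
  obtain ⟨m, hm⟩ := (hg.eventually (gt_mem_nhds (half_pos hε))).exists
  filter_upwards [hle m, (hh m).eventually (gt_mem_nhds (half_pos hε))] with k h1 h2
  rw [Real.dist_eq, sub_zero, abs_of_nonneg (hf k)]
  linarith

theorem PP.tendsto_one_sub (hN : PP τ B r u N) (h : Pre τ B r u) {x : ℕ → R}
    (hx : ∀ k, x k ∈ B) (hlim : Tendsto (fun k => n2 τ (x k)) atTop (𝓝 0)) (e : Bool) (m : ℕ) :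
    Tendsto (fun k => N e (x k * (1 - r e m))) atTop (𝓝 0) := by
  induction m with
  | zero =>
    refine squeeze_zero (fun _ => hN.nonneg _ _) (fun k => hN.le_norm _ _) ?_
    simp [(h.adm e).zero]
  | succ m ih =>
    have hg : Tendsto (fun k => N e (x k * gap (r e) m)) atTop (𝓝 0) := by
      have hpos : 0 < ‖τ (gap (r e) m)‖ := norm_pos_iff.2 ((h.adm e).tr_gap_ne_zero m)
      have h1 : Tendsto (fun k => √(n2 τ (x k) / ‖τ (gap (r e) m)‖)) atTop (𝓝 0) := by
        simpa using (hlim.div_const ‖τ (gap (r e) m)‖).sqrt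
      refine squeeze_zero (fun _ => hN.nonneg _ _) (fun k => ?_) h1
      refine Real.le_sqrt_of_sq_le ?_
      rw [le_div_iff₀ hpos]
      exact hN.gap_le e m _ (hx k)
    refine squeeze_zero (fun _ => hN.nonneg _ _) (fun k => ?_) (by simpa using ih.add hg)
    rw [show x k * (1 - r e (m + 1)) = x k * (1 - r e m) + x k * gap (r e) m by
      rw [gap]; noncomm_ring]
    exact hN.add_le _ _ _

theorem Adm.tendsto_n2 (hτ : IsFT τ) (hs : Adm τ s) (a : R) :
    Tendsto (fun k => n2 τ (s k * a)) atTop (𝓝 0) := by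
  refine squeeze_zero (fun _ => hτ.n2_nonneg _) (fun k => hτ.n2_mul_le' (s k) a) ?_
  simp only [hτ.n2_proj (hs.proj _)]
  simpa using hs.lim.norm.const_mul (‖a‖ ^ 2)

theorem PP.tendsto_of_sm (hN : PP τ B r u N) (hτ : IsFT τ) (h : Pre τ B r u) (hs : Adm τ s)
    (hsB : ∀ k, s k ∈ B) {a : R} (ha : a ∈ B) {e : Bool} (hsm : Sm s a (r e)) :
    Tendsto (fun k => N e (s k * a)) atTop (𝓝 0) := by
  refine tendsto_zero_of_approx (fun _ => hN.nonneg _ _) hsm
    (hN.tendsto_one_sub h (fun k => mul_mem (hsB k) ha) (hs.tendsto_n2 hτ a) e) fun m => ?_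
  filter_upwards [eventually_ge_atTop m] with k hk
  rw [show s k * a = s k * a * r e m + s k * a * (1 - r e m) by noncomm_ring]
  refine (hN.add_le _ _ _).trans (add_le_add ((hN.le_norm _ _).trans ?_) ?_)
  · exact norm_compress_anti hs.toDec (h.adm e).toDec a hk le_rfl
  · rw [show s k * a * r e m + s k * a * (1 - r e m) = s k * a by noncomm_ring]

theorem Gad.sm_letter (hτ : IsFT τ) (h : Gad τ B r u) {e e' : Bool} {a : R} (ha : a ∈ B)
    (hk : e' ≠ e → a ∈ Ker τ (r e')) : Sm (r (!e)) a (r e') := by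
  by_cases he : e' = e
  · have := h.orth (!e) a ha
    rw [Bool.not_not] at this
    rw [he]; exact this
  · have h2 : e' = !e := by cases e <;> cases e' <;> simp_all
    rw [← h2]
    exact Sm.of_ker hτ (h.adm e') (h.exc e' a ha) (hk he)

theorem Gad.sm_of_right (hτ : IsFT τ) (h : Gad τ B r u) (hs : Adm τ s) (ht : Adm τ t)
    (hsB : ∀ k, s k ∈ B) (htB : ∀ k, t k ∈ B) {e d : Bool} {w a a' : R}
    (hw : RedW τ B r u e d w) (ha : a ∈ B) (ha' : a' ∈ B) (hsm : Sm (r (!d)) a' t) :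
    Sm s (a * w * a') t := by
  have hp := h.pre hτ
  obtain ⟨N, hN⟩ := exists_pp hτ hp h.free
  have hE : ∀ {x}, x ∈ B → x ∈ Ext B u := fun hx => le_ext B u hx
  have hy : Tendsto (fun k => N (!d) (star (a' * t k))) atTop (𝓝 0) := by
    have := hN.tendsto_of_sm hτ hp ht htB (star_mem ha') (hsm.star' (h.adm _).toDec ht.toDec)
    simpa only [star_mul, ht.star_eq] using this
  have hx := hN.tendsto_one_sub hp (fun k => mul_mem (hsB k) ha) (hs.tendsto_n2 hτ a) e
  have hyn : ∀ k, ‖a' * t k‖ ≤ ‖a'‖ := fun k => ht.norm_mul_le' k a'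
  have hxn : ∀ k, ‖s k * a‖ ≤ ‖a‖ := fun k => hs.norm_mul_le k a
  have h1 : ∀ m k, ‖s k * a * (1 - r e m) * w * (a' * t k)‖ ≤
      N e (s k * a * (1 - r e m)) * ‖w‖ * ‖a'‖ + ‖a‖ * ‖w‖ * N (!d) (star (a' * t k)) := by
    intro m k
    refine (hN.word e d w hw _ (hE (mul_mem (mul_mem (hsB k) ha) (sub_mem (one_mem B)
      (h.mem e m)))) _ (hE (mul_mem ha' (htB k)))).trans ?_
    have := hN.nonneg e (s k * a * (1 - r e m))
    have := hN.nonneg (!d) (star (a' * t k))
    gcongr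
    · exact hyn k
    · exact (norm_mul_le _ _).trans ((mul_le_of_le_one_right (norm_nonneg _)
        ((h.adm e).proj m).one_sub.norm_le).trans (hxn k))
  have hlim1 : ∀ m, Tendsto (fun k => N e (s k * a * (1 - r e m)) * ‖w‖ * ‖a'‖ +
      ‖a‖ * ‖w‖ * N (!d) (star (a' * t k))) atTop (𝓝 0) := fun m => by
    simpa using (((hx m).mul_const ‖w‖).mul_const ‖a'‖).add (hy.const_mul (‖a‖ * ‖w‖))
  have hsplit : ∀ m k, ‖s k * (a * w * a') * t k‖ ≤ ‖s k * a * r e m * w * (a' * t k)‖ +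
      ‖s k * a * (1 - r e m) * w * (a' * t k)‖ := by
    intro m k
    rw [show s k * (a * w * a') * t k = s k * a * r e m * w * (a' * t k) +
      s k * a * (1 - r e m) * w * (a' * t k) by noncomm_ring]
    exact norm_add_le _ _
  have hxu : ∀ k, ‖s k * a * u e‖ ≤ ‖a‖ := fun k =>
    (norm_mul_le _ _).trans ((mul_le_of_le_one_right (norm_nonneg _) (h.norm_le e)).trans (hxn k))
  cases hw with
  | single =>
    refine tendsto_zero_of_approx (fun _ => norm_nonneg _)
      (by simpa using hsm.const_mul ‖a‖) hlim1 fun m => ?_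
    filter_upwards [eventually_ge_atTop m] with k hk
    refine (hsplit m k).trans (add_le_add ?_ (h1 m k))
    rw [show s k * a * r e m * u e * (a' * t k) = s k * a * u e * (r (!e) m * a' * t k) by
      rw [mul_assoc _ (r e m), h.uint]; simp only [mul_assoc]]
    exact (norm_mul_le _ _).trans (mul_le_mul (hxu k)
      (norm_compress_anti (h.adm _).toDec ht.toDec a' le_rfl hk) (norm_nonneg _) (norm_nonneg _))
  | @cons _ e' _ a₁ w₁ ha₁ hk₁ hw₁ =>
    have h2 := hN.tendsto_of_sm hτ hp (h.adm (!e)) (h.mem _) ha₁ (h.sm_letter hτ ha₁ hk₁)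
    refine tendsto_zero_of_approx (fun _ => norm_nonneg _)
      (g := fun m => ‖a‖ * N e' (r (!e) m * a₁) * ‖w₁‖ * ‖a'‖)
      (by simpa using ((h2.const_mul ‖a‖).mul_const ‖w₁‖).mul_const ‖a'‖)
      (fun m => by
        simpa using (hy.const_mul (‖a‖ * ‖a₁‖ * ‖w₁‖)).add (hlim1 m))
      fun m => Eventually.of_forall fun k => ?_
    refine (hsplit m k).trans ?_
    rw [← add_assoc]
    refine add_le_add ?_ (by simpa using h1 m k)
    rw [show s k * a * r e m * (u e * a₁ * w₁) * (a' * t k) =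
      s k * a * u e * (r (!e) m * a₁) * w₁ * (a' * t k) by
      simp only [← mul_assoc]; rw [mul_assoc _ (r e m), h.uint]; simp only [mul_assoc]]
    refine (hN.word e' d w₁ hw₁ _ (mul_mem (mul_mem (hE (mul_mem (hsB k) ha))
      (u_mem_ext h.toUni B e)) (hE (mul_mem (h.mem _ m) ha₁))) _
      (hE (mul_mem ha' (htB k)))).trans ?_
    have := hN.nonneg e' (r (!e) m * a₁)
    have := hN.nonneg (!d) (star (a' * t k))
    have h3 : N e' (s k * a * u e * (r (!e) m * a₁)) ≤ ‖a‖ * N e' (r (!e) m * a₁) :=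
      (hN.mul_le _ _ _).trans (by gcongr; exact hxu k)
    have h4 : ‖s k * a * u e * (r (!e) m * a₁)‖ ≤ ‖a‖ * ‖a₁‖ :=
      (norm_mul_le _ _).trans (mul_le_mul (hxu k) ((h.adm _).norm_mul_le m a₁) (norm_nonneg _)
        (norm_nonneg _))
    rw [star_mul] at *
    gcongr
    exact hyn k

theorem Gad.sm_of_left (hτ : IsFT τ) (h : Gad τ B r u) (hs : Adm τ s) (ht : Adm τ t)
    (hsB : ∀ k, s k ∈ B) (htB : ∀ k, t k ∈ B) {e d : Bool} {w a a' : R}
    (hw : RedW τ B r u e d w) (ha : a ∈ B) (ha' : a' ∈ B) (hsm : Sm s a (r e)) :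
    Sm s (a * w * a') t := by
  have h1 := hsm.star' hs.toDec (h.adm e).toDec
  have h2 := h.sm_of_right hτ ht hs htB hsB ((h.pre hτ).red_star hw) (star_mem ha') (star_mem ha)
    (by rw [Bool.not_not]; exact h1)
  have h3 := h2.star' ht.toDec hs.toDec
  simpa only [star_mul, star_star, mul_assoc] using h3

theorem Gad.sm_wset (hτ : IsFT τ) (h : Gad τ B r u) (hs : Adm τ s) (ht : Adm τ t)
    (hsB : ∀ k, s k ∈ B) (htB : ∀ k, t k ∈ B)
    (hx : ∀ e, (∀ a ∈ B, Sm s a (r e)) ∨ (∀ a ∈ B, Sm (r (!e)) a t)) {x : R}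
    (hxw : x ∈ WSet τ B r u) : Sm s x t := by
  obtain ⟨e, d, w, a, a', hw, ha, ha', rfl⟩ := hxw
  have hw' := hw
  cases hw with
  | single =>
    rcases hx e with hx | hx
    · exact h.sm_of_left hτ hs ht hsB htB hw' ha ha' (hx a ha)
    · exact h.sm_of_right hτ hs ht hsB htB hw' ha ha' (hx a' ha')
  | @cons _ e' _ a₁ w₁ ha₁ hk₁ hw₁ =>
    have h1 := h.sm_of_left hτ (h.adm (!e)) ht (h.mem _) htB hw₁ ha₁ ha' (h.sm_letter hτ ha₁ hk₁)
    have h2 : ∀ m, Sm s (a * (1 - r e m) * (u e * a₁ * w₁) * a') t := by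
      intro m
      refine h.sm_of_left hτ hs ht hsB htB hw' (mul_mem ha (sub_mem (one_mem B) (h.mem e m))) ha'
        ((sm_iff hs.toDec (h.adm e).toDec).2 fun ε hε => ⟨m, m, ?_⟩)
      rw [mul_assoc, mul_assoc, ((h.adm e).proj m).one_sub_mul_self]
      simpa using hε.le
    refine tendsto_zero_of_approx (fun _ => norm_nonneg _)
      (by simpa using h1.const_mul ‖a‖) h2 fun m => ?_
    filter_upwards [eventually_ge_atTop m] with k hk
    rw [show s k * (a * (u e * a₁ * w₁) * a') * t k =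
      s k * a * (r e m * u e) * (a₁ * w₁ * a') * t k +
        s k * (a * (1 - r e m) * (u e * a₁ * w₁) * a') * t k by noncomm_ring, h.uint]
    refine (norm_add_le _ _).trans (add_le_add ?_ le_rfl)
    rw [show s k * a * (u e * r (!e) m) * (a₁ * w₁ * a') * t k =
      s k * a * u e * (r (!e) m * (a₁ * w₁ * a') * t k) by simp only [mul_assoc]]
    refine (norm_mul_le _ _).trans (mul_le_mul ?_
      (norm_compress_anti (h.adm _).toDec ht.toDec _ le_rfl hk) (norm_nonneg _) (norm_nonneg _))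
    exact (norm_mul_le _ _).trans ((mul_le_of_le_one_right (norm_nonneg _) (h.norm_le e)).trans
      (hs.norm_mul_le k a))

theorem Gad.sm_self_wset (hτ : IsFT τ) (h : Gad τ B r u) (hs : Adm τ s) (hsB : ∀ k, s k ∈ B)
    (hexc : ∀ x ∈ B, Exc s x) {x : R} (hxw : x ∈ WSet τ B r u) : Sm s x s := by
  refine h.sm_wset hτ hs hs hsB hsB (fun e => ?_) hxw
  by_cases h1 : ∀ a ∈ B, Sm s a (r e)
  · exact Or.inl h1
  · push Not at h1
    obtain ⟨a, ha, hn⟩ := h1
    refine Or.inr fun a' ha' => ?_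
    have h2 : ¬ Sm (r e) (star a) s := fun h2 =>
      hn (by simpa using h2.star' (h.adm e).toDec hs.toDec)
    have h3 := sm_trans hτ (h.adm e).toDec hs (h.adm (!e)).toDec (h.mem e) hsB hexc (h.orth e)
      (star_mem ha) (star_mem ha') h2
    simpa using h3.star' hs.toDec (h.adm _).toDec

theorem Gad.exc_ext (hτ : IsFT τ) (h : Gad τ B r u) (hs : Adm τ s) (hsB : ∀ k, s k ∈ B)
    (hexc : ∀ x ∈ B, Exc s x) {x : R} (hx : x ∈ Ext B u) : Exc s x :=
  (h.pre hτ).ext_induction (M := excSub s) (isClosed_excSub hs) hexc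
    (fun _ hy => (h.sm_self_wset hτ hs hsB hexc hy).exc) hx

theorem Gad.orth_ext (hτ : IsFT τ) (h : Gad τ B r u) (hs : Adm τ s) (ht : Adm τ t)
    (hsB : ∀ k, s k ∈ B) (htB : ∀ k, t k ∈ B) (hst : ∀ x ∈ B, Sm s x t)
    (hx : ∀ e, (∀ a ∈ B, Sm s a (r e)) ∨ (∀ a ∈ B, Sm (r (!e)) a t)) {x : R}
    (hxe : x ∈ Ext B u) : Sm s x t :=
  (h.pre hτ).ext_induction (M := smSub s t) (isClosed_smSub hs.toDec ht.toDec) hst
    (fun _ hy => h.sm_wset hτ hs ht hsB htB hx hy) hxe

end Vale.Agent.P070
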