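import Vale.Agent.P070.Words

/-! A free extension of a trace is a trace. -/

open scoped ComplexOrder InnerProductSpace
open Filter Topology

namespace Vale.Agent.P070

variable {R : Type*} [CStarAlgebra R] {τ : R →L[ℂ] ℂ}

theorem Red.snoc {L : Set R} {K : Bool → Set R} {u : Bool → R} {e e' d : Bool} {a w : R}
    (hw : Red L K u e' d w) (ha : a ∈ L) (hk : e' ≠ e → a ∈ K e') :
    ∃ d' w' a', Red L K u e d' w' ∧ a' ∈ L ∧ (d ≠ d' → a' ∈ K d) ∧
      u e * a * w = w' * a' * u d := by
  induction hw generalizing e a with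
  | single e₁ => exact ⟨e, u e, a, .single e, ha, hk, rfl⟩
  | @cons e₁ e₂ d₁ a₁ w₁ ha₁ hk₁ _ ih =>
    obtain ⟨d', w', a', hw', ha', hk', heq⟩ := ih ha₁ hk₁
    exact ⟨d', u e * a * w', a', .cons ha hk hw', ha', hk', by rw [heq]; simp only [mul_assoc]⟩

variable {B : StarSubalgebra ℂ R} {r : Bool → ℕ → R} {u : Bool → R}

namespace Pre

theorem tr_u_comm_wset (h : Pre τ B r u) (hf : Free τ B r u) (e : Bool) {y : R}
    (hy : y ∈ WSet τ B r u) : τ (u e * y) = τ (y * u e) := by
  obtain ⟨e₁, d, w, a, a', hw, ha, ha', rfl⟩ := hy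
  have hL : ∀ {b}, b ∈ B → (e₁ ≠ e → b ∈ Ker τ (r e₁)) → τ (u e * b * w * a') = 0 :=
    fun hb hk => hf _ (RedW.mem_wset_right (Red.cons hb hk hw) ha')
  have hR : ∀ {b}, b ∈ B → (e ≠ d → b ∈ Ker τ (r e)) → τ (a * w * b * u e) = 0 := by
    intro b hb hk
    have := hf _ (RedW.mem_wset (Red.append hw (Red.single e) hb hk) ha (one_mem B))
    simpa only [mul_one, mul_assoc] using this
  obtain ⟨g, hg, hk⟩ := h.dec e₁ a ha
  obtain ⟨g', hg', hk'⟩ := h.dec e a' ha'
  have hL' : τ (u e * (a * w * a')) = τ (u e * g * w * a') := by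
    rw [show u e * (a * w * a') = u e * (a - g) * w * a' + u e * g * w * a' by noncomm_ring,
      map_add, hL (sub_mem ha (h.D_mem hg)) (fun _ => hk), zero_add]
  have hR' : τ (a * w * a' * u e) = τ (a * w * g' * u e) := by
    rw [show a * w * a' * u e = a * w * (a' - g') * u e + a * w * g' * u e by noncomm_ring,
      map_add, hR (sub_mem ha' (h.D_mem hg')) (fun _ => hk'), zero_add]
  rw [hL', hR']
  cases hw with
  | single =>
    by_cases he : e₁ = e
    · rw [hL (h.D_mem hg) (fun hne => absurd he hne), hR (h.D_mem hg') (fun hne => absurd he.symm hne)]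
    · have h2 : e₁ = !e := by cases e <;> cases e₁ <;> simp_all
      subst h2
      have hθ := h.conj_mem hg
      rw [Bool.not_not] at hθ
      have hθ' := h.conj_mem hg'
      have e1 : τ (u e * g * u (!e) * a') = τ (u e * g * u (!e) * g') := by
        have := h.tr_ker (ker_mul_left (h.adm e).toDec hθ hk')
        rwa [mul_sub, map_sub, sub_eq_zero] at this
      have e2 : τ (a * u (!e) * g' * u e) = τ (g * (u (!e) * g' * u e)) := by
        have := h.tr_ker (h.ker_mul_right hθ' (sub_mem ha (h.D_mem hg)) hk)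
        rw [sub_mul, map_sub, sub_eq_zero] at this
        simpa only [mul_assoc] using this
      rw [e1, e2, ← h.tr_conj_B hf e (mul_mem (h.D_mem hg) (h.D_mem hθ'))]
      congr 1
      simp only [mul_assoc, h.uunit, mul_one]
  | @cons _ e₂ _ a₁ w₁ ha₁ hk₁ hw₁ =>
    have e1 : τ (u e * g * (u e₁ * a₁ * w₁) * a') = 0 := by
      by_cases he : e₁ = e
      · exact hL (h.D_mem hg) (fun hne => absurd he hne)
      · have h2 : e = !e₁ := by cases e <;> cases e₁ <;> simp_all
        have hθ := h.D_mem (h.conj_mem hg)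
        rw [← h2] at hθ
        have := hf _ (RedW.mem_wset hw₁ (mul_mem hθ ha₁) ha')
        simpa only [mul_assoc] using this
    rw [e1]
    by_cases hd : e = d
    · exact (hR (h.D_mem hg') (fun hne => absurd hd hne)).symm
    · have h2 : d = !e := by cases e <;> cases d <;> simp_all
      obtain ⟨d', w', a₂, hw', ha₂, -, heq⟩ := Red.snoc hw₁ ha₁ hk₁
      have hθ := h.D_mem (h.conj_mem hg')
      rw [← h2] at hθ
      have := hf _ (RedW.mem_wset hw' ha (mul_mem ha₂ hθ))
      rw [heq, ← this]
      simp only [mul_assoc]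

theorem tracial (h : Pre τ B r u) (hf : Free τ B r u) {x y : R}
    (hx : x ∈ StarAlgebra.adjoin ℂ (insert (u true) (B : Set R)))
    (hy : y ∈ StarAlgebra.adjoin ℂ (insert (u true) (B : Set R))) : τ (x * y) = τ (y * x) := by
  set C := StarAlgebra.adjoin ℂ (insert (u true) (B : Set R)) with hC
  have key : ∀ g : R, (∀ y ∈ (B : Set R) ∪ WSet τ B r u, τ (g * y) = τ (y * g)) →
      ∀ y ∈ C, τ (g * y) = τ (y * g) := by
    intro g hg y hy
    have hy' := h.adjoin_subset_span hy
    clear hy
    induction hy' using Submodule.span_induction with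
    | mem y hy => exact hg y hy
    | zero => simp
    | add y z _ _ h1 h2 => rw [mul_add, add_mul, map_add, map_add, h1, h2]
    | smul c y _ h1 => rw [mul_smul_comm, smul_mul_assoc, map_smul, map_smul, h1]
  have hB : ∀ g ∈ B, ∀ y ∈ C, τ (g * y) = τ (y * g) := fun g hg => key g (by
    rintro y (hy | hy)
    · exact h.comm g hg y hy
    · have h1 := hf _ (wset_mul_mem hy hg (one_mem B))
      have h2 := hf _ (wset_mul_mem hy (one_mem B) hg)
      rw [mul_one] at h1
      rw [one_mul] at h2
      rw [h1, h2])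
  have hu : ∀ e, ∀ y ∈ C, τ (u e * y) = τ (y * u e) := fun e => key _ (by
    rintro y (hy | hy)
    · have h1 := hf _ (RedW.mem_wset_right (Red.single e) hy)
      have h2 := hf _ (RedW.mem_wset (Red.single e) hy (one_mem B))
      rw [mul_one] at h2
      rw [h1, h2]
    · exact h.tr_u_comm_wset hf e hy)
  have main : (∀ y ∈ C, τ (x * y) = τ (y * x)) ∧ ∀ y ∈ C, τ (star x * y) = τ (y * star x) := by
    clear hy
    induction hx using StarAlgebra.adjoin_induction with
    | mem x hx =>
      rcases hx with rfl | hx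
      · exact ⟨hu true, by rw [h.ustar]; exact hu _⟩
      · exact ⟨hB x hx, hB _ (star_mem hx)⟩
    | algebraMap c => exact ⟨hB _ (algebraMap_mem B c), hB _ (star_mem (algebraMap_mem B c))⟩
    | add x y _ _ hx hy =>
      exact ⟨fun z hz => by rw [add_mul, mul_add, map_add, map_add, hx.1 z hz, hy.1 z hz],
        fun z hz => by
          rw [star_add, add_mul, mul_add, map_add, map_add, hx.2 z hz, hy.2 z hz]⟩
    | mul x y hx' hy' hx hy =>
      refine ⟨fun z hz => ?_, fun z hz => ?_⟩
      · rw [mul_assoc, hx.1 _ (mul_mem hy' hz), mul_assoc, hy.1 _ (mul_mem hz hx'), mul_assoc]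
      · rw [star_mul, mul_assoc, hy.2 _ (mul_mem (star_mem hx') hz), mul_assoc,
          hx.2 _ (mul_mem hz (star_mem hy')), mul_assoc]
    | star x _ hx => exact ⟨hx.2, by rw [star_star]; exact hx.1⟩
  exact main.1 y hy

end Pre

end Vale.Agent.P070
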