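import Vale.Agent.P070.Graph
import Vale.Agent.P070.Tracial
import Vale.Agent.P070.HNN

/-! One stage of the transfinite construction. -/

open scoped ComplexOrder InnerProductSpace
open Filter Topology Set

namespace Vale.Agent.P070

variable {I : Type}

/-- The free group on the Pauli generators and the stage generators. -/
abbrev FG (I : Type) : Type := FreeGroup (PV ⊕ I)

/-- The subgroup generated by the Pauli generators and the stage generators in `S`. -/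
def sub (S : Set I) : Subgroup (FG I) :=
  Subgroup.closure (FreeGroup.of '' {x | ∀ β, x = Sum.inr β → β ∈ S})

/-- Names for pairs of sequences in a model. -/
abbrev Name (I : Type) : Type := Bool → ℕ → ℕ → (FG I →₀ ℂ)

/-- The generator of stage `α`. -/
def gen (α : I) : FG I := FreeGroup.of (Sum.inr α)

/-- The unitary of stage `α` and its adjoint. -/
noncomputable def uu (M : Model (FG I)) (α : I) : Bool → M.R :=
  fun e => cond e (M.π (gen α)) (M.π (gen α)⁻¹)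

/-- The name only involves generators in `S`. -/
def Supp (x : Name I) (S : Set I) : Prop := ∀ e k m, ∀ g ∈ (x e k m).support, g ∈ sub S

/-- The name `x` converges to `r`. -/
def Names (M : Model (FG I)) (x : Name I) (r : Bool → ℕ → M.R) : Prop :=
  ∀ e k, Tendsto (fun m => Finsupp.linearCombination ℂ M.π (x e k m)) atTop (𝓝 (r e k))

theorem sub_mono {S T : Set I} (h : S ⊆ T) : sub S ≤ sub T :=
  Subgroup.closure_mono (image_mono fun _ hx β hβ => h (hx β hβ))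

theorem gen_mem {S : Set I} {α : I} (h : α ∈ S) : gen α ∈ sub S :=
  Subgroup.subset_closure ⟨_, fun β hβ => by cases hβ; exact h, rfl⟩

theorem inl_mem (S : Set I) (v : PV) : FreeGroup.of (Sum.inl v) ∈ sub S :=
  Subgroup.subset_closure ⟨_, fun _ hβ => absurd hβ Sum.inl_ne_inr, rfl⟩

theorem sub_induction {S : Set I} {P : FG I → Prop} (h1 : P 1)
    (hl : ∀ v, P (FreeGroup.of (Sum.inl v))) (hr : ∀ β ∈ S, P (gen β))
    (hmul : ∀ g h, P g → P h → P (g * h)) (hinv : ∀ g, P g → P g⁻¹) {g : FG I} (hg : g ∈ sub S) :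
    P g := by
  induction hg using Subgroup.closure_induction with
  | mem x hx =>
    obtain ⟨y, hy, rfl⟩ := hx
    cases y with
    | inl v => exact hl v
    | inr β => exact hr β (hy β rfl)
  | one => exact h1
  | mul x y _ _ hx hy => exact hmul x y hx hy
  | inv x _ hx => exact hinv x hx

theorem mem_sub_univ (g : FG I) : g ∈ sub (univ : Set I) := by
  have : sub (univ : Set I) = ⊤ := by
    rw [sub, ← FreeGroup.closure_range_of]
    congr 1
    simp
  rw [this]; trivial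

theorem lc_mem {R : Type*} [CStarAlgebra R] (ρ : FG I →* R) {S : Set I} {x : FG I →₀ ℂ}
    (hx : ∀ g ∈ x.support, g ∈ sub S) : Finsupp.linearCombination ℂ ρ x ∈ galg ρ (sub S) := by
  rw [Finsupp.linearCombination_apply, Finsupp.sum]
  exact sum_mem fun g hg => SMulMemClass.smul_mem _ (mem_galg ρ (hx g hg))

theorem lc_prod {R₁ R₂ : Type*} [CStarAlgebra R₁] [CStarAlgebra R₂] (ρ₁ : FG I →* R₁)
    (ρ₂ : FG I →* R₂) (x : FG I →₀ ℂ) : Finsupp.linearCombination ℂ (ρ₁.prod ρ₂) x =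
      (Finsupp.linearCombination ℂ ρ₁ x, Finsupp.linearCombination ℂ ρ₂ x) := by
  simp only [Finsupp.linearCombination_apply, Finsupp.sum]
  ext <;> simp [Prod.fst_sum, Prod.snd_sum]

theorem uu_ustar (M : Model (FG I)) (α : I) (e : Bool) : star (uu M α e) = uu M α (!e) := by
  cases e <;> simp [uu, M.star_π]

theorem uu_uunit (M : Model (FG I)) (α : I) (e : Bool) : uu M α e * uu M α (!e) = 1 := by
  cases e <;> simp [uu, ← map_mul]

variable [LinearOrder I]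

/-- The name `x` converges to a pair satisfying the gadget hypotheses below `α`. -/
def CondN (M : Model (FG I)) (x : Name I) (α : I) (r : Bool → ℕ → M.R) : Prop :=
  Supp x (Iio α) ∧ Names M x r ∧ Cond M.τ (galg M.π (sub (Iio α))) r

/-- Stage `α` is correct in the model `M`. -/
def Good₀ (N : I → Name I) (α : I) (M : Model (FG I)) : Prop :=
  (∃ r, CondN M (N α) α r ∧ Gad M.τ (galg M.π (sub (Iio α))) r (uu M α)) ∨
    ((¬ ∃ r, CondN M (N α) α r) ∧ M.π (gen α) = 1)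

/-- Stage `α` is correct in every model of `χ` up to stage `α`. -/
def Good (N : I → Name I) (α : I) (χ : FG I → ℂ) : Prop :=
  ∀ M : Model (FG I), (∀ g ∈ sub (Iic α), M.τ (M.π g) = χ g) → Good₀ N α M

theorem Good.congr {N : I → Name I} {α : I} {χ χ' : FG I → ℂ} (h : Good N α χ)
    (he : ∀ g ∈ sub (Iic α), χ g = χ' g) : Good N α χ' :=
  fun M hM => h M fun g hg => (hM g hg).trans (he g hg).symm

theorem CondN.transfer {M₁ M₂ : Model (FG I)} {x : Name I} {α : I} {r₁ : Bool → ℕ → M₁.R}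
    (h : ∀ g ∈ sub (Iio α), M₁.τ (M₁.π g) = M₂.τ (M₂.π g)) (hc : CondN M₁ x α r₁) :
    ∃ r₂, CondN M₂ x α r₂ ∧ ∀ e k, (r₁ e k, r₂ e k) ∈ galg (M₁.π.prod M₂.π) (sub (Iio α)) := by
  have hrel := graph_rel M₁.ft M₂.ft M₁.star_π M₂.star_π h
  choose r₂ hr₂ using fun e k => hrel.tot₁ _ (hc.2.2.mem e k)
  refine ⟨r₂, ⟨hc.1, fun e k => ?_, hrel.cond hr₂ hc.2.2⟩, hr₂⟩
  rw [tendsto_iff_norm_sub_tendsto_zero]
  refine (tendsto_iff_norm_sub_tendsto_zero.1 (hc.2.1 e k)).congr fun m => ?_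
  have h1 := lc_mem (M₁.π.prod M₂.π) (hc.1 e k m)
  rw [lc_prod] at h1
  exact hrel.norm_eq _ (sub_mem h1 (hr₂ e k))

theorem exists_step_inact (N : I → Name I) (α : I) {χ : FG I → ℂ} (M₁ : Model (FG I))
    (hM₁ : ∀ g, M₁.τ (M₁.π g) = χ g) (hn : ¬ ∃ r, CondN M₁ (N α) α r) :
    ∃ χ', IsChar χ' ∧ (∀ g ∈ sub (Iio α), χ' g = χ g) ∧ Good N α χ' := by
  classical
  let κ : FG I →* FG I := FreeGroup.lift fun x => if x = Sum.inr α then 1 else FreeGroup.of x
  have hκ : ∀ g ∈ sub (Iio α), κ g = g := fun g hg =>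
    sub_induction (P := fun g => κ g = g) (map_one κ) (fun v => by simp [κ])
      (fun β hβ => by simp [κ, gen, (mem_Iio.1 hβ).ne])
      (fun g h hg hh => by rw [map_mul, hg, hh]) (fun g hg => by rw [map_inv, hg]) hg
  have hκα : κ (gen α) = 1 := by simp [κ, gen]
  obtain ⟨H, _, _, _, Ω, ι, hι, -⟩ := M₁.ft.exists_gns
  let ρ : FG I →* (H →L[ℂ] H) := (ι : M₁.R →* (H →L[ℂ] H)).comp (M₁.π.comp κ)
  have hρ : ∀ g, ρ g = ι (M₁.π (κ g)) := fun g => rfl
  have hΩ : ‖Ω‖ = 1 := by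
    have := gns_norm_sq hι 1
    rw [map_one, one_apply_eq_self, n2, star_one, one_mul, M₁.ft.map_one] at this
    exact (pow_eq_one_iff_of_nonneg (norm_nonneg _) two_ne_zero).1 this
  have hch := isChar_of_rep ρ (fun g => by rw [hρ, hρ, ← map_star, M₁.star_π, map_inv κ]) Ω hΩ
    (fun g h => by simp only [hρ, hι, map_mul κ, map_mul M₁.π, M₁.ft.comm (M₁.π (κ g))])
  refine ⟨_, hch, fun g hg => by simp only [hρ, hι, hκ g hg, hM₁], fun M₂ hM₂ => ?_⟩
  replace hM₂ : ∀ g ∈ sub (Iic α), M₂.τ (M₂.π g) = ⟪Ω, ρ g Ω⟫_ℂ := hM₂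
  refine Or.inr ⟨?_, ?_⟩
  · rintro ⟨r₂, hr₂⟩
    obtain ⟨r₁, hr₁, -⟩ := hr₂.transfer (M₂ := M₁) fun g hg => by
      rw [hM₂ g (sub_mono Iio_subset_Iic_self hg), hρ, hι, hκ g hg]
    exact hn ⟨r₁, hr₁⟩
  · have h1 : M₂.τ (M₂.π (gen α)) = 1 := by
      rw [hM₂ _ (gen_mem (mem_Iic.2 le_rfl)), hρ, hι, hκα, map_one, M₁.ft.map_one]
    have h2 : M₂.τ (star (M₂.π (gen α))) = 1 := by rw [M₂.ft.map_star, h1, star_one]
    rw [← sub_eq_zero]
    refine M₂.ft.faithful _ ?_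
    rw [star_sub, star_one, sub_mul, mul_sub, mul_sub, mul_one, one_mul, one_mul, map_sub, map_sub,
      map_sub, h1, h2, M₂.star_π, ← map_mul, inv_mul_cancel, map_one, M₂.ft.map_one]
    simp

theorem exists_step_act (N : I → Name I) (α : I) {χ : FG I → ℂ} (M₁ : Model (FG I))
    (hM₁ : ∀ g, M₁.τ (M₁.π g) = χ g) {r₁ : Bool → ℕ → M₁.R} (hr₁ : CondN M₁ (N α) α r₁) :
    ∃ χ', IsChar χ' ∧ (∀ g ∈ sub (Iio α), χ' g = χ g) ∧ Good N α χ' := by
  classical
  have hc := hr₁.2.2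
  obtain ⟨H, _, _, _, Ω, π, u, htr, hpre, hfree⟩ := exists_hnn M₁.ft (isClosed_galg _ _) hc.adm
    hc.mem hc.tr_eq (fun e a ha => exists_dec M₁.ft (hc.adm e) (hc.exc e a ha))
  set B₁ := galg M₁.π (sub (Iio α)) with hB₁
  have hun : ∀ g, π (M₁.π g) ∈ unitary (H →L[ℂ] H) := fun g => by
    constructor <;> rw [← map_star, ← map_mul, M₁.star_π, ← map_mul] <;> simp
  have huu : u true ∈ unitary (H →L[ℂ] H) :=
    ⟨by rw [hpre.ustar]; exact hpre.uunit' true, by rw [hpre.ustar]; exact hpre.uunit true⟩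
  let ρ₀ : FG I →* unitary (H →L[ℂ] H) := FreeGroup.lift fun x =>
    if x = Sum.inr α then ⟨u true, huu⟩
    else if ∀ β, x = Sum.inr β → β < α then ⟨_, hun (FreeGroup.of x)⟩ else 1
  let ρ : FG I →* (H →L[ℂ] H) := (unitary (H →L[ℂ] H)).subtype.comp ρ₀
  have hρs : ∀ g, star (ρ g) = ρ g⁻¹ := fun g => by
    change star (ρ₀ g : H →L[ℂ] H) = (ρ₀ g⁻¹ : H →L[ℂ] H)
    rw [map_inv, ← Unitary.star_eq_inv, Unitary.coe_star]
  have hρα : ρ (gen α) = u true := by simp [ρ, ρ₀, gen]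
  have hρl : ∀ v, ρ (FreeGroup.of (Sum.inl v)) = π (M₁.π (FreeGroup.of (Sum.inl v))) :=
    fun v => by simp [ρ, ρ₀]
  have hρr : ∀ β, β < α → ρ (gen β) = π (M₁.π (gen β)) := fun β hβ => by
    simp [ρ, ρ₀, gen, hβ.ne, hβ]
  have hρ : ∀ g ∈ sub (Iio α), ρ g = π (M₁.π g) := fun g hg =>
    sub_induction (P := fun g => ρ g = π (M₁.π g)) (by simp) hρl hρr
      (fun g h hg hh => by rw [map_mul, map_mul, map_mul, hg, hh])
      (fun g hg => by rw [← hρs, hg, ← map_star, M₁.star_π]) hg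
  have hadj : ∀ g, ρ g ∈ StarAlgebra.adjoin ℂ (insert (u true) (B₁.map π : Set (H →L[ℂ] H))) := by
    intro g
    have hB : ∀ g ∈ sub (Iio α),
        ρ g ∈ StarAlgebra.adjoin ℂ (insert (u true) (B₁.map π : Set (H →L[ℂ] H))) := fun g hg =>
      StarAlgebra.subset_adjoin ℂ _ (Or.inr ⟨_, mem_galg M₁.π hg, (hρ g hg).symm⟩)
    refine sub_induction (P := fun g => ρ g ∈ StarAlgebra.adjoin ℂ
      (insert (u true) (B₁.map π : Set (H →L[ℂ] H)))) (by simp) (fun v => hB _ (inl_mem _ v))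
      (fun β _ => ?_) (fun g h hg hh => by rw [map_mul]; exact mul_mem hg hh)
      (fun g hg => by rw [← hρs]; exact star_mem hg) (mem_sub_univ g)
    rcases lt_trichotomy β α with hβ | hβ | hβ
    · exact hB _ (gen_mem hβ)
    · rw [hβ, hρα]; exact StarAlgebra.subset_adjoin ℂ _ (Or.inl rfl)
    · have : ρ (gen β) = 1 := by simp [ρ, ρ₀, gen, hβ.ne', hβ.not_gt]
      rw [this]; exact one_mem _
  have hΩ : ‖Ω‖ = 1 := by
    have := htr 1
    rw [map_one, M₁.ft.map_one, vs_apply, one_apply_eq_self, inner_self_eq_norm_sq_to_K] at this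
    have h2 := congrArg norm this
    rw [norm_pow, norm_one] at h2
    simpa using (pow_eq_one_iff_of_nonneg (norm_nonneg _) two_ne_zero).1 h2
  have hch := isChar_of_rep ρ hρs Ω hΩ (fun g h => by
    have := hpre.tracial hfree (hadj g) (hadj h)
    rwa [← map_mul, ← map_mul] at this)
  have hagree : ∀ g ∈ sub (Iio α), ⟪Ω, ρ g Ω⟫_ℂ = χ g := fun g hg => by
    rw [hρ g hg, ← vs_apply, htr, hM₁]
  refine ⟨_, hch, hagree, fun M₂ hM₂ => Or.inl ?_⟩
  replace hM₂ : ∀ g ∈ sub (Iic α), M₂.τ (M₂.π g) = ⟪Ω, ρ g Ω⟫_ℂ := hM₂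
  have h12 : ∀ g ∈ sub (Iio α), M₁.τ (M₁.π g) = M₂.τ (M₂.π g) := fun g hg => by
    rw [hM₂ g (sub_mono Iio_subset_Iic_self hg), hagree g hg, hM₁]
  obtain ⟨r₂, hr₂, hG⟩ := hr₁.transfer h12
  have hrel := graph_rel M₁.ft M₂.ft M₁.star_π M₂.star_π h12
  set G' := galg (ρ.prod M₂.π) (sub (Iic α)) with hG'
  have htr' : ∀ p ∈ G', vs Ω p.1 = M₂.τ p.2 := fun p hp =>
    graph_tr hρs M₂.star_π (fun g hg => (hM₂ g hg).symm) hp
  let πL : M₁.R →L[ℂ] (H →L[ℂ] H) := LinearMap.mkContinuous π.toLinearMap 1 fun x => by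
    rw [one_mul]; exact NonUnitalStarAlgHom.norm_apply_le π x
  have hmap : ∀ p ∈ galg (M₁.π.prod M₂.π) (sub (Iio α)), (π p.1, p.2) ∈ G' := fun p hp =>
    map_mem_of_galg (star_prod M₁.star_π M₂.star_π) (πL.prodMap (ContinuousLinearMap.id ℂ M₂.R))
      (M := Subalgebra.toSubmodule G'.toSubalgebra) (isClosed_galg _ _) (fun g hg => by
        have := mem_galg (ρ.prod M₂.π) (sub_mono Iio_subset_Iic_self hg)
        rw [MonoidHom.prod_apply, hρ g hg] at this
        exact this) hp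
  have hu : ∀ e, (u e, uu M₂ α e) ∈ G' := by
    have h1 : (u true, uu M₂ α true) ∈ G' := by
      have := mem_galg (ρ.prod M₂.π) (gen_mem (mem_Iic.2 (le_refl α)))
      rwa [MonoidHom.prod_apply, hρα] at this
    intro e
    cases e
    · have := star_mem h1
      rwa [Prod.star_def, hpre.ustar, uu_ustar] at this
    · exact h1
  refine ⟨r₂, hr₂,
    { toCond := hr₂.2.2
      ustar := uu_ustar M₂ α
      uunit := uu_uunit M₂ α
      uint := fun e k => ?_
      closed := isClosed_galg _ _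
      free := ?_ }⟩
  · have := graph_eq_zero M₂.ft htr' (sub_mem (mul_mem (hmap _ (hG e k)) (hu e))
      (mul_mem (hu e) (hmap _ (hG (!e) k)))) (sub_eq_zero.2 (hpre.uint e k))
    exact sub_eq_zero.1 this
  · have key : ∀ e d w, RedW M₂.τ (galg M₂.π (sub (Iio α))) r₂ (uu M₂ α) e d w →
        ∃ w', RedW (vs Ω) (B₁.map π) (fun e k => π (r₁ e k)) u e d w' ∧ (w', w) ∈ G' := by
      intro e d w hw
      induction hw with
      | single e => exact ⟨u e, Red.single e, hu e⟩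
      | @cons e₁ e₂ d₁ a₁ w₁ ha₁ hk₁ _ ih =>
        obtain ⟨w', hw', hww⟩ := ih
        obtain ⟨a, ha⟩ := hrel.tot₂ _ ha₁
        refine ⟨u e₁ * π a * w', Red.cons ⟨a, hrel.mem₁ _ ha, rfl⟩ (fun hne k => ?_) hw',
          mul_mem (mul_mem (hu e₁) (hmap _ ha)) hww⟩
        rw [← map_mul, htr]
        exact (hrel.tr _ (mul_mem (hG e₂ k) ha)).trans (hk₁ hne k)
    rintro _ ⟨e, d, w, a, a', hw, ha, ha', rfl⟩
    obtain ⟨w', hw', hww⟩ := key e d w hw
    obtain ⟨b, hb⟩ := hrel.tot₂ _ ha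
    obtain ⟨b', hb'⟩ := hrel.tot₂ _ ha'
    have h1 := htr' _ (mul_mem (mul_mem (hmap _ hb) hww) (hmap _ hb'))
    have h2 := hfree _ (hw'.mem_wset ⟨b, hrel.mem₁ _ hb, rfl⟩ ⟨b', hrel.mem₁ _ hb', rfl⟩)
    exact h1.symm.trans h2

theorem exists_step (N : I → Name I) (α : I) {χ : FG I → ℂ} (hχ : IsChar χ) :
    ∃ χ', IsChar χ' ∧ (∀ g ∈ sub (Iio α), χ' g = χ g) ∧ Good N α χ' := by
  obtain ⟨M₁, hM₁⟩ := hχ.exists_model
  by_cases h : ∃ r, CondN M₁ (N α) α r
  · obtain ⟨r, hr⟩ := h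
    exact exists_step_act N α M₁ hM₁ hr
  · exact exists_step_inact N α M₁ hM₁ h

end Vale.Agent.P070
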