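import Vale.Agent.P070.Small

/-! Freeness passes to closures, directed unions, and independent free extensions. -/

open scoped ComplexOrder InnerProductSpace
open Filter Topology

namespace Vale.Agent.P070

variable {R : Type*} [CStarAlgebra R] {τ : R →L[ℂ] ℂ}

theorem free_of_dense (hτ : IsFT τ) {C : StarSubalgebra ℂ R} {r : Bool → ℕ → R} {u : Bool → R}
    {L : Set R} {K : Bool → Set R} (h1 : ∀ a ∈ C, a ∈ cspan L)
    (h2 : ∀ e, ∀ a ∈ C, a ∈ Ker τ (r e) → a ∈ cspan (L ∩ K e))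
    (h3 : ∀ e d w, Red L K u e d w → ∀ a ∈ L, τ (w * a) = 0) : Free τ C r u := by
  have key : ∀ e d w, RedW τ C r u e d w → w ∈ cspan {w' | Red L K u e d w'} := by
    intro e d w hw
    induction hw with
    | single e => exact mem_cspan (Red.single e)
    | @cons e₁ e₂ d₁ a₁ w₁ ha₁ hk₁ _ ih =>
      by_cases he : e₂ = e₁
      · refine mul_mem_of_cspan (isClosed_cspan _) _ (fun a ha b hb => ?_) (h1 _ ha₁) ih
        exact mem_cspan (Red.cons ha (fun hne => absurd he hne) hb)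
      · refine mul_mem_of_cspan (isClosed_cspan _) _ (fun a ha b hb => ?_)
          (h2 _ _ ha₁ (hk₁ he)) ih
        exact mem_cspan (Red.cons ha.1 (fun _ => ha.2) hb)
  rintro _ ⟨e, d, w, a, a', hw, ha, ha', rfl⟩
  rw [mul_assoc, hτ.comm, mul_assoc]
  have h4 := tr_eq_zero_of_cspan (τ := τ) 1 (a' * a) (fun w' hw' => by
    have := tr_eq_zero_of_cspan (τ := τ) w' 1 (fun b hb => by
      rw [mul_one]; exact h3 e d w' hw' b hb) (h1 _ (mul_mem ha' ha))
    simpa using this) (key e d w hw)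
  simpa using h4

theorem free_of_directed (hτ : IsFT τ) {C : StarSubalgebra ℂ R} {r : Bool → ℕ → R} {u : Bool → R}
    {ι : Type*} [Nonempty ι] {B : ι → StarSubalgebra ℂ R} (hdir : Directed (· ≤ ·) B)
    (hC : ∀ x ∈ C, x ∈ closure (⋃ i, (B i : Set R))) (hcl : ∀ i, IsClosed (B i : Set R))
    (adm : ∀ e, Adm τ (r e)) (hr : ∀ i e k, r e k ∈ B i) (hexc : ∀ i e, ∀ x ∈ B i, Exc (r e) x)
    (hf : ∀ i, Free τ (B i) r u) : Free τ C r u := by
  refine free_of_dense hτ (L := ⋃ i, (B i : Set R)) (K := fun e => Ker τ (r e))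
    (fun a ha => closure_mono Submodule.subset_span (hC a ha)) (fun e a ha hk => ?_)
    (fun e d w hw a ha => ?_)
  · refine closure_mono Submodule.subset_span (Metric.mem_closure_iff.2 fun ε hε => ?_)
    obtain ⟨b, hb, hab⟩ := Metric.mem_closure_iff.1 (hC a ha) (ε / 2) (by positivity)
    obtain ⟨i, hi⟩ := Set.mem_iUnion.1 hb
    obtain ⟨g, hg, hgn, hgk⟩ := exists_dec_approx hτ (adm e) (hexc i e b hi) hk
    have hgB : g ∈ B i :=
      cspan_le_starSubalgebra (hcl i) (by rintro _ ⟨k, rfl⟩; exact hr i e k) hg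
    refine ⟨b - g, ⟨Set.mem_iUnion.2 ⟨i, sub_mem hi hgB⟩, hgk⟩, ?_⟩
    rw [dist_eq_norm] at hab ⊢
    rw [norm_sub_rev] at hgn
    calc ‖a - (b - g)‖ = ‖(a - b) + g‖ := by congr 1; abel
      _ ≤ ‖a - b‖ + ‖g‖ := norm_add_le _ _
      _ < ε := by linarith
  · have key : ∃ i, RedW τ (B i) r u e d w := by
      induction hw with
      | single e => exact ⟨Classical.arbitrary ι, Red.single e⟩
      | cons ha₁ hk₁ _ ih =>
        obtain ⟨i, hi⟩ := ih
        obtain ⟨j, hj⟩ := Set.mem_iUnion.1 ha₁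
        obtain ⟨k, hik, hjk⟩ := hdir i j
        exact ⟨k, Red.cons (hjk hj) hk₁ (hi.mono hik)⟩
    obtain ⟨i, hi⟩ := key
    obtain ⟨j, hj⟩ := Set.mem_iUnion.1 ha
    obtain ⟨k, hik, hjk⟩ := hdir i j
    exact hf k _ ((hi.mono hik).mem_wset_right (hjk hj))

theorem free_swap (hτ : IsFT τ) {B₀ B₁ : StarSubalgebra ℂ R} {r r' : Bool → ℕ → R}
    {u u' : Bool → R} (adm : ∀ e, Adm τ (r e)) (hr : ∀ e k, r e k ∈ B₀)
    (hexc : ∀ e, ∀ x ∈ B₀, Exc (r e) x) (hf : Free τ B₀ r u) (hp : Pre τ B₀ r' u')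
    (hf' : Free τ B₁ r' u') (hle : B₀ ≤ B₁) (hu : ∀ e, u e ∈ B₁) : Free τ (Ext B₀ u') r u := by
  have hWker : ∀ e, ∀ x ∈ WSet τ B₀ r' u', x ∈ Ker τ (r e) := by
    intro e x hx k
    have := hf' _ (wset_mono hle (wset_mul_mem hx (hr e k) (one_mem _)))
    rwa [mul_one] at this
  have hmid : ∀ {e d w b b'}, RedW τ B₀ r u e d w → b ∈ B₀ → b' ∈ B₀ →
      b * w * b' ∈ B₁ ∧ ∀ e', b * w * b' ∈ Ker τ (r' e') := by
    intro e d w b b' hw hb hb'
    refine ⟨wset_subset hle hu (hw.mem_wset hb hb'), fun e' k => ?_⟩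
    have := hf _ (hw.mem_wset (mul_mem (hp.mem e' k) hb) hb')
    simpa only [mul_assoc] using this
  refine free_of_dense hτ (L := (B₀ : Set R) ∪ WSet τ B₀ r' u')
    (K := fun e => Ker τ (r e)) (fun a ha => hp.ext_subset_cspan ha) (fun e a ha hk => ?_)
    (fun e d w hw a ha => ?_)
  · refine Metric.mem_closure_iff.2 fun ε hε => ?_
    obtain ⟨y, hy, hay⟩ := Metric.mem_closure_iff.1 (hp.ext_subset_cspan ha) (ε / 2)
      (by positivity)
    replace hy : y ∈ Submodule.span ℂ ((B₀ : Set R) ∪ WSet τ B₀ r' u') := hy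
    rw [Submodule.span_union, Submodule.mem_sup] at hy
    obtain ⟨b, hb, w, hw, rfl⟩ := hy
    have hb' : b ∈ B₀ :=
      (Submodule.span_le (p := Subalgebra.toSubmodule B₀.toSubalgebra)).2 (fun _ h => h) hb
    have hwk : w ∈ Ker τ (r e) := fun k => by
      have := tr_eq_zero_of_cspan (τ := τ) (r e k) 1 (fun x hx => by
        rw [mul_one]; exact hWker e x hx k) (Submodule.le_topologicalClosure _ hw)
      rwa [mul_one] at this
    have hk' : a - w ∈ Ker τ (r e) := fun k => by rw [mul_sub, map_sub, hk k, hwk k, sub_self]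
    obtain ⟨g, hg, hgn, hgk⟩ := exists_dec_approx hτ (adm e) (hexc e b hb') hk'
    have hgB : g ∈ B₀ :=
      cspan_le_starSubalgebra hp.closed (by rintro _ ⟨k, rfl⟩; exact hr e k) hg
    have hsub : WSet τ B₀ r' u' ⊆ ((B₀ : Set R) ∪ WSet τ B₀ r' u') ∩ Ker τ (r e) :=
      fun x hx => ⟨Or.inr hx, hWker e x hx⟩
    refine ⟨(b - g) + w, add_mem (Submodule.subset_span ⟨Or.inl (sub_mem hb' hgB), hgk⟩)
      (Submodule.span_mono hsub hw), ?_⟩
    rw [dist_eq_norm] at hay ⊢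
    have h5 : ‖b - (a - w)‖ = ‖a - (b + w)‖ := by rw [← norm_neg]; congr 1; abel
    calc ‖a - (b - g + w)‖ = ‖(a - (b + w)) + g‖ := by congr 1; abel
      _ ≤ ‖a - (b + w)‖ + ‖g‖ := norm_add_le _ _
      _ < ε := by linarith
  · have key : RedW τ B₀ r u e d w ∨ ∃ d₁ w₁ b e₂ d₂ w₂ b' e₃ w₃, RedW τ B₀ r u e d₁ w₁ ∧ b ∈ B₀ ∧
        RedW τ B₁ r' u' e₂ d₂ w₂ ∧ b' ∈ B₀ ∧ RedW τ B₀ r u e₃ d w₃ ∧
        w = w₁ * b * w₂ * b' * w₃ := by
      clear ha
      induction hw with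
      | single e => exact Or.inl (Red.single e)
      | @cons e₀ e₁ d₀ a₀ w₀ ha₀ hk₀ _ ih =>
        rcases ha₀ with ha₀ | ⟨e₄, d₄, w₄, c, c', hw₄, hc, hc', rfl⟩
        · rcases ih with ih | ⟨d₁, w₁, b, e₂, d₂, w₂, b', e₃, w₃, hw₁, hb, hw₂, hb', hw₃, rfl⟩
          · exact Or.inl (Red.cons ha₀ hk₀ ih)
          · exact Or.inr ⟨d₁, u e₀ * a₀ * w₁, b, e₂, d₂, w₂, b', e₃, w₃, Red.cons ha₀ hk₀ hw₁, hb,
              hw₂, hb', hw₃, by simp only [mul_assoc]⟩
        · rcases ih with ih | ⟨d₁, w₁, b, e₂, d₂, w₂, b', e₃, w₃, hw₁, hb, hw₂, hb', hw₃, rfl⟩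
          · exact Or.inr ⟨e₀, u e₀, c, e₄, d₄, w₄, c', e₁, w₀, Red.single e₀, hc, hw₄.mono hle, hc',
              ih, by simp only [mul_assoc]⟩
          · obtain ⟨hm1, hm2⟩ := hmid hw₁ hc' hb
            exact Or.inr ⟨e₀, u e₀, c, e₄, d₂, w₄ * (c' * w₁ * b) * w₂, b', e₃, w₃, Red.single e₀,
              hc, Red.append (hw₄.mono hle) hw₂ hm1 (fun _ => hm2 _), hb', hw₃,
              by simp only [mul_assoc]⟩
    have hmem : ∀ {e d w}, RedW τ B₀ r u e d w → w ∈ B₁ := fun hw => Red.mem hle hu hw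
    rcases ha with ha | ⟨e₄, d₄, w₄, c, c', hw₄, hc, hc', rfl⟩
    · rcases key with key | ⟨d₁, w₁, b, e₂, d₂, w₂, b', e₃, w₃, hw₁, hb, hw₂, hb', hw₃, rfl⟩
      · exact hf _ (key.mem_wset_right ha)
      · have := hf' _ (hw₂.mem_wset (mul_mem (hmem hw₁) (hle hb))
          (mul_mem (mul_mem (hle hb') (hmem hw₃)) (hle ha)))
        simpa only [mul_assoc] using this
    · rcases key with key | ⟨d₁, w₁, b, e₂, d₂, w₂, b', e₃, w₃, hw₁, hb, hw₂, hb', hw₃, rfl⟩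
      · have := hf' _ ((hw₄.mono hle).mem_wset (mul_mem (hmem key) (hle hc)) (hle hc'))
        simpa only [mul_assoc] using this
      · obtain ⟨hm1, hm2⟩ := hmid hw₃ hb' hc
        have := hf' _ (RedW.mem_wset (Red.append hw₂ (hw₄.mono hle) hm1 (fun _ => hm2 _))
          (mul_mem (hmem hw₁) (hle hb)) (hle hc'))
        simpa only [mul_assoc] using this

end Vale.Agent.P070
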