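import Vale.Agent.P070.Swap

/-! In a tower, admissible sequences excising a closed piece excise everything. -/

open scoped ComplexOrder InnerProductSpace
open Filter Topology Set

namespace Vale.Agent.P070

variable {R : Type*} [CStarAlgebra R] {τ : R →L[ℂ] ℂ}

theorem Gad.restrict {B B' : StarSubalgebra ℂ R} {r : Bool → ℕ → R} {u : Bool → R}
    (h : Gad τ B r u) (hle : B' ≤ B) (hcl : IsClosed (B' : Set R)) (hr : ∀ e k, r e k ∈ B') :
    Gad τ B' r u where
  toUni := h.toUni
  adm := h.adm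
  mem := hr
  tr_eq := h.tr_eq
  exc e x hx := h.exc e x (hle hx)
  orth e x hx := h.orth e x (hle hx)
  closed := hcl
  free := h.free.mono hle

theorem Uni.sm_of_u_mul {r : Bool → ℕ → R} {u : Bool → R} (h : Uni r u) {e : Bool} {a : R}
    {t : ℕ → R} (hs : Sm (r (!e)) (u (!e) * a) t) : Sm (r e) a t := by
  refine squeeze_zero (fun _ => norm_nonneg _) (fun k => ?_) hs
  have h1 := h.uint (!e) k
  rw [Bool.not_not] at h1
  have : r e k * a * t k = u e * (r (!e) k * (u (!e) * a) * t k) := by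
    rw [← mul_assoc (r (!e) k), h1]
    simp only [← mul_assoc, h.uunit, one_mul]
  rw [this]
  exact (norm_mul_le _ _).trans (mul_le_of_le_one_left (norm_nonneg _) (h.norm_le e))

theorem finite_cover {I : Type*} [LinearOrder I] {S U : Set I} (F : Finset I)
    (hF : (F : Set I) ⊆ S ∪ U) : (F : Set I) ⊆ S ∨ ∃ β ∈ U, (F : Set I) ⊆ S ∪ Iic β := by
  classical
  by_cases h : (F.filter (· ∉ S)).Nonempty
  · refine Or.inr ⟨(F.filter (· ∉ S)).max' h, ?_, fun x hx => ?_⟩
    · have := Finset.mem_filter.1 (Finset.max'_mem _ h)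
      exact (hF this.1).resolve_left this.2
    · by_cases hxS : x ∈ S
      · exact Or.inl hxS
      · exact Or.inr (Finset.le_max' _ x (Finset.mem_filter.2 ⟨hx, hxS⟩))
  · refine Or.inl fun x hx => by_contra fun hxS => h ⟨x, Finset.mem_filter.2 ⟨hx, hxS⟩⟩

namespace Tower

variable {I : Type} [LinearOrder I] (T : Tower τ I)

/-- Sets of indices closed under supports. -/
def Closed (S : Set I) : Prop := ∀ β ∈ S, T.supp β ⊆ S

theorem insert_le_of_inact {α : I} (h : ¬ T.act α) (S : Set I) : T.A (insert α S) ≤ T.A S :=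
  (T.insert_le S α).trans (ext_le (T.closed S) le_rfl (by rw [T.inact α h]; exact one_mem _))

theorem subset_of_finite {M : Set R} (hM : IsClosed M) {S : Set I}
    (h : ∀ F : Finset I, (F : Set I) ⊆ S → (T.A F : Set R) ⊆ M) : (T.A S : Set R) ⊆ M := by
  intro x hx
  have h1 := T.fin S x hx
  refine closure_minimal ?_ hM h1
  exact iUnion_subset fun F => h F.1 F.2

theorem induct [WellFoundedLT I] {M : Set R} (hM : IsClosed M) (S : Set I)
    (h0 : (T.A S : Set R) ⊆ M)
    (hstep : ∀ γ, (T.A (S ∪ Iio γ) : Set R) ⊆ M → (T.A (S ∪ Iic γ) : Set R) ⊆ M) (x : R) :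
    x ∈ M := by
  have key : ∀ U : Set I, (∀ β ∈ U, (T.A (S ∪ Iic β) : Set R) ⊆ M) →
      (T.A (S ∪ U) : Set R) ⊆ M := by
    intro U hU
    refine T.subset_of_finite hM fun F hF => ?_
    rcases finite_cover F hF with h | ⟨β, hβ, h⟩
    · exact Subset.trans (T.mono _ _ h) h0
    · exact Subset.trans (T.mono _ _ h) (hU β hβ)
  have all : ∀ γ, (T.A (S ∪ Iic γ) : Set R) ⊆ M := fun γ =>
    WellFoundedLT.induction (motive := fun γ => (T.A (S ∪ Iic γ) : Set R) ⊆ M) γ
      fun γ ih => hstep γ (key _ fun β hβ => ih β hβ)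
  exact key univ (fun β _ => all β) (T.mono _ _ subset_union_right (T.top x))

theorem exc_top_of_Iio [WellFoundedLT I] (hτ : IsFT τ) {s : ℕ → R} (hs : Adm τ s) {α : I}
    (hsB : ∀ k, s k ∈ T.A (Iio α)) (hexc : ∀ x ∈ T.A (Iio α), Exc s x) (x : R) : Exc s x := by
  refine T.induct (M := excSub s) (isClosed_excSub hs) (Iio α) hexc (fun γ ih => ?_) x
  rcases lt_or_ge γ α with hγ | hγ
  · exact Subset.trans (T.mono _ _ (union_subset Subset.rfl (Iic_subset_Iio.2 hγ))) hexc
  · have h1 : Iio α ∪ Iic γ ⊆ insert γ (Iio γ) := by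
      rw [Iio_insert]; exact union_subset ((Iio_subset_Iic hγ)) Subset.rfl
    have h2 : (T.A (Iio γ) : Set R) ⊆ excSub s := Subset.trans (T.mono _ _ subset_union_right) ih
    refine Subset.trans (T.mono _ _ h1) ?_
    by_cases ha : T.act γ
    · intro y hy
      exact (T.gad γ ha).exc_ext hτ hs (fun k => T.mono _ _ (Iio_subset_Iio hγ) (hsB k)) h2
        (T.insert_le _ _ hy)
    · exact Subset.trans (T.insert_le_of_inact ha _) h2

theorem exc_r [WellFoundedLT I] (hτ : IsFT τ) {α : I} (ha : T.act α) (e : Bool) (x : R) :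
    Exc (T.r α e) x :=
  T.exc_top_of_Iio hτ ((T.gad α ha).adm e) ((T.gad α ha).mem e) ((T.gad α ha).exc e) x

theorem gad_closed [WellFoundedLT I] (hτ : IsFT τ) {α : I} (ha : T.act α) {S : Set I}
    (hS : T.Closed S) (hα : α ∉ S) (hsupp : T.supp α ⊆ S) : Gad τ (T.A S) (T.r α) (T.u α) := by
  classical
  have hg := T.gad α ha
  set S₀ := S ∩ Iio α with hS₀
  have hr0 : ∀ e k, T.r α e k ∈ T.A S₀ := fun e k =>
    T.mono _ _ (subset_inter hsupp (T.supp_lt α)) (T.r_mem α ha e k)
  let P : Set I → Prop := fun U => Free τ (T.A U) (T.r α) (T.u α) ∧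
    ∀ e, ∀ x ∈ T.A U, Sm (T.r α e) x (T.r α (!e))
  have Panti : ∀ {U U'}, U ⊆ U' → P U' → P U := fun hU h =>
    ⟨h.1.mono (T.mono _ _ hU), fun e x hx => h.2 e x (T.mono _ _ hU hx)⟩
  have P0 : P S₀ := Panti inter_subset_right ⟨hg.free, hg.orth⟩
  have Plim : ∀ U : Set I, U ⊆ S → (∀ β ∈ U, P (S₀ ∪ (S ∩ Iic β))) → P (S₀ ∪ U) := by
    intro U hUS hU
    have hfin : ∀ F : Finset I, (F : Set I) ⊆ S₀ ∪ U → P (S₀ ∪ F) := by
      intro F hF
      rcases finite_cover F hF with h | ⟨β, hβ, h⟩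
      · exact Panti (union_subset Subset.rfl h) P0
      · refine Panti (union_subset subset_union_left fun x hx => ?_) (hU β hβ)
        rcases h hx with h1 | h1
        · exact Or.inl h1
        · exact Or.inr ⟨(hF hx).elim (fun h => h.1) (fun h => hUS h), h1⟩
    refine ⟨?_, fun e => T.subset_of_finite (M := smSub (T.r α e) (T.r α (!e)))
      (isClosed_smSub (hg.adm _).toDec (hg.adm _).toDec) fun F hF x hx =>
        (hfin F hF).2 e x (T.mono _ _ subset_union_right hx)⟩
    have : Nonempty {F : Finset I // (F : Set I) ⊆ S₀ ∪ U} := ⟨⟨∅, by simp⟩⟩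
    refine free_of_directed hτ (ι := {F : Finset I // (F : Set I) ⊆ S₀ ∪ U})
      (B := fun F => T.A (S₀ ∪ F.1)) ?_ ?_ (fun _ => T.closed _) hg.adm
      (fun F e k => T.mono _ _ subset_union_left (hr0 e k))
      (fun F e x _ => T.exc_r hτ ha e x) (fun F => (hfin F.1 F.2).1)
    · intro F G
      refine ⟨⟨F.1 ∪ G.1, by rw [Finset.coe_union]; exact union_subset F.2 G.2⟩, ?_, ?_⟩
      · exact T.mono _ _ (union_subset_union_right _ (by simp))
      · exact T.mono _ _ (union_subset_union_right _ (by simp))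
    · intro x hx
      exact closure_mono (iUnion_mono fun F => T.mono _ _ subset_union_right) (T.fin _ x hx)
  have all : ∀ γ, P (S₀ ∪ (S ∩ Iic γ)) := fun γ => by
    refine WellFoundedLT.induction (motive := fun γ => P (S₀ ∪ (S ∩ Iic γ))) γ fun γ ih => ?_
    have hU : P (S₀ ∪ (S ∩ Iio γ)) := Plim _ inter_subset_left fun β hβ => ih β hβ.2
    set U := S₀ ∪ (S ∩ Iio γ) with hUdef
    have hins : S₀ ∪ (S ∩ Iic γ) ⊆ insert γ U := by
      rintro x (hx | hx)
      · exact Or.inr (Or.inl hx)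
      · rcases hx.2.eq_or_lt with h | h
        · exact Or.inl h
        · exact Or.inr (Or.inr ⟨hx.1, h⟩)
    by_cases hγS : γ ∈ S
    swap
    · refine Panti (fun x hx => (hins hx).resolve_left ?_) hU
      rintro rfl
      exact hγS (hx.elim (fun h => h.1) (fun h => h.1))
    rcases lt_trichotomy γ α with hγα | hγα | hγα
    · exact Panti (fun x hx => (hins hx).elim (fun h => Or.inl (h ▸ ⟨hγS, hγα⟩)) id) hU
    · exact absurd (hγα ▸ hγS) hα
    refine Panti hins ?_
    by_cases hc : T.act γ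
    swap
    · exact ⟨hU.1.mono (T.insert_le_of_inact hc _),
        fun e x hx => hU.2 e x (T.insert_le_of_inact hc _ hx)⟩
    have hUγ : U ⊆ Iio γ := union_subset (fun x hx => hx.2.trans hγα) inter_subset_right
    have hle : T.A U ≤ T.A (Iio γ) := T.mono _ _ hUγ
    have hg' := T.gad γ hc
    have hg0 : Gad τ (T.A U) (T.r γ) (T.u γ) := hg'.restrict hle (T.closed _) fun e k =>
      T.mono _ _ (fun x hx => Or.inr ⟨hS γ hγS hx, T.supp_lt γ x hx⟩) (T.r_mem γ hc e k)
    have hrU : ∀ e k, T.r α e k ∈ T.A U := fun e k => T.mono _ _ subset_union_left (hr0 e k)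
    have hu1 : ∀ e, T.u α e ∈ T.A (Iio γ) := fun e =>
      T.mono _ (Iio γ) (singleton_subset_iff.2 (mem_Iio.2 hγα)) (T.u_mem α e)
    refine ⟨(free_swap hτ hg.adm hrU (fun e x _ => T.exc_r hτ ha e x) hU.1 (hg0.pre hτ) hg'.free
      hle hu1).mono (T.insert_le _ _), fun e x hx => ?_⟩
    refine hg0.orth_ext hτ (hg.adm e) (hg.adm (!e)) (hrU e) (hrU (!e)) (hU.2 e) (fun e' => ?_)
      (T.insert_le _ _ hx)
    by_cases h1 : ∀ a ∈ T.A U, Sm (T.r γ (!e')) a (T.r α (!e))
    · exact Or.inr h1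
    · push Not at h1
      obtain ⟨a₂, ha₂, hn⟩ := h1
      refine Or.inl fun a₁ ha₁ => hg.toUni.sm_of_u_mul ?_
      have h2 := hg'.orth (!e')
      rw [Bool.not_not] at h2
      exact sm_trans hτ (hg'.adm _).toDec (hg.adm (!e)) (hg'.adm e').toDec (hg'.mem _)
        (fun k => hle (hrU _ k)) (fun x _ => T.exc_r hτ ha _ x) h2 (hle ha₂)
        (mul_mem (hu1 _) (hle ha₁)) hn
  have hP : P S := Panti subset_union_right (Plim S Subset.rfl fun β _ => all β)
  exact
    { toUni := hg.toUni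
      adm := hg.adm
      mem := fun e k => T.mono _ _ inter_subset_left (hr0 e k)
      tr_eq := hg.tr_eq
      exc := fun e x _ => T.exc_r hτ ha e x
      orth := hP.2
      closed := T.closed _
      free := hP.1 }

theorem exc_top [WellFoundedLT I] (hτ : IsFT τ) {s : ℕ → R} (hs : Adm τ s) {S : Set I}
    (hS : T.Closed S) (hsB : ∀ k, s k ∈ T.A S) (hexc : ∀ x ∈ T.A S, Exc s x) (x : R) :
    Exc s x := by
  refine T.induct (M := excSub s) (isClosed_excSub hs) S hexc (fun γ ih => ?_) x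
  have hins : S ∪ Iic γ ⊆ insert γ (S ∪ Iio γ) := by
    rintro x (hx | hx)
    · exact Or.inr (Or.inl hx)
    · rcases (mem_Iic.1 hx).eq_or_lt with h | h
      · exact Or.inl h
      · exact Or.inr (Or.inr h)
  by_cases hγ : γ ∈ S
  · refine Subset.trans (T.mono _ _ fun x hx => ?_) ih
    exact (hins hx).elim (fun h => Or.inl (h ▸ hγ)) id
  refine Subset.trans (T.mono _ _ hins) ?_
  by_cases ha : T.act γ
  · have hcl : T.Closed (S ∪ Iio γ) := by
      rintro β (hβ | hβ)
      · exact (hS β hβ).trans subset_union_left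
      · exact fun x hx => Or.inr ((T.supp_lt β x hx).trans hβ)
    have hg := T.gad_closed hτ ha hcl (by simp [hγ]) (fun x hx => Or.inr (T.supp_lt γ x hx))
    intro y hy
    exact hg.exc_ext hτ hs (fun k => T.mono _ _ subset_union_left (hsB k)) ih (T.insert_le _ _ hy)
  · exact Subset.trans (T.insert_le_of_inact ha _) ih

end Tower

end Vale.Agent.P070
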