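import Vale.Agent.P070.Decomp

/-! The calculus of reduced words. -/

open scoped ComplexOrder InnerProductSpace
open Filter Topology

namespace Vale.Agent.P070

variable {R : Type*} [CStarAlgebra R] {τ : R →L[ℂ] ℂ}

section Red

variable {L L' : Set R} {K K' : Bool → Set R} {u : Bool → R} {e d e' d' : Bool} {w w' a : R}

theorem Red.mono (hL : L ⊆ L') (hK : ∀ e, ∀ a ∈ L, a ∈ K e → a ∈ K' e) (h : Red L K u e d w) :
    Red L' K' u e d w := by
  induction h with
  | single e => exact .single e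
  | cons ha hk _ ih => exact .cons (hL ha) (fun h => hK _ _ ha (hk h)) ih

theorem Red.append (h : Red L K u e d w) (h' : Red L K u e' d' w') (ha : a ∈ L)
    (hk : e' ≠ d → a ∈ K e') : Red L K u e d' (w * a * w') := by
  induction h with
  | single e => exact .cons ha hk h'
  | @cons e₁ e₂ d₁ a₁ w₁ ha₁ hk₁ _ ih =>
    have := Red.cons (u := u) ha₁ hk₁ (ih hk)
    simpa only [mul_assoc] using this

theorem Red.star' (hu : ∀ e, star (u e) = u (!e)) (hL : ∀ a ∈ L, star a ∈ L)
    (hK : ∀ e, ∀ a ∈ L, a ∈ K e → star a ∈ K e) (h : Red L K u e d w) :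
    Red L K u (!d) (!e) (star w) := by
  induction h with
  | single e => rw [hu]; exact .single _
  | @cons e₁ e₂ d₁ a₁ w₁ ha₁ hk₁ _ ih =>
    have := ih.append (.single (!e₁)) (hL _ ha₁) (fun hne => by
      have h1 : e₂ ≠ e₁ := fun h => hne (by rw [h])
      have h2 : e₂ = !e₁ := by cases e₁ <;> cases e₂ <;> simp_all
      rw [← h2]; exact hK _ _ ha₁ (hk₁ h1))
    simpa only [star_mul, hu, mul_assoc] using this

theorem Red.mem {C : StarSubalgebra ℂ R} (hL : L ⊆ C) (hu : ∀ e, u e ∈ C)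
    (h : Red L K u e d w) : w ∈ C := by
  induction h with
  | single e => exact hu e
  | cons ha _ _ ih => exact mul_mem (mul_mem (hu _) (hL ha)) ih

end Red

variable {B : StarSubalgebra ℂ R} {r : Bool → ℕ → R} {u : Bool → R}

theorem Uni.uunit' (h : Uni r u) (e : Bool) : u (!e) * u e = 1 := by
  simpa using h.uunit (!e)

theorem Uni.norm_le (h : Uni r u) (e : Bool) : ‖u e‖ ≤ 1 := by
  have h1 : ‖u e‖ * ‖u e‖ ≤ 1 := by
    rw [← CStarRing.norm_star_mul_self, h.ustar, h.uunit']
    exact (IsStarProjection.one R).norm_le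
  nlinarith [norm_nonneg (u e)]

theorem Uni.conj_r (h : Uni r u) (e : Bool) (k : ℕ) : u (!e) * r e k * u e = r (!e) k := by
  rw [mul_assoc, h.uint, ← mul_assoc, h.uunit', one_mul]

theorem Uni.conj_mem (h : Uni r u) {e : Bool} {d : R} (hd : d ∈ cspan (Set.range (r e))) :
    u (!e) * d * u e ∈ cspan (Set.range (r (!e))) := by
  refine mul_mul_mem_of_cspan (isClosed_cspan _) _ _ ?_ hd
  rintro _ ⟨k, rfl⟩
  rw [h.conj_r]
  exact mem_cspan ⟨k, rfl⟩

theorem Uni.mul_u (h : Uni r u) (e : Bool) (d : R) : d * u e = u e * (u (!e) * d * u e) := by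
  rw [← mul_assoc, ← mul_assoc, h.uunit, one_mul]

theorem Uni.u_mul (h : Uni r u) (e : Bool) (d : R) :
    u e * d = (u e * d * u (!e)) * u e := by
  rw [mul_assoc _ (u (!e)), h.uunit', mul_one]

theorem ker_mul_left {s : ℕ → R} (hs : Dec s) {d a : R} (hd : d ∈ cspan (Set.range s))
    (ha : a ∈ Ker τ s) : d * a ∈ Ker τ s := by
  intro k
  rw [← mul_assoc]
  refine tr_eq_zero_of_cspan _ _ ?_ hd
  rintro _ ⟨l, rfl⟩
  rw [hs.mul_eq_max]; exact ha _

theorem u_mem_ext (h : Uni r u) (B : StarSubalgebra ℂ R) (e : Bool) : u e ∈ Ext B u := by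
  have h1 : u true ∈ Ext B u :=
    StarSubalgebra.le_topologicalClosure _ (StarAlgebra.subset_adjoin ℂ _ (Set.mem_insert _ _))
  cases e
  · have := star_mem h1
    rwa [h.ustar] at this
  · exact h1

theorem le_ext (B : StarSubalgebra ℂ R) (u : Bool → R) : B ≤ Ext B u := fun _ hx =>
  StarSubalgebra.le_topologicalClosure _
    (StarAlgebra.subset_adjoin ℂ _ (Set.mem_insert_of_mem _ hx))

theorem isClosed_ext (B : StarSubalgebra ℂ R) (u : Bool → R) : IsClosed (Ext B u : Set R) :=
  StarSubalgebra.isClosed_topologicalClosure _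

theorem ext_le {C : StarSubalgebra ℂ R} (hC : IsClosed (C : Set R)) (hB : B ≤ C)
    (hu : u true ∈ C) : Ext B u ≤ C :=
  StarSubalgebra.topologicalClosure_minimal
    (StarAlgebra.adjoin_le (Set.insert_subset hu hB)) hC

theorem RedW.mem_wset {e d : Bool} {w a a' : R} (h : RedW τ B r u e d w) (ha : a ∈ B)
    (ha' : a' ∈ B) : a * w * a' ∈ WSet τ B r u := ⟨e, d, w, a, a', h, ha, ha', rfl⟩

theorem RedW.mem_wset_right {e d : Bool} {w a' : R} (h : RedW τ B r u e d w)
    (ha' : a' ∈ B) : w * a' ∈ WSet τ B r u := by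
  simpa using h.mem_wset (one_mem B) ha'

theorem wset_mul_mem {x a a' : R} (hx : x ∈ WSet τ B r u) (ha : a ∈ B) (ha' : a' ∈ B) :
    a * x * a' ∈ WSet τ B r u := by
  obtain ⟨e, d, w, b, b', h, hb, hb', rfl⟩ := hx
  exact ⟨e, d, w, a * b, b' * a', h, mul_mem ha hb, mul_mem hb' ha', by simp only [mul_assoc]⟩

theorem RedW.mono {B' : StarSubalgebra ℂ R} (hB : B ≤ B') {e d : Bool} {w : R}
    (h : RedW τ B r u e d w) : RedW τ B' r u e d w :=
  Red.mono hB (fun _ _ _ h => h) h

theorem wset_mono {B' : StarSubalgebra ℂ R} (hB : B ≤ B') : WSet τ B r u ⊆ WSet τ B' r u := by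
  rintro _ ⟨e, d, w, b, b', h, hb, hb', rfl⟩
  exact (h.mono hB).mem_wset (hB hb) (hB hb')

theorem Free.mono {B' : StarSubalgebra ℂ R} (hB : B ≤ B') (h : Free τ B' r u) : Free τ B r u :=
  fun x hx => h x (wset_mono hB hx)

theorem wset_subset {C : StarSubalgebra ℂ R} (hB : B ≤ C) (hu : ∀ e, u e ∈ C) :
    WSet τ B r u ⊆ C := by
  rintro _ ⟨e, d, w, b, b', h, hb, hb', rfl⟩
  exact mul_mem (mul_mem (hB hb) (Red.mem hB hu h)) (hB hb')

namespace Pre

theorem D_mem (h : Pre τ B r u) {e : Bool} {d : R} (hd : d ∈ cspan (Set.range (r e))) : d ∈ B :=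
  cspan_le_starSubalgebra h.closed (by rintro _ ⟨k, rfl⟩; exact h.mem e k) hd

theorem ker_mul_right (h : Pre τ B r u) {e : Bool} {d a : R} (hd : d ∈ cspan (Set.range (r e)))
    (haB : a ∈ B) (ha : a ∈ Ker τ (r e)) : a * d ∈ Ker τ (r e) := by
  intro k
  rw [← mul_assoc, h.comm _ (mul_mem (h.mem e k) haB) _ (h.D_mem hd), ← mul_assoc]
  have := tr_eq_zero_of_cspan (τ := τ) 1 (r e k * a) (s := Set.range (r e)) (by
    rintro _ ⟨l, rfl⟩
    rw [one_mul, ← mul_assoc, (h.adm e).mul_eq_max]; exact ha _) hd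
  simpa only [one_mul, mul_assoc] using this

theorem ker_star (h : Pre τ B r u) {e : Bool} {a : R} (haB : a ∈ B) (ha : a ∈ Ker τ (r e)) :
    star a ∈ Ker τ (r e) := by
  intro k
  have h1 := h.map_star _ (mul_mem haB (h.mem e k))
  rw [star_mul, (h.adm e).star_eq, h.comm _ haB _ (h.mem e k), ha k, star_zero] at h1
  exact h1

theorem red_star (h : Pre τ B r u) {e d : Bool} {w : R} (hw : RedW τ B r u e d w) :
    RedW τ B r u (!d) (!e) (star w) :=
  Red.star' h.ustar (fun _ ha => star_mem ha) (fun _ _ ha hk => h.ker_star ha hk) hw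

theorem wset_star (h : Pre τ B r u) {x : R} (hx : x ∈ WSet τ B r u) : star x ∈ WSet τ B r u := by
  obtain ⟨e, d, w, b, b', hw, hb, hb', rfl⟩ := hx
  rw [star_mul, star_mul, ← mul_assoc]
  exact (h.red_star hw).mem_wset (star_mem hb') (star_mem hb)

theorem d_mul_red (h : Pre τ B r u) {e d : Bool} {w g : R} (hw : RedW τ B r u e d w)
    (hg : g ∈ cspan (Set.range (r e))) :
    ∃ w' a, RedW τ B r u e d w' ∧ a ∈ B ∧ g * w = w' * a := by
  have hg' := h.conj_mem hg
  cases hw with
  | single => exact ⟨_, _, .single e, h.D_mem hg', h.mul_u e g⟩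
  | @cons _ e' _ a w₁ ha hk hw₁ =>
    refine ⟨u e * ((u (!e) * g * u e) * a) * w₁, 1, .cons (mul_mem (h.D_mem hg') ha)
      (fun hne => ?_) hw₁, one_mem _, ?_⟩
    · have h2 : e' = !e := by cases e <;> cases e' <;> simp_all
      have := hk hne
      rw [h2] at this ⊢
      exact ker_mul_left (h.adm _).toDec hg' this
    · rw [mul_one, ← mul_assoc, ← mul_assoc, h.mul_u e g]
      simp only [mul_assoc]

/-- Multiplying a full reduced word on the left by `u e`. -/
theorem u_mul_wset (h : Pre τ B r u) (e : Bool) {x : R} (hx : x ∈ WSet τ B r u) :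
    u e * x ∈ Submodule.span ℂ ((B : Set R) ∪ WSet τ B r u) := by
  obtain ⟨e', d, w, a, a', hw, ha, ha', rfl⟩ := hx
  by_cases he : e' = e
  · refine Submodule.subset_span (Or.inr ?_)
    have := RedW.mem_wset_right (Red.cons (e := e) ha (fun hne => absurd he hne) hw) ha'
    simpa only [mul_assoc] using this
  · obtain ⟨g, hg, hk⟩ := h.dec e' a ha
    have h2 : e = !e' := by cases e <;> cases e' <;> simp_all
    have h3 : u e * (a * w * a') = u e * (a - g) * w * a' + u e * g * w * a' := by noncomm_ring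
    rw [h3]
    refine add_mem (Submodule.subset_span (Or.inr ?_)) (Submodule.subset_span ?_)
    · exact RedW.mem_wset_right
        (Red.cons (e := e) (sub_mem ha (h.D_mem hg)) (fun _ => hk) hw) ha'
    · have hg' := h.D_mem (h.conj_mem hg)
      rw [← h2] at hg'
      cases hw with
      | single => exact Or.inl (mul_mem hg' ha')
      | @cons _ e₂ _ a₁ w₁ ha₁ _ hw₁ =>
        refine Or.inr ?_
        have := RedW.mem_wset hw₁ (mul_mem hg' ha₁) ha'
        simpa only [mul_assoc] using this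

theorem adjoin_subset_span (h : Pre τ B r u) {x : R}
    (hx : x ∈ StarAlgebra.adjoin ℂ (insert (u true) (B : Set R))) :
    x ∈ Submodule.span ℂ ((B : Set R) ∪ WSet τ B r u) := by
  set S := Submodule.span ℂ ((B : Set R) ∪ WSet τ B r u) with hS
  have key : ∀ g : R, (∀ y ∈ (B : Set R) ∪ WSet τ B r u, g * y ∈ S) → ∀ y ∈ S, g * y ∈ S := by
    intro g hg y hy
    exact (Submodule.span_le (p := S.comap (LinearMap.mulLeft ℂ g))).2 hg hy
  have hB : ∀ g ∈ B, ∀ y ∈ S, g * y ∈ S := fun g hg => key g (by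
    rintro y (hy | hy)
    · exact Submodule.subset_span (Or.inl (mul_mem hg hy))
    · exact Submodule.subset_span (Or.inr (by simpa using wset_mul_mem hy hg (one_mem B))))
  have hu : ∀ e, ∀ y ∈ S, u e * y ∈ S := fun e => key _ (by
    rintro y (hy | hy)
    · exact Submodule.subset_span (Or.inr (RedW.mem_wset_right (Red.single e) hy))
    · exact h.u_mul_wset e hy)
  have main : (∀ y ∈ S, x * y ∈ S) ∧ ∀ y ∈ S, star x * y ∈ S := by
    induction hx using StarAlgebra.adjoin_induction with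
    | mem x hx =>
      rcases hx with rfl | hx
      · exact ⟨hu true, by rw [h.ustar]; exact hu _⟩
      · exact ⟨hB x hx, hB _ (star_mem hx)⟩
    | algebraMap c => exact ⟨hB _ (algebraMap_mem B c), hB _ (star_mem (algebraMap_mem B c))⟩
    | add x y _ _ hx hy =>
      exact ⟨fun z hz => by rw [add_mul]; exact add_mem (hx.1 z hz) (hy.1 z hz),
        fun z hz => by rw [star_add, add_mul]; exact add_mem (hx.2 z hz) (hy.2 z hz)⟩
    | mul x y _ _ hx hy =>
      exact ⟨fun z hz => by rw [mul_assoc]; exact hx.1 _ (hy.1 z hz),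
        fun z hz => by rw [star_mul, mul_assoc]; exact hy.2 _ (hx.2 z hz)⟩
    | star x _ hx => exact ⟨hx.2, by rw [star_star]; exact hx.1⟩
  simpa using main.1 1 (Submodule.subset_span (Or.inl (one_mem B)))

theorem ext_subset_cspan (h : Pre τ B r u) {x : R} (hx : x ∈ Ext B u) :
    x ∈ cspan ((B : Set R) ∪ WSet τ B r u) :=
  closure_mono (fun _ hy => h.adjoin_subset_span hy) hx

theorem ext_induction (h : Pre τ B r u) {M : Submodule ℂ R} (hM : IsClosed (M : Set R))
    (hB : ∀ x ∈ B, x ∈ M) (hW : ∀ x ∈ WSet τ B r u, x ∈ M) {x : R} (hx : x ∈ Ext B u) : x ∈ M :=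
  cspan_le hM (Set.union_subset hB hW) (h.ext_subset_cspan hx)

theorem tr_conj_D (h : Pre τ B r u) {e : Bool} {g : R} (hg : g ∈ cspan (Set.range (r e))) :
    τ (u (!e) * g * u e) = τ g := by
  have := map_eq_zero_of_cspan
    (τ.comp (ContinuousLinearMap.mulLeftRight ℂ R (u (!e)) (u e)) - τ) (s := Set.range (r e)) (by
      rintro _ ⟨k, rfl⟩
      simp [h.conj_r, h.tr_eq e k]) hg
  simpa [sub_eq_zero] using this

theorem tr_ker (h : Pre τ B r u) {e : Bool} {a : R} (ha : a ∈ Ker τ (r e)) : τ a = 0 := by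
  simpa [(h.adm e).zero] using ha 0

/-- `τ (u e * x * u (!e)) = τ x` on `B`. -/
theorem tr_conj_B (h : Pre τ B r u) (hf : Free τ B r u) (e : Bool) {a : R} (ha : a ∈ B) :
    τ (u e * a * u (!e)) = τ a := by
  obtain ⟨g, hg, hk⟩ := h.dec (!e) a ha
  have h1 : u e * a * u (!e) = u e * (a - g) * u (!e) + u e * g * u (!e) := by noncomm_ring
  have h2 := h.tr_conj_D hg
  rw [Bool.not_not] at h2
  have h3 : τ (u e * (a - g) * u (!e)) = 0 := by
    have := hf _ (RedW.mem_wset_right (Red.cons (e := e) (sub_mem ha (h.D_mem hg)) (fun _ => hk)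
      (Red.single (!e))) (one_mem B))
    rwa [mul_one] at this
  have h4 := h.tr_ker hk
  rw [map_sub, sub_eq_zero] at h4
  rw [h1, map_add, h3, zero_add, h2, h4]

end Pre

end Vale.Agent.P070
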